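import Vale.Agent.Lib.P154Q5.Inv

/-!
The average over the 24 permutations, the symmetric monomials, and their values.
-/

namespace Vale.Agent.Lib.P154Q5

/-- the average over the permutations -/
noncomputable def avg24 (G : ℝ → ℝ → ℝ → ℝ → ℝ) (a0 a1 a2 a3 b0 b1 b2 b3 : ℝ) : ℝ :=
  (G (a0 * b0) (a1 * b1) (a2 * b2) (a3 * b3) +
    G (a0 * b0) (a1 * b1) (a2 * b3) (a3 * b2) +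
    G (a0 * b0) (a1 * b2) (a2 * b1) (a3 * b3) +
    G (a0 * b0) (a1 * b2) (a2 * b3) (a3 * b1) +
    G (a0 * b0) (a1 * b3) (a2 * b1) (a3 * b2) +
    G (a0 * b0) (a1 * b3) (a2 * b2) (a3 * b1) +
    G (a0 * b1) (a1 * b0) (a2 * b2) (a3 * b3) +
    G (a0 * b1) (a1 * b0) (a2 * b3) (a3 * b2) +
    G (a0 * b1) (a1 * b2) (a2 * b0) (a3 * b3) +
    G (a0 * b1) (a1 * b2) (a2 * b3) (a3 * b0) +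
    G (a0 * b1) (a1 * b3) (a2 * b0) (a3 * b2) +
    G (a0 * b1) (a1 * b3) (a2 * b2) (a3 * b0) +
    G (a0 * b2) (a1 * b0) (a2 * b1) (a3 * b3) +
    G (a0 * b2) (a1 * b0) (a2 * b3) (a3 * b1) +
    G (a0 * b2) (a1 * b1) (a2 * b0) (a3 * b3) +
    G (a0 * b2) (a1 * b1) (a2 * b3) (a3 * b0) +
    G (a0 * b2) (a1 * b3) (a2 * b0) (a3 * b1) +
    G (a0 * b2) (a1 * b3) (a2 * b1) (a3 * b0) +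
    G (a0 * b3) (a1 * b0) (a2 * b1) (a3 * b2) +
    G (a0 * b3) (a1 * b0) (a2 * b2) (a3 * b1) +
    G (a0 * b3) (a1 * b1) (a2 * b0) (a3 * b2) +
    G (a0 * b3) (a1 * b1) (a2 * b2) (a3 * b0) +
    G (a0 * b3) (a1 * b2) (a2 * b0) (a3 * b1) +
    G (a0 * b3) (a1 * b2) (a2 * b1) (a3 * b0)) / 24

/-- a symmetric monomial -/
def mb0000 (x0 x1 x2 x3 : ℝ) : ℝ := 1

/-- a symmetric monomial -/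
def mb1000 (x0 x1 x2 x3 : ℝ) : ℝ := x0 + x1 + x2 + x3

/-- a symmetric monomial -/
def mb2000 (x0 x1 x2 x3 : ℝ) : ℝ := x0 ^ 2 + x1 ^ 2 + x2 ^ 2 + x3 ^ 2

/-- a symmetric monomial -/
def mb1100 (x0 x1 x2 x3 : ℝ) : ℝ := x0 * x1 + x0 * x2 + x0 * x3 + x1 * x2 + x1 * x3 + x2 * x3

/-- a symmetric monomial -/
def mb3000 (x0 x1 x2 x3 : ℝ) : ℝ := x0 ^ 3 + x1 ^ 3 + x2 ^ 3 + x3 ^ 3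

/-- a symmetric monomial -/
def mb2100 (x0 x1 x2 x3 : ℝ) : ℝ := x0 ^ 2 * x1 + x0 ^ 2 * x2 + x0 ^ 2 * x3 + x0 * x1 ^ 2 + x0 * x2 ^ 2 + x0 * x3 ^ 2 + x1 ^ 2 * x2 + x1 ^ 2 * x3 + x1 * x2 ^ 2 + x1 * x3 ^ 2 + x2 ^ 2 * x3 + x2 * x3 ^ 2

/-- a symmetric monomial -/
def mb1110 (x0 x1 x2 x3 : ℝ) : ℝ := x0 * x1 * x2 + x0 * x1 * x3 + x0 * x2 * x3 + x1 * x2 * x3

/-- a symmetric monomial -/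
def mb4000 (x0 x1 x2 x3 : ℝ) : ℝ := x0 ^ 4 + x1 ^ 4 + x2 ^ 4 + x3 ^ 4

/-- a symmetric monomial -/
def mb3100 (x0 x1 x2 x3 : ℝ) : ℝ := x0 ^ 3 * x1 + x0 ^ 3 * x2 + x0 ^ 3 * x3 + x0 * x1 ^ 3 + x0 * x2 ^ 3 + x0 * x3 ^ 3 + x1 ^ 3 * x2 + x1 ^ 3 * x3 + x1 * x2 ^ 3 + x1 * x3 ^ 3 + x2 ^ 3 * x3 + x2 * x3 ^ 3

/-- a symmetric monomial -/
def mb2200 (x0 x1 x2 x3 : ℝ) : ℝ := x0 ^ 2 * x1 ^ 2 + x0 ^ 2 * x2 ^ 2 + x0 ^ 2 * x3 ^ 2 + x1 ^ 2 * x2 ^ 2 + x1 ^ 2 * x3 ^ 2 + x2 ^ 2 * x3 ^ 2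

/-- a symmetric monomial -/
def mb2110 (x0 x1 x2 x3 : ℝ) : ℝ := x0 ^ 2 * x1 * x2 + x0 ^ 2 * x1 * x3 + x0 ^ 2 * x2 * x3 + x0 * x1 ^ 2 * x2 + x0 * x1 ^ 2 * x3 + x0 * x1 * x2 ^ 2 + x0 * x1 * x3 ^ 2 + x0 * x2 ^ 2 * x3 + x0 * x2 * x3 ^ 2 + x1 ^ 2 * x2 * x3 + x1 * x2 ^ 2 * x3 + x1 * x2 * x3 ^ 2

/-- a symmetric monomial -/
def mb1111 (x0 x1 x2 x3 : ℝ) : ℝ := x0 * x1 * x2 * x3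

/-- a symmetric monomial -/
def mb5000 (x0 x1 x2 x3 : ℝ) : ℝ := x0 ^ 5 + x1 ^ 5 + x2 ^ 5 + x3 ^ 5

/-- a symmetric monomial -/
def mb4100 (x0 x1 x2 x3 : ℝ) : ℝ := x0 ^ 4 * x1 + x0 ^ 4 * x2 + x0 ^ 4 * x3 + x0 * x1 ^ 4 + x0 * x2 ^ 4 + x0 * x3 ^ 4 + x1 ^ 4 * x2 + x1 ^ 4 * x3 + x1 * x2 ^ 4 + x1 * x3 ^ 4 + x2 ^ 4 * x3 + x2 * x3 ^ 4

/-- a symmetric monomial -/
def mb3200 (x0 x1 x2 x3 : ℝ) : ℝ := x0 ^ 3 * x1 ^ 2 + x0 ^ 3 * x2 ^ 2 + x0 ^ 3 * x3 ^ 2 + x0 ^ 2 * x1 ^ 3 + x0 ^ 2 * x2 ^ 3 + x0 ^ 2 * x3 ^ 3 + x1 ^ 3 * x2 ^ 2 + x1 ^ 3 * x3 ^ 2 + x1 ^ 2 * x2 ^ 3 + x1 ^ 2 * x3 ^ 3 + x2 ^ 3 * x3 ^ 2 + x2 ^ 2 * x3 ^ 3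

/-- a symmetric monomial -/
def mb3110 (x0 x1 x2 x3 : ℝ) : ℝ := x0 ^ 3 * x1 * x2 + x0 ^ 3 * x1 * x3 + x0 ^ 3 * x2 * x3 + x0 * x1 ^ 3 * x2 + x0 * x1 ^ 3 * x3 + x0 * x1 * x2 ^ 3 + x0 * x1 * x3 ^ 3 + x0 * x2 ^ 3 * x3 + x0 * x2 * x3 ^ 3 + x1 ^ 3 * x2 * x3 + x1 * x2 ^ 3 * x3 + x1 * x2 * x3 ^ 3

/-- a symmetric monomial -/
def mb2210 (x0 x1 x2 x3 : ℝ) : ℝ := x0 ^ 2 * x1 ^ 2 * x2 + x0 ^ 2 * x1 ^ 2 * x3 + x0 ^ 2 * x1 * x2 ^ 2 + x0 ^ 2 * x1 * x3 ^ 2 + x0 ^ 2 * x2 ^ 2 * x3 + x0 ^ 2 * x2 * x3 ^ 2 + x0 * x1 ^ 2 * x2 ^ 2 + x0 * x1 ^ 2 * x3 ^ 2 + x0 * x2 ^ 2 * x3 ^ 2 + x1 ^ 2 * x2 ^ 2 * x3 + x1 ^ 2 * x2 * x3 ^ 2 + x1 * x2 ^ 2 * x3 ^ 2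

/-- a symmetric monomial -/
def mb2111 (x0 x1 x2 x3 : ℝ) : ℝ := x0 ^ 2 * x1 * x2 * x3 + x0 * x1 ^ 2 * x2 * x3 + x0 * x1 * x2 ^ 2 * x3 + x0 * x1 * x2 * x3 ^ 2

/-- a symmetric monomial -/
def mb6000 (x0 x1 x2 x3 : ℝ) : ℝ := x0 ^ 6 + x1 ^ 6 + x2 ^ 6 + x3 ^ 6

/-- a symmetric monomial -/
def mb5100 (x0 x1 x2 x3 : ℝ) : ℝ := x0 ^ 5 * x1 + x0 ^ 5 * x2 + x0 ^ 5 * x3 + x0 * x1 ^ 5 + x0 * x2 ^ 5 + x0 * x3 ^ 5 + x1 ^ 5 * x2 + x1 ^ 5 * x3 + x1 * x2 ^ 5 + x1 * x3 ^ 5 + x2 ^ 5 * x3 + x2 * x3 ^ 5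

/-- a symmetric monomial -/
def mb4200 (x0 x1 x2 x3 : ℝ) : ℝ := x0 ^ 4 * x1 ^ 2 + x0 ^ 4 * x2 ^ 2 + x0 ^ 4 * x3 ^ 2 + x0 ^ 2 * x1 ^ 4 + x0 ^ 2 * x2 ^ 4 + x0 ^ 2 * x3 ^ 4 + x1 ^ 4 * x2 ^ 2 + x1 ^ 4 * x3 ^ 2 + x1 ^ 2 * x2 ^ 4 + x1 ^ 2 * x3 ^ 4 + x2 ^ 4 * x3 ^ 2 + x2 ^ 2 * x3 ^ 4

/-- a symmetric monomial -/
def mb4110 (x0 x1 x2 x3 : ℝ) : ℝ := x0 ^ 4 * x1 * x2 + x0 ^ 4 * x1 * x3 + x0 ^ 4 * x2 * x3 + x0 * x1 ^ 4 * x2 + x0 * x1 ^ 4 * x3 + x0 * x1 * x2 ^ 4 + x0 * x1 * x3 ^ 4 + x0 * x2 ^ 4 * x3 + x0 * x2 * x3 ^ 4 + x1 ^ 4 * x2 * x3 + x1 * x2 ^ 4 * x3 + x1 * x2 * x3 ^ 4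

/-- a symmetric monomial -/
def mb3300 (x0 x1 x2 x3 : ℝ) : ℝ := x0 ^ 3 * x1 ^ 3 + x0 ^ 3 * x2 ^ 3 + x0 ^ 3 * x3 ^ 3 + x1 ^ 3 * x2 ^ 3 + x1 ^ 3 * x3 ^ 3 + x2 ^ 3 * x3 ^ 3

/-- a symmetric monomial -/
def mb3210 (x0 x1 x2 x3 : ℝ) : ℝ := x0 ^ 3 * x1 ^ 2 * x2 + x0 ^ 3 * x1 ^ 2 * x3 + x0 ^ 3 * x1 * x2 ^ 2 + x0 ^ 3 * x1 * x3 ^ 2 + x0 ^ 3 * x2 ^ 2 * x3 + x0 ^ 3 * x2 * x3 ^ 2 + x0 ^ 2 * x1 ^ 3 * x2 + x0 ^ 2 * x1 ^ 3 * x3 + x0 ^ 2 * x1 * x2 ^ 3 + x0 ^ 2 * x1 * x3 ^ 3 + x0 ^ 2 * x2 ^ 3 * x3 + x0 ^ 2 * x2 * x3 ^ 3 + x0 * x1 ^ 3 * x2 ^ 2 + x0 * x1 ^ 3 * x3 ^ 2 + x0 * x1 ^ 2 * x2 ^ 3 + x0 * x1 ^ 2 * x3 ^ 3 + x0 * x2 ^ 3 * x3 ^ 2 + x0 * x2 ^ 2 * x3 ^ 3 + x1 ^ 3 * x2 ^ 2 * x3 + x1 ^ 3 * x2 * x3 ^ 2 + x1 ^ 2 * x2 ^ 3 * x3 + x1 ^ 2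 * x2 * x3 ^ 3 + x1 * x2 ^ 3 * x3 ^ 2 + x1 * x2 ^ 2 * x3 ^ 3

/-- a symmetric monomial -/
def mb3111 (x0 x1 x2 x3 : ℝ) : ℝ := x0 ^ 3 * x1 * x2 * x3 + x0 * x1 ^ 3 * x2 * x3 + x0 * x1 * x2 ^ 3 * x3 + x0 * x1 * x2 * x3 ^ 3

/-- a symmetric monomial -/
def mb2220 (x0 x1 x2 x3 : ℝ) : ℝ := x0 ^ 2 * x1 ^ 2 * x2 ^ 2 + x0 ^ 2 * x1 ^ 2 * x3 ^ 2 + x0 ^ 2 * x2 ^ 2 * x3 ^ 2 + x1 ^ 2 * x2 ^ 2 * x3 ^ 2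

/-- a symmetric monomial -/
def mb2211 (x0 x1 x2 x3 : ℝ) : ℝ := x0 ^ 2 * x1 ^ 2 * x2 * x3 + x0 ^ 2 * x1 * x2 ^ 2 * x3 + x0 ^ 2 * x1 * x2 * x3 ^ 2 + x0 * x1 ^ 2 * x2 ^ 2 * x3 + x0 * x1 ^ 2 * x2 * x3 ^ 2 + x0 * x1 * x2 ^ 2 * x3 ^ 2

/-- a symmetric monomial -/
def mb7000 (x0 x1 x2 x3 : ℝ) : ℝ := x0 ^ 7 + x1 ^ 7 + x2 ^ 7 + x3 ^ 7

/-- a symmetric monomial -/
def mb6100 (x0 x1 x2 x3 : ℝ) : ℝ := x0 ^ 6 * x1 + x0 ^ 6 * x2 + x0 ^ 6 * x3 + x0 * x1 ^ 6 + x0 * x2 ^ 6 + x0 * x3 ^ 6 + x1 ^ 6 * x2 + x1 ^ 6 * x3 + x1 * x2 ^ 6 + x1 * x3 ^ 6 + x2 ^ 6 * x3 + x2 * x3 ^ 6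

/-- a symmetric monomial -/
def mb5200 (x0 x1 x2 x3 : ℝ) : ℝ := x0 ^ 5 * x1 ^ 2 + x0 ^ 5 * x2 ^ 2 + x0 ^ 5 * x3 ^ 2 + x0 ^ 2 * x1 ^ 5 + x0 ^ 2 * x2 ^ 5 + x0 ^ 2 * x3 ^ 5 + x1 ^ 5 * x2 ^ 2 + x1 ^ 5 * x3 ^ 2 + x1 ^ 2 * x2 ^ 5 + x1 ^ 2 * x3 ^ 5 + x2 ^ 5 * x3 ^ 2 + x2 ^ 2 * x3 ^ 5

/-- a symmetric monomial -/
def mb5110 (x0 x1 x2 x3 : ℝ) : ℝ := x0 ^ 5 * x1 * x2 + x0 ^ 5 * x1 * x3 + x0 ^ 5 * x2 * x3 + x0 * x1 ^ 5 * x2 + x0 * x1 ^ 5 * x3 + x0 * x1 * x2 ^ 5 + x0 * x1 * x3 ^ 5 + x0 * x2 ^ 5 * x3 + x0 * x2 * x3 ^ 5 + x1 ^ 5 * x2 * x3 + x1 * x2 ^ 5 * x3 + x1 * x2 * x3 ^ 5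

/-- a symmetric monomial -/
def mb4300 (x0 x1 x2 x3 : ℝ) : ℝ := x0 ^ 4 * x1 ^ 3 + x0 ^ 4 * x2 ^ 3 + x0 ^ 4 * x3 ^ 3 + x0 ^ 3 * x1 ^ 4 + x0 ^ 3 * x2 ^ 4 + x0 ^ 3 * x3 ^ 4 + x1 ^ 4 * x2 ^ 3 + x1 ^ 4 * x3 ^ 3 + x1 ^ 3 * x2 ^ 4 + x1 ^ 3 * x3 ^ 4 + x2 ^ 4 * x3 ^ 3 + x2 ^ 3 * x3 ^ 4

/-- a symmetric monomial -/
def mb4210 (x0 x1 x2 x3 : ℝ) : ℝ := x0 ^ 4 * x1 ^ 2 * x2 + x0 ^ 4 * x1 ^ 2 * x3 + x0 ^ 4 * x1 * x2 ^ 2 + x0 ^ 4 * x1 * x3 ^ 2 + x0 ^ 4 * x2 ^ 2 * x3 + x0 ^ 4 * x2 * x3 ^ 2 + x0 ^ 2 * x1 ^ 4 * x2 + x0 ^ 2 * x1 ^ 4 * x3 + x0 ^ 2 * x1 * x2 ^ 4 + x0 ^ 2 * x1 * x3 ^ 4 + x0 ^ 2 * x2 ^ 4 * x3 + x0 ^ 2 * x2 * x3 ^ 4 + x0 * x1 ^ 4 * x2 ^ 2 + x0 * x1 ^ 4 * x3 ^ 2 + x0 * x1 ^ 2 * x2 ^ 4 + x0 * x1 ^ 2 * x3 ^ 4 + x0 * x2 ^ 4 *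 x3 ^ 2 + x0 * x2 ^ 2 * x3 ^ 4 + x1 ^ 4 * x2 ^ 2 * x3 + x1 ^ 4 * x2 * x3 ^ 2 + x1 ^ 2 * x2 ^ 4 * x3 + x1 ^ 2 * x2 * x3 ^ 4 + x1 * x2 ^ 4 * x3 ^ 2 + x1 * x2 ^ 2 * x3 ^ 4

/-- a symmetric monomial -/
def mb4111 (x0 x1 x2 x3 : ℝ) : ℝ := x0 ^ 4 * x1 * x2 * x3 + x0 * x1 ^ 4 * x2 * x3 + x0 * x1 * x2 ^ 4 * x3 + x0 * x1 * x2 * x3 ^ 4

/-- a symmetric monomial -/
def mb3310 (x0 x1 x2 x3 : ℝ) : ℝ := x0 ^ 3 * x1 ^ 3 * x2 + x0 ^ 3 * x1 ^ 3 * x3 + x0 ^ 3 * x1 * x2 ^ 3 + x0 ^ 3 * x1 * x3 ^ 3 + x0 ^ 3 * x2 ^ 3 * x3 + x0 ^ 3 * x2 * x3 ^ 3 + x0 * x1 ^ 3 * x2 ^ 3 + x0 * x1 ^ 3 * x3 ^ 3 + x0 * x2 ^ 3 * x3 ^ 3 + x1 ^ 3 * x2 ^ 3 * x3 + x1 ^ 3 * x2 * x3 ^ 3 + x1 * x2 ^ 3 * x3 ^ 3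

/-- a symmetric monomial -/
def mb3220 (x0 x1 x2 x3 : ℝ) : ℝ := x0 ^ 3 * x1 ^ 2 * x2 ^ 2 + x0 ^ 3 * x1 ^ 2 * x3 ^ 2 + x0 ^ 3 * x2 ^ 2 * x3 ^ 2 + x0 ^ 2 * x1 ^ 3 * x2 ^ 2 + x0 ^ 2 * x1 ^ 3 * x3 ^ 2 + x0 ^ 2 * x1 ^ 2 * x2 ^ 3 + x0 ^ 2 * x1 ^ 2 * x3 ^ 3 + x0 ^ 2 * x2 ^ 3 * x3 ^ 2 + x0 ^ 2 * x2 ^ 2 * x3 ^ 3 + x1 ^ 3 * x2 ^ 2 * x3 ^ 2 + x1 ^ 2 * x2 ^ 3 * x3 ^ 2 + x1 ^ 2 * x2 ^ 2 * x3 ^ 3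

/-- a symmetric monomial -/
def mb3211 (x0 x1 x2 x3 : ℝ) : ℝ := x0 ^ 3 * x1 ^ 2 * x2 * x3 + x0 ^ 3 * x1 * x2 ^ 2 * x3 + x0 ^ 3 * x1 * x2 * x3 ^ 2 + x0 ^ 2 * x1 ^ 3 * x2 * x3 + x0 ^ 2 * x1 * x2 ^ 3 * x3 + x0 ^ 2 * x1 * x2 * x3 ^ 3 + x0 * x1 ^ 3 * x2 ^ 2 * x3 + x0 * x1 ^ 3 * x2 * x3 ^ 2 + x0 * x1 ^ 2 * x2 ^ 3 * x3 + x0 * x1 ^ 2 * x2 * x3 ^ 3 + x0 * x1 * x2 ^ 3 * x3 ^ 2 + x0 * x1 * x2 ^ 2 * x3 ^ 3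

/-- a symmetric monomial -/
def mb2221 (x0 x1 x2 x3 : ℝ) : ℝ := x0 ^ 2 * x1 ^ 2 * x2 ^ 2 * x3 + x0 ^ 2 * x1 ^ 2 * x2 * x3 ^ 2 + x0 ^ 2 * x1 * x2 ^ 2 * x3 ^ 2 + x0 * x1 ^ 2 * x2 ^ 2 * x3 ^ 2

theorem avg_mb0000 (a0 a1 a2 a3 b0 b1 b2 b3 : ℝ) :
    avg24 mb0000 a0 a1 a2 a3 b0 b1 b2 b3 = mb0000 a0 a1 a2 a3 * mb0000 b0 b1 b2 b3 / 1 := by
  unfold avg24 mb0000
  ring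

theorem avg_mb1000 (a0 a1 a2 a3 b0 b1 b2 b3 : ℝ) :
    avg24 mb1000 a0 a1 a2 a3 b0 b1 b2 b3 = mb1000 a0 a1 a2 a3 * mb1000 b0 b1 b2 b3 / 4 := by
  unfold avg24 mb1000
  ring

theorem avg_mb2000 (a0 a1 a2 a3 b0 b1 b2 b3 : ℝ) :
    avg24 mb2000 a0 a1 a2 a3 b0 b1 b2 b3 = mb2000 a0 a1 a2 a3 * mb2000 b0 b1 b2 b3 / 4 := by
  unfold avg24 mb2000
  ring

theorem avg_mb1100 (a0 a1 a2 a3 b0 b1 b2 b3 : ℝ) :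
    avg24 mb1100 a0 a1 a2 a3 b0 b1 b2 b3 = mb1100 a0 a1 a2 a3 * mb1100 b0 b1 b2 b3 / 6 := by
  unfold avg24 mb1100
  ring

theorem avg_mb3000 (a0 a1 a2 a3 b0 b1 b2 b3 : ℝ) :
    avg24 mb3000 a0 a1 a2 a3 b0 b1 b2 b3 = mb3000 a0 a1 a2 a3 * mb3000 b0 b1 b2 b3 / 4 := by
  unfold avg24 mb3000
  ring

theorem avg_mb2100 (a0 a1 a2 a3 b0 b1 b2 b3 : ℝ) :
    avg24 mb2100 a0 a1 a2 a3 b0 b1 b2 b3 = mb2100 a0 a1 a2 a3 * mb2100 b0 b1 b2 b3 / 12 := by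
  unfold avg24 mb2100
  ring

theorem avg_mb1110 (a0 a1 a2 a3 b0 b1 b2 b3 : ℝ) :
    avg24 mb1110 a0 a1 a2 a3 b0 b1 b2 b3 = mb1110 a0 a1 a2 a3 * mb1110 b0 b1 b2 b3 / 4 := by
  unfold avg24 mb1110
  ring

theorem avg_mb4000 (a0 a1 a2 a3 b0 b1 b2 b3 : ℝ) :
    avg24 mb4000 a0 a1 a2 a3 b0 b1 b2 b3 = mb4000 a0 a1 a2 a3 * mb4000 b0 b1 b2 b3 / 4 := by
  unfold avg24 mb4000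
  ring

theorem avg_mb3100 (a0 a1 a2 a3 b0 b1 b2 b3 : ℝ) :
    avg24 mb3100 a0 a1 a2 a3 b0 b1 b2 b3 = mb3100 a0 a1 a2 a3 * mb3100 b0 b1 b2 b3 / 12 := by
  unfold avg24 mb3100
  ring

theorem avg_mb2200 (a0 a1 a2 a3 b0 b1 b2 b3 : ℝ) :
    avg24 mb2200 a0 a1 a2 a3 b0 b1 b2 b3 = mb2200 a0 a1 a2 a3 * mb2200 b0 b1 b2 b3 / 6 := by
  unfold avg24 mb2200
  ring

theorem avg_mb2110 (a0 a1 a2 a3 b0 b1 b2 b3 : ℝ) :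
    avg24 mb2110 a0 a1 a2 a3 b0 b1 b2 b3 = mb2110 a0 a1 a2 a3 * mb2110 b0 b1 b2 b3 / 12 := by
  unfold avg24 mb2110
  ring

theorem avg_mb1111 (a0 a1 a2 a3 b0 b1 b2 b3 : ℝ) :
    avg24 mb1111 a0 a1 a2 a3 b0 b1 b2 b3 = mb1111 a0 a1 a2 a3 * mb1111 b0 b1 b2 b3 / 1 := by
  unfold avg24 mb1111
  ring

theorem avg_mb5000 (a0 a1 a2 a3 b0 b1 b2 b3 : ℝ) :
    avg24 mb5000 a0 a1 a2 a3 b0 b1 b2 b3 = mb5000 a0 a1 a2 a3 * mb5000 b0 b1 b2 b3 / 4 := by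
  unfold avg24 mb5000
  ring

theorem avg_mb4100 (a0 a1 a2 a3 b0 b1 b2 b3 : ℝ) :
    avg24 mb4100 a0 a1 a2 a3 b0 b1 b2 b3 = mb4100 a0 a1 a2 a3 * mb4100 b0 b1 b2 b3 / 12 := by
  unfold avg24 mb4100
  ring

theorem avg_mb3200 (a0 a1 a2 a3 b0 b1 b2 b3 : ℝ) :
    avg24 mb3200 a0 a1 a2 a3 b0 b1 b2 b3 = mb3200 a0 a1 a2 a3 * mb3200 b0 b1 b2 b3 / 12 := by
  unfold avg24 mb3200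
  ring

theorem avg_mb3110 (a0 a1 a2 a3 b0 b1 b2 b3 : ℝ) :
    avg24 mb3110 a0 a1 a2 a3 b0 b1 b2 b3 = mb3110 a0 a1 a2 a3 * mb3110 b0 b1 b2 b3 / 12 := by
  unfold avg24 mb3110
  ring

theorem avg_mb2210 (a0 a1 a2 a3 b0 b1 b2 b3 : ℝ) :
    avg24 mb2210 a0 a1 a2 a3 b0 b1 b2 b3 = mb2210 a0 a1 a2 a3 * mb2210 b0 b1 b2 b3 / 12 := by
  unfold avg24 mb2210
  ring

theorem avg_mb2111 (a0 a1 a2 a3 b0 b1 b2 b3 : ℝ) :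
    avg24 mb2111 a0 a1 a2 a3 b0 b1 b2 b3 = mb2111 a0 a1 a2 a3 * mb2111 b0 b1 b2 b3 / 4 := by
  unfold avg24 mb2111
  ring

theorem avg_mb6000 (a0 a1 a2 a3 b0 b1 b2 b3 : ℝ) :
    avg24 mb6000 a0 a1 a2 a3 b0 b1 b2 b3 = mb6000 a0 a1 a2 a3 * mb6000 b0 b1 b2 b3 / 4 := by
  unfold avg24 mb6000
  ring

theorem avg_mb5100 (a0 a1 a2 a3 b0 b1 b2 b3 : ℝ) :
    avg24 mb5100 a0 a1 a2 a3 b0 b1 b2 b3 = mb5100 a0 a1 a2 a3 * mb5100 b0 b1 b2 b3 / 12 := by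
  unfold avg24 mb5100
  ring

theorem avg_mb4200 (a0 a1 a2 a3 b0 b1 b2 b3 : ℝ) :
    avg24 mb4200 a0 a1 a2 a3 b0 b1 b2 b3 = mb4200 a0 a1 a2 a3 * mb4200 b0 b1 b2 b3 / 12 := by
  unfold avg24 mb4200
  ring

theorem avg_mb4110 (a0 a1 a2 a3 b0 b1 b2 b3 : ℝ) :
    avg24 mb4110 a0 a1 a2 a3 b0 b1 b2 b3 = mb4110 a0 a1 a2 a3 * mb4110 b0 b1 b2 b3 / 12 := by
  unfold avg24 mb4110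
  ring

theorem avg_mb3300 (a0 a1 a2 a3 b0 b1 b2 b3 : ℝ) :
    avg24 mb3300 a0 a1 a2 a3 b0 b1 b2 b3 = mb3300 a0 a1 a2 a3 * mb3300 b0 b1 b2 b3 / 6 := by
  unfold avg24 mb3300
  ring

theorem avg_mb3210 (a0 a1 a2 a3 b0 b1 b2 b3 : ℝ) :
    avg24 mb3210 a0 a1 a2 a3 b0 b1 b2 b3 = mb3210 a0 a1 a2 a3 * mb3210 b0 b1 b2 b3 / 24 := by
  unfold avg24 mb3210
  ring

theorem avg_mb3111 (a0 a1 a2 a3 b0 b1 b2 b3 : ℝ) :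
    avg24 mb3111 a0 a1 a2 a3 b0 b1 b2 b3 = mb3111 a0 a1 a2 a3 * mb3111 b0 b1 b2 b3 / 4 := by
  unfold avg24 mb3111
  ring

theorem avg_mb2220 (a0 a1 a2 a3 b0 b1 b2 b3 : ℝ) :
    avg24 mb2220 a0 a1 a2 a3 b0 b1 b2 b3 = mb2220 a0 a1 a2 a3 * mb2220 b0 b1 b2 b3 / 4 := by
  unfold avg24 mb2220
  ring

theorem avg_mb2211 (a0 a1 a2 a3 b0 b1 b2 b3 : ℝ) :
    avg24 mb2211 a0 a1 a2 a3 b0 b1 b2 b3 = mb2211 a0 a1 a2 a3 * mb2211 b0 b1 b2 b3 / 6 := by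
  unfold avg24 mb2211
  ring

theorem avg_mb7000 (a0 a1 a2 a3 b0 b1 b2 b3 : ℝ) :
    avg24 mb7000 a0 a1 a2 a3 b0 b1 b2 b3 = mb7000 a0 a1 a2 a3 * mb7000 b0 b1 b2 b3 / 4 := by
  unfold avg24 mb7000
  ring

theorem avg_mb6100 (a0 a1 a2 a3 b0 b1 b2 b3 : ℝ) :
    avg24 mb6100 a0 a1 a2 a3 b0 b1 b2 b3 = mb6100 a0 a1 a2 a3 * mb6100 b0 b1 b2 b3 / 12 := by
  unfold avg24 mb6100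
  ring

theorem avg_mb5200 (a0 a1 a2 a3 b0 b1 b2 b3 : ℝ) :
    avg24 mb5200 a0 a1 a2 a3 b0 b1 b2 b3 = mb5200 a0 a1 a2 a3 * mb5200 b0 b1 b2 b3 / 12 := by
  unfold avg24 mb5200
  ring

theorem avg_mb5110 (a0 a1 a2 a3 b0 b1 b2 b3 : ℝ) :
    avg24 mb5110 a0 a1 a2 a3 b0 b1 b2 b3 = mb5110 a0 a1 a2 a3 * mb5110 b0 b1 b2 b3 / 12 := by
  unfold avg24 mb5110
  ring

theorem avg_mb4300 (a0 a1 a2 a3 b0 b1 b2 b3 : ℝ) :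
    avg24 mb4300 a0 a1 a2 a3 b0 b1 b2 b3 = mb4300 a0 a1 a2 a3 * mb4300 b0 b1 b2 b3 / 12 := by
  unfold avg24 mb4300
  ring

theorem avg_mb4210 (a0 a1 a2 a3 b0 b1 b2 b3 : ℝ) :
    avg24 mb4210 a0 a1 a2 a3 b0 b1 b2 b3 = mb4210 a0 a1 a2 a3 * mb4210 b0 b1 b2 b3 / 24 := by
  unfold avg24 mb4210
  ring

theorem avg_mb4111 (a0 a1 a2 a3 b0 b1 b2 b3 : ℝ) :
    avg24 mb4111 a0 a1 a2 a3 b0 b1 b2 b3 = mb4111 a0 a1 a2 a3 * mb4111 b0 b1 b2 b3 / 4 := by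
  unfold avg24 mb4111
  ring

theorem avg_mb3310 (a0 a1 a2 a3 b0 b1 b2 b3 : ℝ) :
    avg24 mb3310 a0 a1 a2 a3 b0 b1 b2 b3 = mb3310 a0 a1 a2 a3 * mb3310 b0 b1 b2 b3 / 12 := by
  unfold avg24 mb3310
  ring

theorem avg_mb3220 (a0 a1 a2 a3 b0 b1 b2 b3 : ℝ) :
    avg24 mb3220 a0 a1 a2 a3 b0 b1 b2 b3 = mb3220 a0 a1 a2 a3 * mb3220 b0 b1 b2 b3 / 12 := by
  unfold avg24 mb3220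
  ring

theorem avg_mb3211 (a0 a1 a2 a3 b0 b1 b2 b3 : ℝ) :
    avg24 mb3211 a0 a1 a2 a3 b0 b1 b2 b3 = mb3211 a0 a1 a2 a3 * mb3211 b0 b1 b2 b3 / 12 := by
  unfold avg24 mb3211
  ring

theorem avg_mb2221 (a0 a1 a2 a3 b0 b1 b2 b3 : ℝ) :
    avg24 mb2221 a0 a1 a2 a3 b0 b1 b2 b3 = mb2221 a0 a1 a2 a3 * mb2221 b0 b1 b2 b3 / 4 := by
  unfold avg24 mb2221
  ring

theorem mb0000_eq {a0 a1 a2 a3 : ℝ} (h : a0 + a1 + a2 + a3 = 4) :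
    mb0000 a0 a1 a2 a3 = 1 * 1 := by
  have e : a3 = 4 - a0 - a1 - a2 := by linarith
  subst e
  simp only [mb0000, sS, sT, sQ]
  ring

theorem mb1000_eq {a0 a1 a2 a3 : ℝ} (h : a0 + a1 + a2 + a3 = 4) :
    mb1000 a0 a1 a2 a3 = 4 * 1 := by
  have e : a3 = 4 - a0 - a1 - a2 := by linarith
  subst e
  simp only [mb1000, sS, sT, sQ]
  ring

theorem mb2000_eq {a0 a1 a2 a3 : ℝ} (h : a0 + a1 + a2 + a3 = 4) :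
    mb2000 a0 a1 a2 a3 = 4 * 1 + 1 * sS a0 a1 a2 a3 := by
  have e : a3 = 4 - a0 - a1 - a2 := by linarith
  subst e
  simp only [mb2000, sS, sT, sQ]
  ring

theorem mb1100_eq {a0 a1 a2 a3 : ℝ} (h : a0 + a1 + a2 + a3 = 4) :
    mb1100 a0 a1 a2 a3 = 6 * 1 + (-1 / 2) * sS a0 a1 a2 a3 := by
  have e : a3 = 4 - a0 - a1 - a2 := by linarith
  subst e
  simp only [mb1100, sS, sT, sQ]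
  ring

theorem mb3000_eq {a0 a1 a2 a3 : ℝ} (h : a0 + a1 + a2 + a3 = 4) :
    mb3000 a0 a1 a2 a3 = 4 * 1 + 3 * sS a0 a1 a2 a3 + 1 * sT a0 a1 a2 a3 := by
  have e : a3 = 4 - a0 - a1 - a2 := by linarith
  subst e
  simp only [mb3000, sS, sT, sQ]
  ring

theorem mb2100_eq {a0 a1 a2 a3 : ℝ} (h : a0 + a1 + a2 + a3 = 4) :
    mb2100 a0 a1 a2 a3 = 12 * 1 + 1 * sS a0 a1 a2 a3 + (-1) * sT a0 a1 a2 a3 := by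
  have e : a3 = 4 - a0 - a1 - a2 := by linarith
  subst e
  simp only [mb2100, sS, sT, sQ]
  ring

theorem mb1110_eq {a0 a1 a2 a3 : ℝ} (h : a0 + a1 + a2 + a3 = 4) :
    mb1110 a0 a1 a2 a3 = 4 * 1 + (-1) * sS a0 a1 a2 a3 + (1 / 3) * sT a0 a1 a2 a3 := by
  have e : a3 = 4 - a0 - a1 - a2 := by linarith
  subst e
  simp only [mb1110, sS, sT, sQ]
  ring

theorem mb4000_eq {a0 a1 a2 a3 : ℝ} (h : a0 + a1 + a2 + a3 = 4) :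
    mb4000 a0 a1 a2 a3 = 4 * 1 + 6 * sS a0 a1 a2 a3 + 4 * sT a0 a1 a2 a3 + 1 * sQ a0 a1 a2 a3 := by
  have e : a3 = 4 - a0 - a1 - a2 := by linarith
  subst e
  simp only [mb4000, sS, sT, sQ]
  ring

theorem mb3100_eq {a0 a1 a2 a3 : ℝ} (h : a0 + a1 + a2 + a3 = 4) :
    mb3100 a0 a1 a2 a3 = 12 * 1 + 6 * sS a0 a1 a2 a3 + (-1) * sQ a0 a1 a2 a3 := by
  have e : a3 = 4 - a0 - a1 - a2 := by linarith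
  subst e
  simp only [mb3100, sS, sT, sQ]
  ring

theorem mb2200_eq {a0 a1 a2 a3 : ℝ} (h : a0 + a1 + a2 + a3 = 4) :
    mb2200 a0 a1 a2 a3 = 6 * 1 + 1 * sS a0 a1 a2 a3 + (-2) * sT a0 a1 a2 a3 + (1 / 2) * sS a0 a1 a2 a3 ^ 2 + (-1 / 2) * sQ a0 a1 a2 a3 := by
  have e : a3 = 4 - a0 - a1 - a2 := by linarith
  subst e
  simp only [mb2200, sS, sT, sQ]
  ring

theorem mb2110_eq {a0 a1 a2 a3 : ℝ} (h : a0 + a1 + a2 + a3 = 4) :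
    mb2110 a0 a1 a2 a3 = 12 * 1 + (-2) * sS a0 a1 a2 a3 + (-1 / 2) * sS a0 a1 a2 a3 ^ 2 + 1 * sQ a0 a1 a2 a3 := by
  have e : a3 = 4 - a0 - a1 - a2 := by linarith
  subst e
  simp only [mb2110, sS, sT, sQ]
  ring

theorem mb1111_eq {a0 a1 a2 a3 : ℝ} (h : a0 + a1 + a2 + a3 = 4) :
    mb1111 a0 a1 a2 a3 = 1 * 1 + (-1 / 2) * sS a0 a1 a2 a3 + (1 / 3) * sT a0 a1 a2 a3 + (1 / 8) * sS a0 a1 a2 a3 ^ 2 + (-1 / 4) * sQ a0 a1 a2 a3 := by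
  have e : a3 = 4 - a0 - a1 - a2 := by linarith
  subst e
  simp only [mb1111, sS, sT, sQ]
  ring

theorem mb5000_eq {a0 a1 a2 a3 : ℝ} (h : a0 + a1 + a2 + a3 = 4) :
    mb5000 a0 a1 a2 a3 = 4 * 1 + 10 * sS a0 a1 a2 a3 + 10 * sT a0 a1 a2 a3 + 5 * sQ a0 a1 a2 a3 + (5 / 6) * sS a0 a1 a2 a3 * sT a0 a1 a2 a3 := by
  have e : a3 = 4 - a0 - a1 - a2 := by linarith
  subst e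
  simp only [mb5000, sS, sT, sQ]
  ring

theorem mb4100_eq {a0 a1 a2 a3 : ℝ} (h : a0 + a1 + a2 + a3 = 4) :
    mb4100 a0 a1 a2 a3 = 12 * 1 + 14 * sS a0 a1 a2 a3 + 6 * sT a0 a1 a2 a3 + (-1) * sQ a0 a1 a2 a3 + (-5 / 6) * sS a0 a1 a2 a3 * sT a0 a1 a2 a3 := by
  have e : a3 = 4 - a0 - a1 - a2 := by linarith
  subst e
  simp only [mb4100, sS, sT, sQ]
  ring

theorem mb3200_eq {a0 a1 a2 a3 : ℝ} (h : a0 + a1 + a2 + a3 = 4) :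
    mb3200 a0 a1 a2 a3 = 12 * 1 + 6 * sS a0 a1 a2 a3 + (-6) * sT a0 a1 a2 a3 + 3 * sS a0 a1 a2 a3 ^ 2 + (-5) * sQ a0 a1 a2 a3 + (1 / 6) * sS a0 a1 a2 a3 * sT a0 a1 a2 a3 := by
  have e : a3 = 4 - a0 - a1 - a2 := by linarith
  subst e
  simp only [mb3200, sS, sT, sQ]
  ring

theorem mb3110_eq {a0 a1 a2 a3 : ℝ} (h : a0 + a1 + a2 + a3 = 4) :
    mb3110 a0 a1 a2 a3 = 12 * 1 + 2 * sS a0 a1 a2 a3 + (-3 / 2) * sS a0 a1 a2 a3 ^ 2 + 1 * sQ a0 a1 a2 a3 + (1 / 3) * sS a0 a1 a2 a3 * sT a0 a1 a2 a3 := by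
  have e : a3 = 4 - a0 - a1 - a2 := by linarith
  subst e
  simp only [mb3110, sS, sT, sQ]
  ring

theorem mb2210_eq {a0 a1 a2 a3 : ℝ} (h : a0 + a1 + a2 + a3 = 4) :
    mb2210 a0 a1 a2 a3 = 12 * 1 + (-2) * sS a0 a1 a2 a3 + (-2) * sT a0 a1 a2 a3 + (-1) * sS a0 a1 a2 a3 ^ 2 + 3 * sQ a0 a1 a2 a3 + (-1 / 6) * sS a0 a1 a2 a3 * sT a0 a1 a2 a3 := by
  have e : a3 = 4 - a0 - a1 - a2 := by linarith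
  subst e
  simp only [mb2210, sS, sT, sQ]
  ring

theorem mb2111_eq {a0 a1 a2 a3 : ℝ} (h : a0 + a1 + a2 + a3 = 4) :
    mb2111 a0 a1 a2 a3 = 4 * 1 + (-2) * sS a0 a1 a2 a3 + (4 / 3) * sT a0 a1 a2 a3 + (1 / 2) * sS a0 a1 a2 a3 ^ 2 + (-1) * sQ a0 a1 a2 a3 := by
  have e : a3 = 4 - a0 - a1 - a2 := by linarith
  subst e
  simp only [mb2111, sS, sT, sQ]
  ring

theorem mb6000_eq {a0 a1 a2 a3 : ℝ} (h : a0 + a1 + a2 + a3 = 4) :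
    mb6000 a0 a1 a2 a3 = 4 * 1 + 15 * sS a0 a1 a2 a3 + 20 * sT a0 a1 a2 a3 + 15 * sQ a0 a1 a2 a3 + 5 * sS a0 a1 a2 a3 * sT a0 a1 a2 a3 + (-1 / 8) * sS a0 a1 a2 a3 ^ 3 + (1 / 3) * sT a0 a1 a2 a3 ^ 2 + (3 / 4) * sS a0 a1 a2 a3 * sQ a0 a1 a2 a3 := by
  have e : a3 = 4 - a0 - a1 - a2 := by linarith
  subst e
  simp only [mb6000, sS, sT, sQ]
  ring

theorem mb5100_eq {a0 a1 a2 a3 : ℝ} (h : a0 + a1 + a2 + a3 = 4) :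
    mb5100 a0 a1 a2 a3 = 12 * 1 + 25 * sS a0 a1 a2 a3 + 20 * sT a0 a1 a2 a3 + 5 * sQ a0 a1 a2 a3 + (-5 / 3) * sS a0 a1 a2 a3 * sT a0 a1 a2 a3 + (1 / 8) * sS a0 a1 a2 a3 ^ 3 + (-1 / 3) * sT a0 a1 a2 a3 ^ 2 + (-3 / 4) * sS a0 a1 a2 a3 * sQ a0 a1 a2 a3 := by
  have e : a3 = 4 - a0 - a1 - a2 := by linarith
  subst e
  simp only [mb5100, sS, sT, sQ]
  ring

theorem mb4200_eq {a0 a1 a2 a3 : ℝ} (h : a0 + a1 + a2 + a3 = 4) :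
    mb4200 a0 a1 a2 a3 = 12 * 1 + 13 * sS a0 a1 a2 a3 + (-4) * sT a0 a1 a2 a3 + 6 * sS a0 a1 a2 a3 ^ 2 + (-11) * sQ a0 a1 a2 a3 + (-1) * sS a0 a1 a2 a3 * sT a0 a1 a2 a3 + (1 / 8) * sS a0 a1 a2 a3 ^ 3 + (-1 / 3) * sT a0 a1 a2 a3 ^ 2 + (1 / 4) * sS a0 a1 a2 a3 * sQ a0 a1 a2 a3 := by
  have e : a3 = 4 - a0 - a1 - a2 := by linarith
  subst e
  simp only [mb4200, sS, sT, sQ]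
  ring

theorem mb4110_eq {a0 a1 a2 a3 : ℝ} (h : a0 + a1 + a2 + a3 = 4) :
    mb4110 a0 a1 a2 a3 = 12 * 1 + 9 * sS a0 a1 a2 a3 + 4 * sT a0 a1 a2 a3 + (-3) * sS a0 a1 a2 a3 ^ 2 + 1 * sQ a0 a1 a2 a3 + (-1 / 3) * sS a0 a1 a2 a3 * sT a0 a1 a2 a3 + (-1 / 8) * sS a0 a1 a2 a3 ^ 3 + (1 / 3) * sT a0 a1 a2 a3 ^ 2 + (1 / 4) * sS a0 a1 a2 a3 * sQ a0 a1 a2 a3 := by
  have e : a3 = 4 - a0 - a1 - a2 := by linarith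
  subst e
  simp only [mb4110, sS, sT, sQ]
  ring

theorem mb3300_eq {a0 a1 a2 a3 : ℝ} (h : a0 + a1 + a2 + a3 = 4) :
    mb3300 a0 a1 a2 a3 = 6 * 1 + (9 / 2) * sS a0 a1 a2 a3 + (-6) * sT a0 a1 a2 a3 + (9 / 2) * sS a0 a1 a2 a3 ^ 2 + (-15 / 2) * sQ a0 a1 a2 a3 + (1 / 2) * sS a0 a1 a2 a3 * sT a0 a1 a2 a3 + (1 / 16) * sS a0 a1 a2 a3 ^ 3 + (1 / 3) * sT a0 a1 a2 a3 ^ 2 + (-3 / 8) * sS a0 a1 a2 a3 * sQ a0 a1 a2 a3 := by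
  have e : a3 = 4 - a0 - a1 - a2 := by linarith
  subst e
  simp only [mb3300, sS, sT, sQ]
  ring

theorem mb3210_eq {a0 a1 a2 a3 : ℝ} (h : a0 + a1 + a2 + a3 = 4) :
    mb3210 a0 a1 a2 a3 = 24 * 1 + 2 * sS a0 a1 a2 a3 + (-8) * sT a0 a1 a2 a3 + (-3) * sS a0 a1 a2 a3 ^ 2 + 6 * sQ a0 a1 a2 a3 + (2 / 3) * sS a0 a1 a2 a3 * sT a0 a1 a2 a3 + (-1 / 4) * sS a0 a1 a2 a3 ^ 3 + (-1 / 3) * sT a0 a1 a2 a3 ^ 2 + (1 / 2) * sS a0 a1 a2 a3 * sQ a0 a1 a2 a3 := by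
  have e : a3 = 4 - a0 - a1 - a2 := by linarith
  subst e
  simp only [mb3210, sS, sT, sQ]
  ring

theorem mb3111_eq {a0 a1 a2 a3 : ℝ} (h : a0 + a1 + a2 + a3 = 4) :
    mb3111 a0 a1 a2 a3 = 4 * 1 + (-1) * sS a0 a1 a2 a3 + (4 / 3) * sT a0 a1 a2 a3 + (-1) * sQ a0 a1 a2 a3 + (1 / 3) * sS a0 a1 a2 a3 * sT a0 a1 a2 a3 + (1 / 8) * sS a0 a1 a2 a3 ^ 3 + (-1 / 4) * sS a0 a1 a2 a3 * sQ a0 a1 a2 a3 := by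
  have e : a3 = 4 - a0 - a1 - a2 := by linarith
  subst e
  simp only [mb3111, sS, sT, sQ]
  ring

theorem mb2220_eq {a0 a1 a2 a3 : ℝ} (h : a0 + a1 + a2 + a3 = 4) :
    mb2220 a0 a1 a2 a3 = 4 * 1 + (-1) * sS a0 a1 a2 a3 + (-4 / 3) * sT a0 a1 a2 a3 + (-1) * sS a0 a1 a2 a3 ^ 2 + 3 * sQ a0 a1 a2 a3 + (-1 / 3) * sS a0 a1 a2 a3 * sT a0 a1 a2 a3 + (1 / 8) * sS a0 a1 a2 a3 ^ 3 + (1 / 9) * sT a0 a1 a2 a3 ^ 2 + (-1 / 4) * sS a0 a1 a2 a3 * sQ a0 a1 a2 a3 := by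
  have e : a3 = 4 - a0 - a1 - a2 := by linarith
  subst e
  simp only [mb2220, sS, sT, sQ]
  ring

theorem mb2211_eq {a0 a1 a2 a3 : ℝ} (h : a0 + a1 + a2 + a3 = 4) :
    mb2211 a0 a1 a2 a3 = 6 * 1 + (-7 / 2) * sS a0 a1 a2 a3 + 2 * sT a0 a1 a2 a3 + 1 * sS a0 a1 a2 a3 ^ 2 + (-3 / 2) * sQ a0 a1 a2 a3 + (-1 / 6) * sS a0 a1 a2 a3 * sT a0 a1 a2 a3 + (-1 / 16) * sS a0 a1 a2 a3 ^ 3 + (1 / 8) * sS a0 a1 a2 a3 * sQ a0 a1 a2 a3 := by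
  have e : a3 = 4 - a0 - a1 - a2 := by linarith
  subst e
  simp only [mb2211, sS, sT, sQ]
  ring

theorem mb7000_eq {a0 a1 a2 a3 : ℝ} (h : a0 + a1 + a2 + a3 = 4) :
    mb7000 a0 a1 a2 a3 = 4 * 1 + 21 * sS a0 a1 a2 a3 + 35 * sT a0 a1 a2 a3 + 35 * sQ a0 a1 a2 a3 + (35 / 2) * sS a0 a1 a2 a3 * sT a0 a1 a2 a3 + (-7 / 8) * sS a0 a1 a2 a3 ^ 3 + (7 / 3) * sT a0 a1 a2 a3 ^ 2 + (21 / 4) * sS a0 a1 a2 a3 * sQ a0 a1 a2 a3 + (7 / 24) * sS a0 a1 a2 a3 ^ 2 * sT a0 a1 a2 a3 + (7 / 12) * sT a0 a1 a2 a3 * sQ a0 a1 a2 a3 := by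
  have e : a3 = 4 - a0 - a1 - a2 := by linarith
  subst e
  simp only [mb7000, sS, sT, sQ]
  ring

theorem mb6100_eq {a0 a1 a2 a3 : ℝ} (h : a0 + a1 + a2 + a3 = 4) :
    mb6100 a0 a1 a2 a3 = 12 * 1 + 39 * sS a0 a1 a2 a3 + 45 * sT a0 a1 a2 a3 + 25 * sQ a0 a1 a2 a3 + (5 / 2) * sS a0 a1 a2 a3 * sT a0 a1 a2 a3 + (3 / 8) * sS a0 a1 a2 a3 ^ 3 + (-1) * sT a0 a1 a2 a3 ^ 2 + (-9 / 4) * sS a0 a1 a2 a3 * sQ a0 a1 a2 a3 + (-7 / 24) * sS a0 a1 a2 a3 ^ 2 * sT a0 a1 a2 a3 + (-7 / 12) * sT a0 a1 a2 a3 * sQ a0 a1 a2 a3 := by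
  have e : a3 = 4 - a0 - a1 - a2 := by linarith
  subst e
  simp only [mb6100, sS, sT, sQ]
  ring

theorem mb5200_eq {a0 a1 a2 a3 : ℝ} (h : a0 + a1 + a2 + a3 = 4) :
    mb5200 a0 a1 a2 a3 = 12 * 1 + 23 * sS a0 a1 a2 a3 + 5 * sT a0 a1 a2 a3 + 10 * sS a0 a1 a2 a3 ^ 2 + (-15) * sQ a0 a1 a2 a3 + (-25 / 6) * sS a0 a1 a2 a3 * sT a0 a1 a2 a3 + (7 / 8) * sS a0 a1 a2 a3 ^ 3 + (-7 / 3) * sT a0 a1 a2 a3 ^ 2 + (-1 / 4) * sS a0 a1 a2 a3 * sQ a0 a1 a2 a3 + (13 / 24) * sS a0 a1 a2 a3 ^ 2 * sT a0 a1 a2 a3 + (-7 / 12) * sT a0 a1 a2 a3 * sQ a0 a1 a2 a3 := by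
  have e : a3 = 4 - a0 - a1 - a2 := by linarith
  subst e
  simp only [mb5200, sS, sT, sQ]
  ring

theorem mb5110_eq {a0 a1 a2 a3 : ℝ} (h : a0 + a1 + a2 + a3 = 4) :
    mb5110 a0 a1 a2 a3 = 12 * 1 + 19 * sS a0 a1 a2 a3 + 15 * sT a0 a1 a2 a3 + (-5) * sS a0 a1 a2 a3 ^ 2 + 5 * sQ a0 a1 a2 a3 + (-5 / 2) * sS a0 a1 a2 a3 * sT a0 a1 a2 a3 + (-3 / 8) * sS a0 a1 a2 a3 ^ 3 + 1 * sT a0 a1 a2 a3 ^ 2 + (-1 / 4) * sS a0 a1 a2 a3 * sQ a0 a1 a2 a3 + (-1 / 8) * sS a0 a1 a2 a3 ^ 2 * sT a0 a1 a2 a3 + (7 / 12) * sT a0 a1 a2 a3 * sQ a0 a1 a2 a3 := by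
  have e : a3 = 4 - a0 - a1 - a2 := by linarith
  subst e
  simp only [mb5110, sS, sT, sQ]
  ring

theorem mb4300_eq {a0 a1 a2 a3 : ℝ} (h : a0 + a1 + a2 + a3 = 4) :
    mb4300 a0 a1 a2 a3 = 12 * 1 + 15 * sS a0 a1 a2 a3 + (-15) * sT a0 a1 a2 a3 + 18 * sS a0 a1 a2 a3 ^ 2 + (-31) * sQ a0 a1 a2 a3 + (1 / 2) * sS a0 a1 a2 a3 * sT a0 a1 a2 a3 + (7 / 8) * sS a0 a1 a2 a3 ^ 3 + (5 / 3) * sT a0 a1 a2 a3 ^ 2 + (-9 / 4) * sS a0 a1 a2 a3 * sQ a0 a1 a2 a3 + (-7 / 24) * sS a0 a1 a2 a3 ^ 2 * sT a0 a1 a2 a3 + (5 / 12) * sT a0 a1 a2 a3 * sQ a0 a1 a2 a3 := by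
  have e : a3 = 4 - a0 - a1 - a2 := by linarith
  subst e
  simp only [mb4300, sS, sT, sQ]
  ring

theorem mb4210_eq {a0 a1 a2 a3 : ℝ} (h : a0 + a1 + a2 + a3 = 4) :
    mb4210 a0 a1 a2 a3 = 24 * 1 + 14 * sS a0 a1 a2 a3 + (-6) * sT a0 a1 a2 a3 + (-4) * sS a0 a1 a2 a3 ^ 2 + 2 * sQ a0 a1 a2 a3 + (-1 / 3) * sS a0 a1 a2 a3 * sT a0 a1 a2 a3 + (-5 / 4) * sS a0 a1 a2 a3 ^ 3 + (-2 / 3) * sT a0 a1 a2 a3 ^ 2 + (7 / 2) * sS a0 a1 a2 a3 * sQ a0 a1 a2 a3 + (-1 / 4) * sS a0 a1 a2 a3 ^ 2 * sT a0 a1 a2 a3 + (1 / 6) * sT a0 a1 a2 a3 * sQ a0 a1 a2 a3 := by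
  have e : a3 = 4 - a0 - a1 - a2 := by linarith
  subst e
  simp only [mb4210, sS, sT, sQ]
  ring

theorem mb4111_eq {a0 a1 a2 a3 : ℝ} (h : a0 + a1 + a2 + a3 = 4) :
    mb4111 a0 a1 a2 a3 = 4 * 1 + 1 * sS a0 a1 a2 a3 + (7 / 3) * sT a0 a1 a2 a3 + (-1) * sS a0 a1 a2 a3 ^ 2 + (-1) * sQ a0 a1 a2 a3 + (1 / 2) * sS a0 a1 a2 a3 * sT a0 a1 a2 a3 + (3 / 8) * sS a0 a1 a2 a3 ^ 3 + (1 / 3) * sT a0 a1 a2 a3 ^ 2 + (-3 / 4) * sS a0 a1 a2 a3 * sQ a0 a1 a2 a3 + (1 / 8) * sS a0 a1 a2 a3 ^ 2 * sT a0 a1 a2 a3 + (-1 / 4) * sT a0 a1 a2 a3 * sQ a0 a1 a2 a3 := by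
  have e : a3 = 4 - a0 - a1 - a2 := by linarith
  subst e
  simp only [mb4111, sS, sT, sQ]
  ring

theorem mb3310_eq {a0 a1 a2 a3 : ℝ} (h : a0 + a1 + a2 + a3 = 4) :
    mb3310 a0 a1 a2 a3 = 12 * 1 + 3 * sS a0 a1 a2 a3 + (-9) * sT a0 a1 a2 a3 + 1 * sQ a0 a1 a2 a3 + (3 / 2) * sS a0 a1 a2 a3 * sT a0 a1 a2 a3 + (-5 / 8) * sS a0 a1 a2 a3 ^ 3 + (-1 / 3) * sT a0 a1 a2 a3 ^ 2 + (3 / 4) * sS a0 a1 a2 a3 * sQ a0 a1 a2 a3 + (7 / 24) * sS a0 a1 a2 a3 ^ 2 * sT a0 a1 a2 a3 + (-5 / 12) * sT a0 a1 a2 a3 * sQ a0 a1 a2 a3 := by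
  have e : a3 = 4 - a0 - a1 - a2 := by linarith
  subst e
  simp only [mb3310, sS, sT, sQ]
  ring

theorem mb3220_eq {a0 a1 a2 a3 : ℝ} (h : a0 + a1 + a2 + a3 = 4) :
    mb3220 a0 a1 a2 a3 = 12 * 1 + (-1) * sS a0 a1 a2 a3 + (-7) * sT a0 a1 a2 a3 + (-5) * sS a0 a1 a2 a3 ^ 2 + 13 * sQ a0 a1 a2 a3 + (-5 / 6) * sS a0 a1 a2 a3 * sT a0 a1 a2 a3 + (5 / 8) * sS a0 a1 a2 a3 ^ 3 + (1 / 3) * sT a0 a1 a2 a3 ^ 2 + (-5 / 4) * sS a0 a1 a2 a3 * sQ a0 a1 a2 a3 + (-1 / 24) * sS a0 a1 a2 a3 ^ 2 * sT a0 a1 a2 a3 + (1 / 12) * sT a0 a1 a2 a3 * sQ a0 a1 a2 a3 := by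
  have e : a3 = 4 - a0 - a1 - a2 := by linarith
  subst e
  simp only [mb3220, sS, sT, sQ]
  ring

theorem mb3211_eq {a0 a1 a2 a3 : ℝ} (h : a0 + a1 + a2 + a3 = 4) :
    mb3211 a0 a1 a2 a3 = 12 * 1 + (-5) * sS a0 a1 a2 a3 + 3 * sT a0 a1 a2 a3 + 1 * sS a0 a1 a2 a3 ^ 2 + (-3) * sQ a0 a1 a2 a3 + (5 / 6) * sS a0 a1 a2 a3 * sT a0 a1 a2 a3 + (1 / 8) * sS a0 a1 a2 a3 ^ 3 + (-1 / 3) * sT a0 a1 a2 a3 ^ 2 + (-1 / 4) * sS a0 a1 a2 a3 * sQ a0 a1 a2 a3 + (-1 / 8) * sS a0 a1 a2 a3 ^ 2 * sT a0 a1 a2 a3 + (1 / 4) * sT a0 a1 a2 a3 * sQ a0 a1 a2 a3 := by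
  have e : a3 = 4 - a0 - a1 - a2 := by linarith
  subst e
  simp only [mb3211, sS, sT, sQ]
  ring

theorem mb2221_eq {a0 a1 a2 a3 : ℝ} (h : a0 + a1 + a2 + a3 = 4) :
    mb2221 a0 a1 a2 a3 = 4 * 1 + (-3) * sS a0 a1 a2 a3 + (5 / 3) * sT a0 a1 a2 a3 + 1 * sS a0 a1 a2 a3 ^ 2 + (-1) * sQ a0 a1 a2 a3 + (-1 / 2) * sS a0 a1 a2 a3 * sT a0 a1 a2 a3 + (-1 / 8) * sS a0 a1 a2 a3 ^ 3 + (1 / 9) * sT a0 a1 a2 a3 ^ 2 + (1 / 4) * sS a0 a1 a2 a3 * sQ a0 a1 a2 a3 + (1 / 24) * sS a0 a1 a2 a3 ^ 2 * sT a0 a1 a2 a3 + (-1 / 12) * sT a0 a1 a2 a3 * sQ a0 a1 a2 a3 := by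
  have e : a3 = 4 - a0 - a1 - a2 := by linarith
  subst e
  simp only [mb2221, sS, sT, sQ]
  ring

end Vale.Agent.Lib.P154Q5
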