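import Vale.Agent.Lib.P154Q5.Pack

/-!
The packed control points of a cell; clipping and discarding of cells; the tree recursion.
-/

namespace Vale.Agent.Lib.P154Q5

/-- the packed control points of a cell, computed by few multiplications -/
def pkOld (X U L H l h : Nat) (f : Bool) : V :=
  let X2 := Nat.mul X X
  let X4 := Nat.mul X2 X2
  let X6 := Nat.mul X4 X2
  let X8 := Nat.mul X4 X4
  let X16 := Nat.mul X8 X8
  let U2 := Nat.mul U U
  let U3 := Nat.mul U2 U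
  let LH := Nat.mul L H
  let LL := Nat.mul L L
  let HH := Nat.mul H H
  let ll := Nat.mul l l
  let lh := Nat.mul l h
  let hh := Nat.mul h h
  let UC := Nat.mul U (Nat.add L H)
  let S0 := Nat.mul (Nat.mul 2 U2) (Nat.add 1 (Nat.add X8 X16))
  let S1 := Nat.add (Nat.mul 2 (Nat.mul U L)) (Nat.add (Nat.mul UC X8) (Nat.mul (Nat.mul 2 (Nat.mul U H)) X16))
  let S2 := Nat.add (Nat.mul 2 LL) (Nat.add (Nat.mul (Nat.mul 2 LH) X8) (Nat.mul (Nat.mul 2 HH) X16))
  let N0 := Nat.mul (Nat.mul 3 U3) (Nat.add 1 (Nat.add X2 (Nat.add X4 X6)))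
  let N1 := Nat.mul U2 (Nat.add (Nat.mul 3 l) (Nat.add (Nat.mul (Nat.add (Nat.mul 2 l) h) X2)
    (Nat.add (Nat.mul (Nat.add l (Nat.mul 2 h)) X4) (Nat.mul (Nat.mul 3 h) X6))))
  let N2 := Nat.mul U (Nat.add (Nat.mul 3 ll) (Nat.add (Nat.mul (Nat.add ll (Nat.mul 2 lh)) X2)
    (Nat.add (Nat.mul (Nat.add (Nat.mul 2 lh) hh) X4) (Nat.mul (Nat.mul 3 hh) X6))))
  let N3 := Nat.mul 3 (Nat.add (Nat.mul ll l) (Nat.add (Nat.mul (Nat.mul ll h) X2)
    (Nat.add (Nat.mul (Nat.mul l hh) X4) (Nat.mul (Nat.mul hh h) X6))))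
  let p0 := Nat.mul S0 N0
  let p1 := Nat.mul S0 N1
  let p2 := Nat.mul S1 N0
  let p4 := Nat.mul S1 N1
  let p5 := Nat.mul S2 N0
  let p6 := Nat.mul S1 N2
  let p8 := Nat.mul S2 N1
  let lo3 := Nat.add (Nat.mul 3 p2) (Nat.mul S0 (Nat.add (Nat.mul 12 N2) (Nat.mul 52 N0)))
  let lo7 := Nat.add (Nat.mul 3 p5) (Nat.mul S1 (Nat.add (Nat.mul 12 N2) (Nat.mul 52 N0)))
  let lo9 := Nat.add (Nat.mul 3 p8) (Nat.mul S1 (Nat.add (Nat.mul 12 N3) (Nat.mul 52 N1)))
  cond f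
    (let W := Nat.mul 48 U2
     let B1 := Nat.add (Nat.mul 2 (Nat.mul U H)) (Nat.add (Nat.mul UC X8) (Nat.mul (Nat.mul 2 (Nat.mul U L)) X16))
     let B2 := Nat.add (Nat.mul 2 LH) (Nat.add (Nat.mul (Nat.add LL HH) X8) (Nat.mul (Nat.mul 2 LH) X16))
     let Y := Nat.add 1 (Nat.mul X LH)
     ⟨Nat.mul Y p0, Nat.mul Y p1, Nat.mul Y p2,
      Nat.add lo3 (Nat.mul X (Nat.add (Nat.mul W (Nat.mul B1 N0)) (Nat.mul LH (Nat.add (Nat.mul 40 p1) (Nat.mul 6 p2))))),
      Nat.mul Y p4, Nat.mul Y p5, Nat.mul Y p6,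
      Nat.add lo7 (Nat.mul X (Nat.add (Nat.mul W (Nat.mul B2 N0)) (Nat.mul LH (Nat.add (Nat.mul 40 p4) (Nat.mul 6 p5))))),
      Nat.mul Y p8,
      Nat.add lo9 (Nat.mul X (Nat.add (Nat.mul W (Nat.mul B2 N1)) (Nat.mul LH (Nat.add (Nat.mul 40 p6) (Nat.mul 6 p8)))))⟩)
    (let Y := Nat.add 1 X
     let H3 := Nat.add (Nat.mul 3 N2) (Nat.add (Nat.mul 18 N1) (Nat.mul 43 N0))
     ⟨Nat.mul Y p0, Nat.mul Y p1, Nat.mul Y p2,
      Nat.add lo3 (Nat.mul X (Nat.add (Nat.mul 6 p2) (Nat.mul S0 H3))),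
      Nat.mul Y p4, Nat.mul Y p5, Nat.mul Y p6,
      Nat.add lo7 (Nat.mul X (Nat.add (Nat.mul 6 p5) (Nat.mul S1 H3))),
      Nat.mul Y p8,
      Nat.add lo9 (Nat.mul X (Nat.add (Nat.mul 6 p8) (Nat.mul S1 (Nat.add (Nat.mul 3 N3) (Nat.add (Nat.mul 18 N2) (Nat.mul 43 N1))))))⟩)

theorem pk_false (X U L H l h : Nat) : pkOld X U L H l h false = packV X (cellV U L H l h false false) := by
  simp only [pkOld, cond_false, cellV, listLo, listHi, zipAlt, packV, Nat.mul_eq, Nat.add_eq]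
  ext <;> simp only [V.add, V.smul, V.zero, vLo, vHi] <;> ring

theorem pk_true (X U L H l h : Nat) : pkOld X U L H l h true = packV X (cellV U L H l h true false) := by
  simp only [pkOld, cond_true, cond_false, cellV, listLo, listCh, zipAlt, packV, Nat.mul_eq, Nat.add_eq]
  ext <;> simp only [V.add, V.smul, V.zero, vLo, vCh] <;> ring

/-- the packed minuends of a cell with the third lower corner -/
def pkNeP (X U L H l h : Nat) (f : Bool) : V :=
  let X2 := Nat.mul X X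
  let X4 := Nat.mul X2 X2
  let X6 := Nat.mul X4 X2
  let X8 := Nat.mul X4 X4
  let X16 := Nat.mul X8 X8
  let U2 := Nat.mul U U
  let U3 := Nat.mul U2 U
  let LH := Nat.mul L H
  let LL := Nat.mul L L
  let HH := Nat.mul H H
  let ll := Nat.mul l l
  let lh := Nat.mul l h
  let hh := Nat.mul h h
  let UC := Nat.mul U (Nat.add L H)
  let S0 := Nat.mul (Nat.mul 2 U2) (Nat.add 1 (Nat.add X8 X16))
  let S1 := Nat.add (Nat.mul 2 (Nat.mul U L)) (Nat.add (Nat.mul UC X8) (Nat.mul (Nat.mul 2 (Nat.mul U H)) X16))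
  let S2 := Nat.add (Nat.mul 2 LL) (Nat.add (Nat.mul (Nat.mul 2 LH) X8) (Nat.mul (Nat.mul 2 HH) X16))
  let N0 := Nat.mul (Nat.mul 3 U3) (Nat.add 1 (Nat.add X2 (Nat.add X4 X6)))
  let N1 := Nat.mul U2 (Nat.add (Nat.mul 3 l) (Nat.add (Nat.mul (Nat.add (Nat.mul 2 l) h) X2)
    (Nat.add (Nat.mul (Nat.add l (Nat.mul 2 h)) X4) (Nat.mul (Nat.mul 3 h) X6))))
  let N2 := Nat.mul U (Nat.add (Nat.mul 3 ll) (Nat.add (Nat.mul (Nat.add ll (Nat.mul 2 lh)) X2)
    (Nat.add (Nat.mul (Nat.add (Nat.mul 2 lh) hh) X4) (Nat.mul (Nat.mul 3 hh) X6))))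
  let N3 := Nat.mul 3 (Nat.add (Nat.mul ll l) (Nat.add (Nat.mul (Nat.mul ll h) X2)
    (Nat.add (Nat.mul (Nat.mul l hh) X4) (Nat.mul (Nat.mul hh h) X6))))
  let p0 := Nat.mul S0 N0
  let p1 := Nat.mul S0 N1
  let p2 := Nat.mul S1 N0
  let p4 := Nat.mul S1 N1
  let p5 := Nat.mul S2 N0
  let p6 := Nat.mul S1 N2
  let p8 := Nat.mul S2 N1
  let W := Nat.mul 48 U2
  let E := neE U L H
  let B1 := Nat.add (Nat.mul 2 (Nat.mul U H)) (Nat.add (Nat.mul UC X8) (Nat.mul (Nat.mul 2 (Nat.mul U L)) X16))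
  let B2 := Nat.add (Nat.mul 2 LH) (Nat.add (Nat.mul (Nat.add LL HH) X8) (Nat.mul (Nat.mul 2 LH) X16))
  let M0 := Nat.add (Nat.mul 9 N0) N2
  let M1 := Nat.add (Nat.mul 9 N1) N3
  let ne3 := Nat.add (Nat.mul E (Nat.add (Nat.mul 6 p2) (Nat.add (Nat.mul 64 p0) (Nat.add (Nat.mul 8 p1) (Nat.mul 4 (Nat.mul S0 N2))))))
    (Nat.add (Nat.mul W (Nat.mul B1 M0)) (Nat.mul 72 (Nat.mul W p1)))
  let ne7 := Nat.add (Nat.mul E (Nat.add (Nat.mul 6 p5) (Nat.add (Nat.mul 64 p2) (Nat.add (Nat.mul 8 p4) (Nat.mul 4 p6)))))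
    (Nat.add (Nat.mul W (Nat.mul B2 M0)) (Nat.mul 72 (Nat.mul W p4)))
  let ne9 := Nat.add (Nat.mul E (Nat.add (Nat.mul 6 p8) (Nat.add (Nat.mul 64 p4) (Nat.add (Nat.mul 8 p6) (Nat.mul 4 (Nat.mul S1 N3))))))
    (Nat.add (Nat.mul W (Nat.mul B2 M1)) (Nat.mul 72 (Nat.mul W p6)))
  cond f
    (let Y := Nat.add E (Nat.mul X LH)
     ⟨Nat.mul Y p0, Nat.mul Y p1, Nat.mul Y p2,
      Nat.add ne3 (Nat.mul X (Nat.add (Nat.mul W (Nat.mul B1 N0)) (Nat.mul LH (Nat.add (Nat.mul 40 p1) (Nat.mul 6 p2))))),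
      Nat.mul Y p4, Nat.mul Y p5, Nat.mul Y p6,
      Nat.add ne7 (Nat.mul X (Nat.add (Nat.mul W (Nat.mul B2 N0)) (Nat.mul LH (Nat.add (Nat.mul 40 p4) (Nat.mul 6 p5))))),
      Nat.mul Y p8,
      Nat.add ne9 (Nat.mul X (Nat.add (Nat.mul W (Nat.mul B2 N1)) (Nat.mul LH (Nat.add (Nat.mul 40 p6) (Nat.mul 6 p8)))))⟩)
    (let Y := Nat.add E X
     let H3 := Nat.add (Nat.mul 3 N2) (Nat.add (Nat.mul 18 N1) (Nat.mul 43 N0))
     ⟨Nat.mul Y p0, Nat.mul Y p1, Nat.mul Y p2,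
      Nat.add ne3 (Nat.mul X (Nat.add (Nat.mul 6 p2) (Nat.mul S0 H3))),
      Nat.mul Y p4, Nat.mul Y p5, Nat.mul Y p6,
      Nat.add ne7 (Nat.mul X (Nat.add (Nat.mul 6 p5) (Nat.mul S1 H3))),
      Nat.mul Y p8,
      Nat.add ne9 (Nat.mul X (Nat.add (Nat.mul 6 p8) (Nat.mul S1 (Nat.add (Nat.mul 3 N3) (Nat.add (Nat.mul 18 N2) (Nat.mul 43 N1))))))⟩)

/-- the packed subtrahends of a cell with the third lower corner -/
def pkNeM (X U L H l h : Nat) : V :=
  let X2 := Nat.mul X X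
  let X4 := Nat.mul X2 X2
  let X6 := Nat.mul X4 X2
  let X8 := Nat.mul X4 X4
  let X16 := Nat.mul X8 X8
  let U2 := Nat.mul U U
  let U3 := Nat.mul U2 U
  let LH := Nat.mul L H
  let LL := Nat.mul L L
  let HH := Nat.mul H H
  let ll := Nat.mul l l
  let lh := Nat.mul l h
  let hh := Nat.mul h h
  let UC := Nat.mul U (Nat.add L H)
  let S0 := Nat.mul (Nat.mul 2 U2) (Nat.add 1 (Nat.add X8 X16))
  let S1 := Nat.add (Nat.mul 2 (Nat.mul U L)) (Nat.add (Nat.mul UC X8) (Nat.mul (Nat.mul 2 (Nat.mul U H)) X16))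
  let N0 := Nat.mul (Nat.mul 3 U3) (Nat.add 1 (Nat.add X2 (Nat.add X4 X6)))
  let N1 := Nat.mul U2 (Nat.add (Nat.mul 3 l) (Nat.add (Nat.mul (Nat.add (Nat.mul 2 l) h) X2)
    (Nat.add (Nat.mul (Nat.add l (Nat.mul 2 h)) X4) (Nat.mul (Nat.mul 3 h) X6))))
  let N2 := Nat.mul U (Nat.add (Nat.mul 3 ll) (Nat.add (Nat.mul (Nat.add ll (Nat.mul 2 lh)) X2)
    (Nat.add (Nat.mul (Nat.add (Nat.mul 2 lh) hh) X4) (Nat.mul (Nat.mul 3 hh) X6))))
  let N3 := Nat.mul 3 (Nat.add (Nat.mul ll l) (Nat.add (Nat.mul (Nat.mul ll h) X2)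
    (Nat.add (Nat.mul (Nat.mul l hh) X4) (Nat.mul (Nat.mul hh h) X6))))
  let W := Nat.mul 48 U2
  let B1 := Nat.add (Nat.mul 2 (Nat.mul U H)) (Nat.add (Nat.mul UC X8) (Nat.mul (Nat.mul 2 (Nat.mul U L)) X16))
  let B2 := Nat.add (Nat.mul 2 LH) (Nat.add (Nat.mul (Nat.add LL HH) X8) (Nat.mul (Nat.mul 2 LH) X16))
  let M0 := Nat.add (Nat.mul 9 N0) N2
  let M1 := Nat.add (Nat.mul 9 N1) N3
  ⟨0, 0, 0, Nat.add (Nat.mul 6 (Nat.mul W (Nat.mul B1 N1))) (Nat.mul 12 (Nat.mul W (Nat.mul S0 M0))), 0, 0, 0,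
    Nat.add (Nat.mul 6 (Nat.mul W (Nat.mul B2 N1))) (Nat.mul 12 (Nat.mul W (Nat.mul S1 M0))), 0,
    Nat.add (Nat.mul 6 (Nat.mul W (Nat.mul B2 N2))) (Nat.mul 12 (Nat.mul W (Nat.mul S1 M1)))⟩

/-- the packed control points of a cell -/
def pk (X U L H l h : Nat) (f g : Bool) : V :=
  cond g (V.sub (pkNeP X U L H l h f) (pkNeM X U L H l h)) (pkOld X U L H l h f)

theorem pkNeP_false (X U L H l h : Nat) :
    pkNeP X U L H l h false = packV X (zipAlt (listNeP U L H l h) (listHi U L H l h)) := by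
  simp only [pkNeP, cond_false, listNeP, ctrl12, listHi, zipAlt, packV, Nat.mul_eq, Nat.add_eq]
  ext <;> simp only [V.add, V.smul, V.zero, vNeP, vHi] <;> ring

theorem pkNeP_true (X U L H l h : Nat) :
    pkNeP X U L H l h true = packV X (zipAlt (listNeP U L H l h) (listCh U L H l h)) := by
  simp only [pkNeP, cond_true, listNeP, ctrl12, listCh, zipAlt, packV, Nat.mul_eq, Nat.add_eq]
  ext <;> simp only [V.add, V.smul, V.zero, vNeP, vCh] <;> ring

theorem pkNeM_eq (X U L H l h : Nat) :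
    pkNeM X U L H l h = packV X (zipAlt (listNeM U L H l h) ((listHi U L H l h).map fun _ => V.zero)) := by
  simp only [pkNeM, listNeM, ctrl12, listHi, List.map_cons, List.map_nil, zipAlt, packV, Nat.mul_eq, Nat.add_eq]
  ext <;> simp only [V.add, V.smul, V.zero, vNeM] <;> ring

/-- every coordinate is at most the other one -/
def VLe (m p : V) : Prop :=
  m.a0 ≤ p.a0 ∧ m.a1 ≤ p.a1 ∧ m.a2 ≤ p.a2 ∧ m.a3 ≤ p.a3 ∧ m.a4 ≤ p.a4 ∧ m.a5 ≤ p.a5 ∧ m.a6 ≤ p.a6 ∧ m.a7 ≤ p.a7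
    ∧ m.a8 ≤ p.a8 ∧ m.a9 ≤ p.a9

theorem neOK_le {E W s0 s1 s2 b1 b2 n0 n1 n2 n3 : Nat} (h : neOK E W s0 s1 s2 b1 b2 n0 n1 n2 n3 = true) :
    VLe (vNeM E W s0 s1 s2 b1 b2 n0 n1 n2 n3) (vNeP E W s0 s1 s2 b1 b2 n0 n1 n2 n3) := by
  simp only [neOK, Bool.and_eq_true] at h
  obtain ⟨h1, h2, h3⟩ := h
  exact ⟨Nat.zero_le _, Nat.zero_le _, Nat.zero_le _, Nat.le_of_ble_eq_true h1, Nat.zero_le _, Nat.zero_le _, Nat.zero_le _,
    Nat.le_of_ble_eq_true h2, Nat.zero_le _, Nat.le_of_ble_eq_true h3⟩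

theorem coord_add {p m u A B C X : Nat} (h : m ≤ p) (hc : A + B = C) :
    Nat.sub p m + X * (u + X * A) + (m + X * (0 + X * B)) = p + X * (u + X * C) := by
  subst hc
  obtain ⟨d, rfl⟩ := Nat.exists_eq_add_of_le h
  have : Nat.sub (m + d) m = d := by
    simp
  rw [this]
  ring

theorem alt_add (X : Nat) {ms ps : List V} (h : List.Forall₂ VLe ms ps) :
    ∀ ups : List V, ms.length = ups.length →
      V.add (packV X (zipAlt (List.zipWith V.sub ps ms) ups)) (packV X (zipAlt ms (ups.map fun _ => V.zero)))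
        = packV X (zipAlt ps ups) := by
  induction h with
  | nil =>
    intro ups hl
    cases ups with
    | nil => rfl
    | cons _ _ => simp at hl
  | cons hm _ ih =>
    intro ups hl
    cases ups with
    | nil => simp at hl
    | cons u us =>
      have hl' := Nat.succ.inj (by simpa using hl)
      have hi := ih us hl'
      simp only [List.zipWith_cons_cons, List.map_cons, zipAlt, packV]
      obtain ⟨h0, h1, h2, h3, h4, h5, h6, h7, h8, h9⟩ := hm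
      have c0 := congrArg V.a0 hi
      have c1 := congrArg V.a1 hi
      have c2 := congrArg V.a2 hi
      have c3 := congrArg V.a3 hi
      have c4 := congrArg V.a4 hi
      have c5 := congrArg V.a5 hi
      have c6 := congrArg V.a6 hi
      have c7 := congrArg V.a7 hi
      have c8 := congrArg V.a8 hi
      have c9 := congrArg V.a9 hi
      simp only [V.add] at c0 c1 c2 c3 c4 c5 c6 c7 c8 c9
      ext
      · simpa only [V.add, V.smul, V.sub, V.zero] using coord_add (u := u.a0) (X := X) h0 c0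
      · simpa only [V.add, V.smul, V.sub, V.zero] using coord_add (u := u.a1) (X := X) h1 c1
      · simpa only [V.add, V.smul, V.sub, V.zero] using coord_add (u := u.a2) (X := X) h2 c2
      · simpa only [V.add, V.smul, V.sub, V.zero] using coord_add (u := u.a3) (X := X) h3 c3
      · simpa only [V.add, V.smul, V.sub, V.zero] using coord_add (u := u.a4) (X := X) h4 c4
      · simpa only [V.add, V.smul, V.sub, V.zero] using coord_add (u := u.a5) (X := X) h5 c5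
      · simpa only [V.add, V.smul, V.sub, V.zero] using coord_add (u := u.a6) (X := X) h6 c6
      · simpa only [V.add, V.smul, V.sub, V.zero] using coord_add (u := u.a7) (X := X) h7 c7
      · simpa only [V.add, V.smul, V.sub, V.zero] using coord_add (u := u.a8) (X := X) h8 c8
      · simpa only [V.add, V.smul, V.sub, V.zero] using coord_add (u := u.a9) (X := X) h9 c9

theorem neGuard_le {U L H l h : Nat} (hg : neGuard U L H l h = true) :
    List.Forall₂ VLe (listNeM U L H l h) (listNeP U L H l h) := by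
  simp only [neGuard, ctrl12, List.all_cons, List.all_nil, id, Bool.and_eq_true, Bool.and_true] at hg
  obtain ⟨_, g1, g2, g3, g4, g5, g6, g7, g8, g9, g10, g11, g12⟩ := hg
  simp only [listNeM, listNeP, ctrl12]
  exact .cons (neOK_le g1) (.cons (neOK_le g2) (.cons (neOK_le g3) (.cons (neOK_le g4) (.cons (neOK_le g5) (.cons (neOK_le g6)
    (.cons (neOK_le g7) (.cons (neOK_le g8) (.cons (neOK_le g9) (.cons (neOK_le g10) (.cons (neOK_le g11) (.cons (neOK_le g12) .nil)))))))))))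

theorem V_add_sub (x y : V) : V.sub (V.add x y) y = x := by
  ext <;> simp [V.sub, V.add]

theorem pk_eq (X U L H l h : Nat) (f g : Bool) (hg : g = true → neGuard U L H l h = true) :
    pk X U L H l h f g = packV X (cellV U L H l h f g) := by
  cases g with
  | false =>
    cases f
    · exact pk_false _ _ _ _ _ _
    · exact pk_true _ _ _ _ _ _
  | true =>
    have hG := hg rfl
    have hF := neGuard_le hG
    have e0 : List.zipWith V.sub (listNeP U L H l h) (listNeM U L H l h) = listNe U L H l h := rfl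
    have e1 : ((listCh U L H l h).map fun _ => V.zero) = ((listHi U L H l h).map fun _ => V.zero) := rfl
    cases f with
    | false =>
      have key := alt_add X hF (listHi U L H l h) rfl
      rw [e0, ← pkNeP_false, ← pkNeM_eq] at key
      simp only [pk, cond_true, cellV, cond_false]
      rw [← key, V_add_sub]
    | true =>
      have key := alt_add X hF (listCh U L H l h) rfl
      rw [e0, e1, ← pkNeP_true, ← pkNeM_eq] at key
      simp only [pk, cond_true, cellV]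
      rw [← key, V_add_sub]

end Vale.Agent.Lib.P154Q5
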