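import Vale.Agent.Lib.P154Q5.Raw2

/-!
The inequalities for all nonnegative vectors, by homogeneity.
-/

namespace Vale.Agent.Lib.P154Q5

theorem GM_scale (c x0 x1 x2 x3 : ℝ) : GM (c * x0) (c * x1) (c * x2) (c * x3) = c * GM x0 x1 x2 x3 := by
  unfold GM
  ring

theorem GM_nn {x0 x1 x2 x3 : ℝ} (h0 : 0 ≤ x0) (h1 : 0 ≤ x1) (h2 : 0 ≤ x2) (h3 : 0 ≤ x3) : 0 ≤ GM x0 x1 x2 x3 := by
  unfold GM
  positivity

theorem GM_eq_zero {x0 x1 x2 x3 : ℝ} (h0 : 0 ≤ x0) (h1 : 0 ≤ x1) (h2 : 0 ≤ x2) (h3 : 0 ≤ x3) (h : GM x0 x1 x2 x3 = 0) :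
    x0 = 0 ∧ x1 = 0 ∧ x2 = 0 ∧ x3 = 0 := by
  unfold GM at h
  refine ⟨by linarith, by linarith, by linarith, by linarith⟩

theorem hm_zero (f : ℝ → ℝ → ℝ → ℝ → ℝ) : hm f 0 0 0 0 = 0 := by
  simp [hm, GM]

/-- homogeneity -/
theorem hm_scale (f : ℝ → ℝ → ℝ → ℝ → ℝ) {c : ℝ} (hc : 0 ≤ c) (x0 x1 x2 x3 : ℝ) :
    hm f (c * x0) (c * x1) (c * x2) (c * x3) = c * hm f x0 x1 x2 x3 := by
  rcases hc.eq_or_lt with e | e
  · subst e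
    simp [hm, GM]
  · unfold hm
    rw [GM_scale]
    have hne : c ≠ 0 := e.ne'
    rw [mul_div_mul_left _ _ hne, mul_div_mul_left _ _ hne, mul_div_mul_left _ _ hne, mul_div_mul_left _ _ hne]
    ring

/-- the value on a vector with known mean -/
theorem hm_norm (f : ℝ → ℝ → ℝ → ℝ → ℝ) {m a0 a1 a2 a3 : ℝ} (hm' : 0 < m) (h : a0 + a1 + a2 + a3 = 4) :
    hm f (m * a0) (m * a1) (m * a2) (m * a3) = m * f a0 a1 a2 a3 := by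
  have e : GM (m * a0) (m * a1) (m * a2) (m * a3) = m := by
    unfold GM
    have : m * a0 + m * a1 + m * a2 + m * a3 = m * (a0 + a1 + a2 + a3) := by ring
    rw [this, h]
    ring
  unfold hm
  rw [e]
  have hne : m ≠ 0 := hm'.ne'
  rw [mul_div_cancel_left₀ _ hne, mul_div_cancel_left₀ _ hne, mul_div_cancel_left₀ _ hne, mul_div_cancel_left₀ _ hne]

theorem GM_norm {m a0 a1 a2 a3 : ℝ} (h : a0 + a1 + a2 + a3 = 4) : GM (m * a0) (m * a1) (m * a2) (m * a3) = m := by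
  unfold GM
  have : m * a0 + m * a1 + m * a2 + m * a3 = m * (a0 + a1 + a2 + a3) := by ring
  rw [this, h]
  ring

/-- averages of homogeneous functions -/
theorem avg24_scale (f : ℝ → ℝ → ℝ → ℝ → ℝ) {m n : ℝ} (hm' : 0 ≤ m) (hn : 0 ≤ n) (a0 a1 a2 a3 b0 b1 b2 b3 : ℝ) :
    avg24 (hm f) (m * a0) (m * a1) (m * a2) (m * a3) (n * b0) (n * b1) (n * b2) (n * b3)
      = m * n * avg24 (hm f) a0 a1 a2 a3 b0 b1 b2 b3 := by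
  have key : ∀ u0 u1 u2 u3 v0 v1 v2 v3 : ℝ, hm f (m * u0 * (n * v0)) (m * u1 * (n * v1)) (m * u2 * (n * v2)) (m * u3 * (n * v3))
      = m * n * hm f (u0 * v0) (u1 * v1) (u2 * v2) (u3 * v3) := by
    intro u0 u1 u2 u3 v0 v1 v2 v3
    rw [← hm_scale f (mul_nonneg hm' hn)]
    congr 1 <;> ring
  unfold avg24
  simp only [key]
  ring

theorem avg24_GM (a0 a1 a2 a3 b0 b1 b2 b3 : ℝ) :
    avg24 GM a0 a1 a2 a3 b0 b1 b2 b3 = GM a0 a1 a2 a3 * GM b0 b1 b2 b3 := by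
  unfold avg24 GM
  ring

/-- the first inequality for all vectors -/
theorem rawA {x0 x1 x2 x3 y0 y1 y2 y3 : ℝ} (h0 : 0 ≤ x0) (h1 : 0 ≤ x1) (h2 : 0 ≤ x2) (h3 : 0 ≤ x3)
    (k0 : 0 ≤ y0) (k1 : 0 ≤ y1) (k2 : 0 ≤ y2) (k3 : 0 ≤ y3) :
    avg24 (hm sS) x0 x1 x2 x3 y0 y1 y2 y3 ≤ GM y0 y1 y2 y3 * hm sS x0 x1 x2 x3 + GM x0 x1 x2 x3 * hm sS y0 y1 y2 y3
      - hm fXi y0 y1 y2 y3 * hm fPh x0 x1 x2 x3 - hm fXi x0 x1 x2 x3 * hm fPh y0 y1 y2 y3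
      - 1 / 16384 * (hm fS2 x0 x1 x2 x3 * hm sS y0 y1 y2 y3 + hm sS x0 x1 x2 x3 * hm fS2 y0 y1 y2 y3) := by
  rcases (GM_nn h0 h1 h2 h3).eq_or_lt with e | hm1
  · obtain ⟨rfl, rfl, rfl, rfl⟩ := GM_eq_zero h0 h1 h2 h3 e.symm
    simp [avg24, hm, GM]
  rcases (GM_nn k0 k1 k2 k3).eq_or_lt with e | hm2
  · obtain ⟨rfl, rfl, rfl, rfl⟩ := GM_eq_zero k0 k1 k2 k3 e.symm
    simp [avg24, hm, GM]
  set m := GM x0 x1 x2 x3 with hm_def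
  set n := GM y0 y1 y2 y3 with hn_def
  have ha : IsD (x0 / m) (x1 / m) (x2 / m) (x3 / m) := norm_isD hm_def hm1 h0 h1 h2 h3
  have hb : IsD (y0 / n) (y1 / n) (y2 / n) (y3 / n) := norm_isD hn_def hm2 k0 k1 k2 k3
  have key := rawA_n ha hb
  have e1 := avg24_scale sS hm1.le hm2.le (x0 / m) (x1 / m) (x2 / m) (x3 / m) (y0 / n) (y1 / n) (y2 / n) (y3 / n)
  simp only [scale_eq m _ hm1, scale_eq n _ hm2] at e1
  rw [e1]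
  have hx : ∀ f : ℝ → ℝ → ℝ → ℝ → ℝ, hm f x0 x1 x2 x3 = m * f (x0 / m) (x1 / m) (x2 / m) (x3 / m) := fun f => rfl
  have hy' : ∀ f : ℝ → ℝ → ℝ → ℝ → ℝ, hm f y0 y1 y2 y3 = n * f (y0 / n) (y1 / n) (y2 / n) (y3 / n) := fun f => rfl
  rw [hx, hx, hx, hx, hy', hy', hy', hy']
  have := mul_le_mul_of_nonneg_left key (mul_pos hm1 hm2).le
  refine le_trans this (le_of_eq ?_)
  ring

/-- the second inequality for all vectors -/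
theorem rawB {x0 x1 x2 x3 y0 y1 y2 y3 : ℝ} (h0 : 0 ≤ x0) (h1 : 0 ≤ x1) (h2 : 0 ≤ x2) (h3 : 0 ≤ x3)
    (k0 : 0 ≤ y0) (k1 : 0 ≤ y1) (k2 : 0 ≤ y2) (k3 : 0 ≤ y3) :
    hm fAf y0 y1 y2 y3 * hm fPh x0 x1 x2 x3 + hm fAf x0 x1 x2 x3 * hm fPh y0 y1 y2 y3
      ≤ avg24 (hm fPh) x0 x1 x2 x3 y0 y1 y2 y3 := by
  rcases (GM_nn h0 h1 h2 h3).eq_or_lt with e | hm1
  · obtain ⟨rfl, rfl, rfl, rfl⟩ := GM_eq_zero h0 h1 h2 h3 e.symm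
    simp [avg24, hm, GM]
  rcases (GM_nn k0 k1 k2 k3).eq_or_lt with e | hm2
  · obtain ⟨rfl, rfl, rfl, rfl⟩ := GM_eq_zero k0 k1 k2 k3 e.symm
    simp [avg24, hm, GM]
  set m := GM x0 x1 x2 x3 with hm_def
  set n := GM y0 y1 y2 y3 with hn_def
  have ha : IsD (x0 / m) (x1 / m) (x2 / m) (x3 / m) := norm_isD hm_def hm1 h0 h1 h2 h3
  have hb : IsD (y0 / n) (y1 / n) (y2 / n) (y3 / n) := norm_isD hn_def hm2 k0 k1 k2 k3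
  have key := rawB_n ha hb
  have e1 := avg24_scale fPh hm1.le hm2.le (x0 / m) (x1 / m) (x2 / m) (x3 / m) (y0 / n) (y1 / n) (y2 / n) (y3 / n)
  simp only [scale_eq m _ hm1, scale_eq n _ hm2] at e1
  rw [e1]
  have hx : ∀ f : ℝ → ℝ → ℝ → ℝ → ℝ, hm f x0 x1 x2 x3 = m * f (x0 / m) (x1 / m) (x2 / m) (x3 / m) := fun f => rfl
  have hy' : ∀ f : ℝ → ℝ → ℝ → ℝ → ℝ, hm f y0 y1 y2 y3 = n * f (y0 / n) (y1 / n) (y2 / n) (y3 / n) := fun f => rfl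
  rw [hx, hx, hy', hy']
  have := mul_le_mul_of_nonneg_left key (mul_pos hm1 hm2).le
  refine le_trans (le_of_eq ?_) this
  ring

/-- sign of a homogeneous function when the function is nonnegative on the simplex -/
theorem hm_nonneg {f : ℝ → ℝ → ℝ → ℝ → ℝ} (hf : ∀ a0 a1 a2 a3, IsD a0 a1 a2 a3 → 0 ≤ f a0 a1 a2 a3)
    {x0 x1 x2 x3 : ℝ} (h0 : 0 ≤ x0) (h1 : 0 ≤ x1) (h2 : 0 ≤ x2) (h3 : 0 ≤ x3) : 0 ≤ hm f x0 x1 x2 x3 := by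
  rcases (GM_nn h0 h1 h2 h3).eq_or_lt with e | hm1
  · unfold hm
    rw [← e]
    simp
  · unfold hm
    exact mul_nonneg hm1.le (hf _ _ _ _ (norm_isD rfl hm1 h0 h1 h2 h3))

/-- bound of a homogeneous function when the function is bounded on the simplex -/
theorem hm_abs_le {f : ℝ → ℝ → ℝ → ℝ → ℝ} {C : ℝ} (hf : ∀ a0 a1 a2 a3, IsD a0 a1 a2 a3 → |f a0 a1 a2 a3| ≤ C)
    {x0 x1 x2 x3 : ℝ} (h0 : 0 ≤ x0) (h1 : 0 ≤ x1) (h2 : 0 ≤ x2) (h3 : 0 ≤ x3) :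
    |hm f x0 x1 x2 x3| ≤ C * GM x0 x1 x2 x3 := by
  rcases (GM_nn h0 h1 h2 h3).eq_or_lt with e | hm1
  · unfold hm
    rw [← e]
    simp
  · unfold hm
    rw [abs_mul, abs_of_pos hm1, mul_comm]
    exact mul_le_mul_of_nonneg_right (hf _ _ _ _ (norm_isD rfl hm1 h0 h1 h2 h3)) hm1.le

/-- the bounds for the invariants on the simplex -/
theorem IsD.bounds {a0 a1 a2 a3 : ℝ} (h : IsD a0 a1 a2 a3) :
    |sS a0 a1 a2 a3| ≤ 12 ∧ |sT a0 a1 a2 a3| ≤ 36 ∧ |sQ a0 a1 a2 a3| ≤ 108 := by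
  have hS := h.sS_le
  have hS0 := sS_nonneg a0 a1 a2 a3
  have one : ∀ v : ℝ, 0 ≤ v → v ≤ 4 → |(v - 1) ^ 3| ≤ 3 * (v - 1) ^ 2 ∧ (v - 1) ^ 4 ≤ 9 * (v - 1) ^ 2 := by
    intro v h1 h2
    have a1 : |v - 1| ≤ 3 := by
      rw [abs_le]
      constructor <;> linarith
    constructor
    · rw [abs_pow]
      have : |v - 1| ^ 3 = |v - 1| * (v - 1) ^ 2 := by
        rw [pow_succ, mul_comm, sq_abs]
      rw [this]
      exact mul_le_mul_of_nonneg_right a1 (sq_nonneg _)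
    · have a2 : (v - 1) ^ 2 ≤ 9 := by
        have := abs_le.1 a1
        nlinarith
      nlinarith [sq_nonneg (v - 1)]
  obtain ⟨p0, p1, p2, p3, s⟩ := h
  obtain ⟨t0, q0⟩ := one a0 p0 (by linarith)
  obtain ⟨t1, q1⟩ := one a1 p1 (by linarith)
  obtain ⟨t2, q2⟩ := one a2 p2 (by linarith)
  obtain ⟨t3, q3⟩ := one a3 p3 (by linarith)
  refine ⟨?_, ?_, ?_⟩
  · rw [abs_of_nonneg hS0]
    exact hS
  · unfold sT
    unfold sS at hS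
    have := abs_add_le ((a0 - 1) ^ 3 + (a1 - 1) ^ 3 + (a2 - 1) ^ 3) ((a3 - 1) ^ 3)
    have := abs_add_le ((a0 - 1) ^ 3 + (a1 - 1) ^ 3) ((a2 - 1) ^ 3)
    have := abs_add_le ((a0 - 1) ^ 3) ((a1 - 1) ^ 3)
    linarith
  · unfold sQ
    unfold sS at hS
    rw [abs_of_nonneg (by positivity)]
    linarith

end Vale.Agent.Lib.P154Q5
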