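import Mathlib
import Vale.Agent.Lib.P154Q5.Homog

/-!
Channels with possibly infinitely many outputs: one product step, the powers, and one edge.
-/

namespace Vale.Agent.Lib.P154Q5

open Filter Topology

/-- A functional bounded by a multiple of the mass on the closed orthant. -/
def SG (G : ℝ → ℝ → ℝ → ℝ → ℝ) : Prop :=
  ∃ C : ℝ, ∀ x0 x1 x2 x3, 0 ≤ x0 → 0 ≤ x1 → 0 ≤ x2 → 0 ≤ x3 → |G x0 x1 x2 x3| ≤ C * GM x0 x1 x2 x3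

theorem SG_GM : SG GM := by
  refine ⟨1, fun x0 x1 x2 x3 h0 h1 h2 h3 => ?_⟩
  rw [abs_of_nonneg (GM_nn h0 h1 h2 h3)]
  linarith

theorem SG_hm {f : ℝ → ℝ → ℝ → ℝ → ℝ} {C : ℝ} (hf : ∀ a0 a1 a2 a3, IsD a0 a1 a2 a3 → |f a0 a1 a2 a3| ≤ C) : SG (hm f) :=
  ⟨C, fun _ _ _ _ h0 h1 h2 h3 => hm_abs_le hf h0 h1 h2 h3⟩

/-- the monomials in the invariants are bounded -/
theorem mono_bounds {a0 a1 a2 a3 : ℝ} (h : IsD a0 a1 a2 a3) :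
    |sS a0 a1 a2 a3| ≤ 12 ∧ |sT a0 a1 a2 a3| ≤ 36 ∧ |sQ a0 a1 a2 a3| ≤ 108 ∧ |sS a0 a1 a2 a3 ^ 2| ≤ 144
      ∧ |sS a0 a1 a2 a3 * sT a0 a1 a2 a3| ≤ 432 ∧ |sS a0 a1 a2 a3 ^ 3| ≤ 1728 ∧ |sT a0 a1 a2 a3 ^ 2| ≤ 1296
      ∧ |sS a0 a1 a2 a3 * sQ a0 a1 a2 a3| ≤ 1296 := by
  obtain ⟨b1, b2, b3⟩ := h.bounds
  have key : ∀ {u v A B : ℝ}, |u| ≤ A → |v| ≤ B → |u * v| ≤ A * B := fun hu hv => by
    rw [abs_mul]
    exact mul_le_mul hu hv (abs_nonneg _) (le_trans (abs_nonneg _) hu)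
  have s2 : |sS a0 a1 a2 a3 ^ 2| ≤ 144 := by
    rw [pow_two]
    have := key b1 b1
    linarith
  have s3 : |sS a0 a1 a2 a3 ^ 3| ≤ 1728 := by
    rw [pow_succ]
    have := key s2 b1
    linarith
  have t2 : |sT a0 a1 a2 a3 ^ 2| ≤ 1296 := by
    rw [pow_two]
    have := key b2 b2
    linarith
  have st : |sS a0 a1 a2 a3 * sT a0 a1 a2 a3| ≤ 432 := by
    have := key b1 b2
    linarith
  have sq : |sS a0 a1 a2 a3 * sQ a0 a1 a2 a3| ≤ 1296 := by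
    have := key b1 b3
    linarith
  exact ⟨b1, b2, b3, s2, st, s3, t2, sq⟩

theorem SG_S : SG (hm sS) := SG_hm (C := 12) fun _ _ _ _ h => (mono_bounds h).1
theorem SG_S2 : SG (hm fS2) := SG_hm (C := 144) fun _ _ _ _ h => (mono_bounds h).2.2.2.1

theorem SG_Ph : SG (hm fPh) := by
  refine SG_hm (C := 1000) fun _ _ _ _ h => ?_
  obtain ⟨b1, b2, b3, b4, b5, b6, b7, b8⟩ := mono_bounds h
  simp only [fPh, phF]
  rw [abs_le] at *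
  constructor <;> linarith [b1.1, b1.2, b2.1, b2.2, b3.1, b3.2, b4.1, b4.2, b5.1, b5.2, b6.1, b6.2, b7.1, b7.2, b8.1, b8.2]

theorem SG_Xi : SG (hm fXi) := by
  refine SG_hm (C := 1000) fun _ _ _ _ h => ?_
  obtain ⟨b1, b2, b3, b4, b5, b6, b7, b8⟩ := mono_bounds h
  simp only [fXi, xiF]
  rw [abs_le] at *
  constructor <;> linarith [b1.1, b1.2, b2.1, b2.2, b3.1, b3.2, b4.1, b4.2, b5.1, b5.2, b6.1, b6.2, b7.1, b7.2, b8.1, b8.2]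

theorem SG_Af : SG (hm fAf) := by
  refine SG_hm (C := 1000) fun _ _ _ _ h => ?_
  obtain ⟨b1, b2, b3, b4, b5, b6, b7, b8⟩ := mono_bounds h
  simp only [fAf, afF]
  rw [abs_le] at *
  constructor <;> linarith [b1.1, b1.2, b2.1, b2.2, b3.1, b3.2, b4.1, b4.2, b5.1, b5.2, b6.1, b6.2, b7.1, b7.2, b8.1, b8.2]

section chan

variable {Ω Ω' : Type*}

/-- The sum of a functional over a channel. -/
noncomputable def ExT (ℓ : Ω → Fin 4 → ℝ) (G : ℝ → ℝ → ℝ → ℝ → ℝ) : ℝ :=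
  ∑' ω, G (ℓ ω 0) (ℓ ω 1) (ℓ ω 2) (ℓ ω 3)

/-- Symmetry of a channel under permutations of the states. -/
def IsSym (ℓ : Ω → Fin 4 → ℝ) : Prop :=
  ∀ σ : Equiv.Perm (Fin 4), ∃ e : Ω ≃ Ω, ∀ ω i, ℓ (e ω) i = ℓ ω (σ i)

/-- A channel of finite mass with nonnegative likelihoods. -/
structure Base (ℓ : Ω → Fin 4 → ℝ) : Prop where
  nn : ∀ ω i, 0 ≤ ℓ ω i
  summ : Summable (fun ω => GM (ℓ ω 0) (ℓ ω 1) (ℓ ω 2) (ℓ ω 3))
  mass : ExT ℓ GM = 1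

theorem Base.summable {ℓ : Ω → Fin 4 → ℝ} (h : Base ℓ) {G : ℝ → ℝ → ℝ → ℝ → ℝ} (hG : SG G) :
    Summable (fun ω => G (ℓ ω 0) (ℓ ω 1) (ℓ ω 2) (ℓ ω 3)) := by
  obtain ⟨C, hC⟩ := hG
  exact Summable.of_norm_bounded (h.summ.mul_left C) (fun ω => hC _ _ _ _ (h.nn ω 0) (h.nn ω 1) (h.nn ω 2) (h.nn ω 3))

theorem Base.hasSum {ℓ : Ω → Fin 4 → ℝ} (h : Base ℓ) {G : ℝ → ℝ → ℝ → ℝ → ℝ} (hG : SG G) :
    HasSum (fun ω => G (ℓ ω 0) (ℓ ω 1) (ℓ ω 2) (ℓ ω 3)) (ExT ℓ G) :=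
  (h.summable hG).hasSum

theorem Base.nonneg {ℓ : Ω → Fin 4 → ℝ} (h : Base ℓ) {f : ℝ → ℝ → ℝ → ℝ → ℝ}
    (hf : ∀ a0 a1 a2 a3, IsD a0 a1 a2 a3 → 0 ≤ f a0 a1 a2 a3) : 0 ≤ ExT ℓ (hm f) :=
  tsum_nonneg fun ω => hm_nonneg hf (h.nn ω 0) (h.nn ω 1) (h.nn ω 2) (h.nn ω 3)

theorem Base.S_nonneg {ℓ : Ω → Fin 4 → ℝ} (h : Base ℓ) : 0 ≤ ExT ℓ (hm sS) :=
  h.nonneg fun a0 a1 a2 a3 _ => sS_nonneg a0 a1 a2 a3

theorem Base.S_le {ℓ : Ω → Fin 4 → ℝ} (h : Base ℓ) : ExT ℓ (hm sS) ≤ 12 := by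
  have key : ∀ ω, hm sS (ℓ ω 0) (ℓ ω 1) (ℓ ω 2) (ℓ ω 3) ≤ 12 * GM (ℓ ω 0) (ℓ ω 1) (ℓ ω 2) (ℓ ω 3) := by
    intro ω
    exact le_trans (le_abs_self _) (hm_abs_le (fun _ _ _ _ hD => (mono_bounds hD).1) (h.nn ω 0) (h.nn ω 1) (h.nn ω 2) (h.nn ω 3))
  have h1 := hasSum_le key (h.hasSum SG_S) ((h.hasSum SG_GM).mul_left 12)
  rw [h.mass] at h1
  linarith

/-- The inequality of Cauchy and Schwarz for a channel. -/
theorem Base.jensen {ℓ : Ω → Fin 4 → ℝ} (h : Base ℓ) : ExT ℓ (hm sS) ^ 2 ≤ ExT ℓ (hm fS2) := by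
  set c := ExT ℓ (hm sS) with hc
  have key : ∀ ω, 2 * c * hm sS (ℓ ω 0) (ℓ ω 1) (ℓ ω 2) (ℓ ω 3)
      ≤ hm fS2 (ℓ ω 0) (ℓ ω 1) (ℓ ω 2) (ℓ ω 3) + c ^ 2 * GM (ℓ ω 0) (ℓ ω 1) (ℓ ω 2) (ℓ ω 3) := by
    intro ω
    have hnn := GM_nn (h.nn ω 0) (h.nn ω 1) (h.nn ω 2) (h.nn ω 3)
    simp only [hm, fS2]
    set m := GM (ℓ ω 0) (ℓ ω 1) (ℓ ω 2) (ℓ ω 3)
    set s := sS (ℓ ω 0 / m) (ℓ ω 1 / m) (ℓ ω 2 / m) (ℓ ω 3 / m)
    nlinarith [mul_nonneg hnn (sq_nonneg (s - c))]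
  have h1 := hasSum_le key ((h.hasSum SG_S).mul_left (2 * c)) ((h.hasSum SG_S2).add ((h.hasSum SG_GM).mul_left (c ^ 2)))
  rw [h.mass, ← hc] at h1
  nlinarith

/-- the channels of the recursion -/
structure GoodP (ℓ : Ω → Fin 4 → ℝ) : Prop extends Base ℓ where
  phi : 0 ≤ ExT ℓ (hm fPh)

/-- the product channel -/
def pch (ℓ' : Ω' → Fin 4 → ℝ) (ℓ : Ω → Fin 4 → ℝ) : Ω' × Ω → Fin 4 → ℝ :=
  fun p i => ℓ' p.1 i * ℓ p.2 i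

theorem GM_mul_le {x0 x1 x2 x3 y0 y1 y2 y3 : ℝ} (h0 : 0 ≤ x0) (h1 : 0 ≤ x1) (h2 : 0 ≤ x2) (h3 : 0 ≤ x3)
    (k0 : 0 ≤ y0) (k1 : 0 ≤ y1) (k2 : 0 ≤ y2) (k3 : 0 ≤ y3) :
    GM (x0 * y0) (x1 * y1) (x2 * y2) (x3 * y3) ≤ 4 * (GM x0 x1 x2 x3 * GM y0 y1 y2 y3) := by
  unfold GM
  have e : 4 * ((x0 + x1 + x2 + x3) / 4 * ((y0 + y1 + y2 + y3) / 4)) - (x0 * y0 + x1 * y1 + x2 * y2 + x3 * y3) / 4
      = (x0 * (y1 + y2 + y3) + x1 * (y0 + y2 + y3) + x2 * (y0 + y1 + y3) + x3 * (y0 + y1 + y2)) / 4 := by ring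
  have : 0 ≤ (x0 * (y1 + y2 + y3) + x1 * (y0 + y2 + y3) + x2 * (y0 + y1 + y3) + x3 * (y0 + y1 + y2)) / 4 := by positivity
  linarith

theorem mulsum {f : Ω' → ℝ} {g : Ω → ℝ} (hf : Summable f) (hg : Summable g) :
    HasSum (fun p : Ω' × Ω => f p.1 * g p.2) ((∑' a, f a) * (∑' b, g b)) := by
  have h1 := summable_mul_of_summable_norm hf.norm hg.norm
  rw [tsum_mul_tsum_of_summable_norm hf.norm hg.norm]
  exact h1.hasSum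

theorem pch_nn {ℓ' : Ω' → Fin 4 → ℝ} {ℓ : Ω → Fin 4 → ℝ} (h' : Base ℓ') (h : Base ℓ) :
    ∀ p i, 0 ≤ pch ℓ' ℓ p i := fun _ _ => mul_nonneg (h'.nn _ _) (h.nn _ _)

theorem pch_summ {ℓ' : Ω' → Fin 4 → ℝ} {ℓ : Ω → Fin 4 → ℝ} (h' : Base ℓ') (h : Base ℓ) :
    Summable (fun p => GM (pch ℓ' ℓ p 0) (pch ℓ' ℓ p 1) (pch ℓ' ℓ p 2) (pch ℓ' ℓ p 3)) := by
  have h1 := (mulsum h'.summ h.summ).summable.mul_left 4
  refine Summable.of_nonneg_of_le (fun p => GM_nn (pch_nn h' h p 0) (pch_nn h' h p 1) (pch_nn h' h p 2) (pch_nn h' h p 3)) ?_ h1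
  intro p
  exact GM_mul_le (h'.nn _ _) (h'.nn _ _) (h'.nn _ _) (h'.nn _ _) (h.nn _ _) (h.nn _ _) (h.nn _ _) (h.nn _ _)

theorem pch_summable {ℓ' : Ω' → Fin 4 → ℝ} {ℓ : Ω → Fin 4 → ℝ} (h' : Base ℓ') (h : Base ℓ)
    {G : ℝ → ℝ → ℝ → ℝ → ℝ} (hG : SG G) :
    Summable (fun p => G (pch ℓ' ℓ p 0) (pch ℓ' ℓ p 1) (pch ℓ' ℓ p 2) (pch ℓ' ℓ p 3)) := by
  obtain ⟨C, hC⟩ := hG
  exact Summable.of_norm_bounded ((pch_summ h' h).mul_left C)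
    (fun p => hC _ _ _ _ (pch_nn h' h p 0) (pch_nn h' h p 1) (pch_nn h' h p 2) (pch_nn h' h p 3))

/-- Averaging over the arrangements does not change the sum, when the second factor is symmetric. -/
theorem hasSum_avg24 {ℓ' : Ω' → Fin 4 → ℝ} {ℓ : Ω → Fin 4 → ℝ} (h' : Base ℓ') (h : Base ℓ) (sym : IsSym ℓ)
    {G : ℝ → ℝ → ℝ → ℝ → ℝ} (hG : SG G) :
    HasSum (fun p : Ω' × Ω => avg24 G (ℓ' p.1 0) (ℓ' p.1 1) (ℓ' p.1 2) (ℓ' p.1 3) (ℓ p.2 0) (ℓ p.2 1) (ℓ p.2 2) (ℓ p.2 3))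
      (ExT (pch ℓ' ℓ) G) := by
  have hT : HasSum (fun p => G (pch ℓ' ℓ p 0) (pch ℓ' ℓ p 1) (pch ℓ' ℓ p 2) (pch ℓ' ℓ p 3)) (ExT (pch ℓ' ℓ) G) :=
    (pch_summable h' h hG).hasSum
  have key : ∀ (σ : Equiv.Perm (Fin 4)) (i j k l : Fin 4), σ 0 = i → σ 1 = j → σ 2 = k → σ 3 = l →
      HasSum (fun p : Ω' × Ω => G (ℓ' p.1 0 * ℓ p.2 i) (ℓ' p.1 1 * ℓ p.2 j) (ℓ' p.1 2 * ℓ p.2 k) (ℓ' p.1 3 * ℓ p.2 l))
        (ExT (pch ℓ' ℓ) G) := by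
    intro σ i j k l h0 h1 h2 h3
    obtain ⟨e, he⟩ := sym σ
    have h4 := (Equiv.hasSum_iff (Equiv.prodCongr (Equiv.refl Ω') e)).2 hT
    convert h4 using 2 with p
    simp [pch, he, h0, h1, h2, h3]
  have t0 := key 1 0 1 2 3 (by decide) (by decide) (by decide) (by decide)
  have t1 := key (Equiv.swap 2 3) 0 1 3 2 (by decide) (by decide) (by decide) (by decide)
  have t2 := key (Equiv.swap 1 2) 0 2 1 3 (by decide) (by decide) (by decide) (by decide)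
  have t3 := key ((Equiv.swap 1 2).trans (Equiv.swap 1 3)) 0 2 3 1 (by decide) (by decide) (by decide) (by decide)
  have t4 := key ((Equiv.swap 1 3).trans (Equiv.swap 2 1)) 0 3 1 2 (by decide) (by decide) (by decide) (by decide)
  have t5 := key (Equiv.swap 1 3) 0 3 2 1 (by decide) (by decide) (by decide) (by decide)
  have t6 := key (Equiv.swap 0 1) 1 0 2 3 (by decide) (by decide) (by decide) (by decide)
  have t7 := key ((Equiv.swap 0 1).trans (Equiv.swap 2 3)) 1 0 3 2 (by decide) (by decide) (by decide) (by decide)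
  have t8 := key ((Equiv.swap 0 1).trans (Equiv.swap 0 2)) 1 2 0 3 (by decide) (by decide) (by decide) (by decide)
  have t9 := key (((Equiv.swap 0 1).trans (Equiv.swap 0 2)).trans (Equiv.swap 0 3)) 1 2 3 0 (by decide) (by decide) (by decide) (by decide)
  have t10 := key (((Equiv.swap 0 1).trans (Equiv.swap 0 3)).trans (Equiv.swap 2 0)) 1 3 0 2 (by decide) (by decide) (by decide) (by decide)
  have t11 := key ((Equiv.swap 0 1).trans (Equiv.swap 0 3)) 1 3 2 0 (by decide) (by decide) (by decide) (by decide)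
  have t12 := key ((Equiv.swap 0 2).trans (Equiv.swap 1 0)) 2 0 1 3 (by decide) (by decide) (by decide) (by decide)
  have t13 := key (((Equiv.swap 0 2).trans (Equiv.swap 1 0)).trans (Equiv.swap 1 3)) 2 0 3 1 (by decide) (by decide) (by decide) (by decide)
  have t14 := key (Equiv.swap 0 2) 2 1 0 3 (by decide) (by decide) (by decide) (by decide)
  have t15 := key ((Equiv.swap 0 2).trans (Equiv.swap 0 3)) 2 1 3 0 (by decide) (by decide) (by decide) (by decide)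
  have t16 := key ((Equiv.swap 0 2).trans (Equiv.swap 1 3)) 2 3 0 1 (by decide) (by decide) (by decide) (by decide)
  have t17 := key (((Equiv.swap 0 2).trans (Equiv.swap 1 3)).trans (Equiv.swap 0 1)) 2 3 1 0 (by decide) (by decide) (by decide) (by decide)
  have t18 := key (((Equiv.swap 0 3).trans (Equiv.swap 1 0)).trans (Equiv.swap 2 1)) 3 0 1 2 (by decide) (by decide) (by decide) (by decide)
  have t19 := key ((Equiv.swap 0 3).trans (Equiv.swap 1 0)) 3 0 2 1 (by decide) (by decide) (by decide) (by decide)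
  have t20 := key ((Equiv.swap 0 3).trans (Equiv.swap 2 0)) 3 1 0 2 (by decide) (by decide) (by decide) (by decide)
  have t21 := key (Equiv.swap 0 3) 3 1 2 0 (by decide) (by decide) (by decide) (by decide)
  have t22 := key (((Equiv.swap 0 3).trans (Equiv.swap 1 2)).trans (Equiv.swap 1 0)) 3 2 0 1 (by decide) (by decide) (by decide) (by decide)
  have t23 := key ((Equiv.swap 0 3).trans (Equiv.swap 1 2)) 3 2 1 0 (by decide) (by decide) (by decide) (by decide)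
  have hsum := ((((((((((((((((((((((((t0.add t1).add t2).add t3).add t4).add t5).add t6).add t7).add t8).add t9).add t10).add t11).add t12).add t13).add t14).add t15).add t16).add t17).add t18).add t19).add t20).add t21).add t22).add t23)).div_const 24
  have e : (ExT (pch ℓ' ℓ) G + ExT (pch ℓ' ℓ) G + ExT (pch ℓ' ℓ) G + ExT (pch ℓ' ℓ) G + ExT (pch ℓ' ℓ) G + ExT (pch ℓ' ℓ) G + ExT (pch ℓ' ℓ) G + ExT (pch ℓ' ℓ) G + ExT (pch ℓ' ℓ) G + ExT (pch ℓ' ℓ) G + ExT (pch ℓ' ℓ) G + ExT (pch ℓ' ℓ) G + ExT (pch ℓ' ℓ) G + ExT (pch ℓ' ℓ) G + ExT (pch ℓ' ℓ) G + ExT (pch ℓ' ℓ) G + ExT (pch ℓ' ℓ) G + ExT (pch ℓ' ℓ) G + ExT (pch ℓ' ℓ) G + ExT (pch ℓ' ℓ) G + ExT (pch ℓ' ℓ) G + ExT (pch ℓ' ℓ) G + ExT (pch ℓ' ℓ) G + ExT (pch ℓ' ℓ) G) / 24 = ExT (pch ℓ' ℓ) G := by ring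
  rw [e] at hsum
  exact hsum

/-- One product step. -/
theorem product_stepT {ℓ' : Ω' → Fin 4 → ℝ} {ℓ : Ω → Fin 4 → ℝ} (h' : GoodP ℓ') (h : GoodP ℓ) (sym : IsSym ℓ) :
    GoodP (pch ℓ' ℓ) ∧
      ExT (pch ℓ' ℓ) (hm sS) ≤ ExT ℓ' (hm sS) + ExT ℓ (hm sS)
        - 1 / 16384 * (ExT ℓ' (hm fS2) * ExT ℓ (hm sS) + ExT ℓ' (hm sS) * ExT ℓ (hm fS2)) := by
  have b' := h'.toBase
  have b := h.toBase
  have mul_hs : ∀ {F H : ℝ → ℝ → ℝ → ℝ → ℝ}, SG F → SG H →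
      HasSum (fun p : Ω' × Ω => F (ℓ' p.1 0) (ℓ' p.1 1) (ℓ' p.1 2) (ℓ' p.1 3) * H (ℓ p.2 0) (ℓ p.2 1) (ℓ p.2 2) (ℓ p.2 3))
        (ExT ℓ' F * ExT ℓ H) := by
    intro F H hF hH
    exact mulsum (b'.summable hF) (b.summable hH)
  have massA : ExT ℓ GM = 1 := b.mass
  have massB : ExT ℓ' GM = 1 := b'.mass
  -- mass
  have hM : ExT (pch ℓ' ℓ) GM = 1 := by
    have a1 := hasSum_avg24 b' b sym SG_GM
    have a2 := mul_hs SG_GM SG_GM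
    have e : (fun p : Ω' × Ω => avg24 GM (ℓ' p.1 0) (ℓ' p.1 1) (ℓ' p.1 2) (ℓ' p.1 3) (ℓ p.2 0) (ℓ p.2 1) (ℓ p.2 2) (ℓ p.2 3))
        = (fun p : Ω' × Ω => GM (ℓ' p.1 0) (ℓ' p.1 1) (ℓ' p.1 2) (ℓ' p.1 3) * GM (ℓ p.2 0) (ℓ p.2 1) (ℓ p.2 2) (ℓ p.2 3)) := by
      funext p
      exact avg24_GM _ _ _ _ _ _ _ _
    rw [e] at a1
    rw [a1.unique a2, massA, massB]
    norm_num
  -- weights
  have w1 : 0 ≤ ExT ℓ (hm fXi) := b.nonneg fun _ _ _ _ hc => fXi_nonneg hc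
  have w2 : 0 ≤ ExT ℓ' (hm fXi) := b'.nonneg fun _ _ _ _ hc => fXi_nonneg hc
  have w3 : 0 ≤ ExT ℓ (hm fAf) := b.nonneg fun _ _ _ _ hc => fAf_nonneg hc
  have w4 : 0 ≤ ExT ℓ' (hm fAf) := b'.nonneg fun _ _ _ _ hc => fAf_nonneg hc
  -- the invariant
  have hPhi : 0 ≤ ExT (pch ℓ' ℓ) (hm fPh) := by
    have a1 := hasSum_avg24 b' b sym SG_Ph
    have hR : HasSum (fun p : Ω' × Ω => hm fPh (ℓ' p.1 0) (ℓ' p.1 1) (ℓ' p.1 2) (ℓ' p.1 3) * hm fAf (ℓ p.2 0) (ℓ p.2 1) (ℓ p.2 2) (ℓ p.2 3)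
        + hm fAf (ℓ' p.1 0) (ℓ' p.1 1) (ℓ' p.1 2) (ℓ' p.1 3) * hm fPh (ℓ p.2 0) (ℓ p.2 1) (ℓ p.2 2) (ℓ p.2 3))
        (ExT ℓ' (hm fPh) * ExT ℓ (hm fAf) + ExT ℓ' (hm fAf) * ExT ℓ (hm fPh)) :=
      (mul_hs SG_Ph SG_Af).add (mul_hs SG_Af SG_Ph)
    have hle := hasSum_le (fun p => by
      have := rawB (b'.nn p.1 0) (b'.nn p.1 1) (b'.nn p.1 2) (b'.nn p.1 3) (b.nn p.2 0) (b.nn p.2 1) (b.nn p.2 2) (b.nn p.2 3)
      linarith) hR a1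
    have p1 := mul_nonneg h'.phi w3
    have p2 := mul_nonneg w4 h.phi
    linarith
  refine ⟨⟨⟨pch_nn b' b, pch_summ b' b, hM⟩, hPhi⟩, ?_⟩
  -- the main inequality
  have a1 := hasSum_avg24 b' b sym SG_S
  have hR : HasSum (fun p : Ω' × Ω => hm sS (ℓ' p.1 0) (ℓ' p.1 1) (ℓ' p.1 2) (ℓ' p.1 3) * GM (ℓ p.2 0) (ℓ p.2 1) (ℓ p.2 2) (ℓ p.2 3)
      + GM (ℓ' p.1 0) (ℓ' p.1 1) (ℓ' p.1 2) (ℓ' p.1 3) * hm sS (ℓ p.2 0) (ℓ p.2 1) (ℓ p.2 2) (ℓ p.2 3)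
      - hm fPh (ℓ' p.1 0) (ℓ' p.1 1) (ℓ' p.1 2) (ℓ' p.1 3) * hm fXi (ℓ p.2 0) (ℓ p.2 1) (ℓ p.2 2) (ℓ p.2 3)
      - hm fXi (ℓ' p.1 0) (ℓ' p.1 1) (ℓ' p.1 2) (ℓ' p.1 3) * hm fPh (ℓ p.2 0) (ℓ p.2 1) (ℓ p.2 2) (ℓ p.2 3)
      - 1 / 16384 * (hm fS2 (ℓ' p.1 0) (ℓ' p.1 1) (ℓ' p.1 2) (ℓ' p.1 3) * hm sS (ℓ p.2 0) (ℓ p.2 1) (ℓ p.2 2) (ℓ p.2 3)
        + hm sS (ℓ' p.1 0) (ℓ' p.1 1) (ℓ' p.1 2) (ℓ' p.1 3) * hm fS2 (ℓ p.2 0) (ℓ p.2 1) (ℓ p.2 2) (ℓ p.2 3)))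
      (ExT ℓ' (hm sS) * ExT ℓ GM + ExT ℓ' GM * ExT ℓ (hm sS) - ExT ℓ' (hm fPh) * ExT ℓ (hm fXi)
        - ExT ℓ' (hm fXi) * ExT ℓ (hm fPh)
        - 1 / 16384 * (ExT ℓ' (hm fS2) * ExT ℓ (hm sS) + ExT ℓ' (hm sS) * ExT ℓ (hm fS2))) :=
    ((((mul_hs SG_S SG_GM).add (mul_hs SG_GM SG_S)).sub (mul_hs SG_Ph SG_Xi)).sub (mul_hs SG_Xi SG_Ph)).sub
      (((mul_hs SG_S2 SG_S).add (mul_hs SG_S SG_S2)).mul_left (1 / 16384))
  have hle := hasSum_le (fun p => by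
    have := rawA (b'.nn p.1 0) (b'.nn p.1 1) (b'.nn p.1 2) (b'.nn p.1 3) (b.nn p.2 0) (b.nn p.2 1) (b.nn p.2 2) (b.nn p.2 3)
    linarith) a1 hR
  rw [massA, massB] at hle
  have p1 := mul_nonneg h'.phi w1
  have p2 := mul_nonneg w2 h.phi
  linarith

/-- Transport along a bijection of outputs. -/
theorem GoodP.of_equiv {ℓ₁ : Ω → Fin 4 → ℝ} {ℓ₂ : Ω' → Fin 4 → ℝ} (e : Ω ≃ Ω') (he : ∀ ω i, ℓ₂ (e ω) i = ℓ₁ ω i)
    (h : GoodP ℓ₁) : GoodP ℓ₂ ∧ ∀ G, ExT ℓ₂ G = ExT ℓ₁ G := by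
  have hE : ∀ G, ExT ℓ₂ G = ExT ℓ₁ G := by
    intro G
    unfold ExT
    rw [← e.tsum_eq]
    simp only [he]
  refine ⟨⟨⟨?_, ?_, ?_⟩, ?_⟩, hE⟩
  · intro ω i
    have := he (e.symm ω) i
    rw [e.apply_symm_apply] at this
    rw [this]
    exact h.nn _ _
  · rw [← e.summable_iff]
    have : ((fun ω => GM (ℓ₂ ω 0) (ℓ₂ ω 1) (ℓ₂ ω 2) (ℓ₂ ω 3)) ∘ e) = fun ω => GM (ℓ₁ ω 0) (ℓ₁ ω 1) (ℓ₁ ω 2) (ℓ₁ ω 3) := by
      funext ω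
      simp [he]
    rw [this]
    exact h.summ
  · rw [hE]; exact h.mass
  · rw [hE]; exact h.phi

/-- The `k`-fold product of a channel. -/
noncomputable def powCh (ℓ : Ω → Fin 4 → ℝ) (k : ℕ) : (Fin k → Ω) → Fin 4 → ℝ :=
  fun η i => ∏ c, ℓ (η c) i

theorem powCh_cons (ℓ : Ω → Fin 4 → ℝ) (k : ℕ) (ω : Ω) (η : Fin k → Ω) (i : Fin 4) :
    powCh ℓ (k + 1) (Fin.cons ω η) i = powCh ℓ k η i * ℓ ω i := by
  unfold powCh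
  rw [Fin.prod_univ_succ]
  simp only [Fin.cons_zero, Fin.cons_succ]
  ring

theorem IsSym.powCh {ℓ : Ω → Fin 4 → ℝ} (h : IsSym ℓ) (k : ℕ) : IsSym (powCh ℓ k) := by
  intro σ
  obtain ⟨e, he⟩ := h σ
  refine ⟨Equiv.arrowCongr (Equiv.refl _) e, ?_⟩
  intro η i
  unfold Vale.Agent.Lib.P154Q5.powCh
  apply Finset.prod_congr rfl
  intro c _
  exact he (η c) i

/-- The bijection between outputs of the `k+1`-fold product and pairs. -/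
def consE (Ω : Type*) (k : ℕ) : (Fin k → Ω) × Ω ≃ (Fin (k + 1) → Ω) :=
  (Equiv.prodComm _ _).trans (Fin.consEquiv (fun _ => Ω))

theorem powCh_consE (ℓ : Ω → Fin 4 → ℝ) (k : ℕ) (p : (Fin k → Ω) × Ω) (i : Fin 4) :
    powCh ℓ (k + 1) (consE Ω k p) i = pch (powCh ℓ k) ℓ p i := by
  exact powCh_cons ℓ k p.2 p.1 i

theorem powCh_zero_hasSum (ℓ : Ω → Fin 4 → ℝ) (G : ℝ → ℝ → ℝ → ℝ → ℝ) :
    HasSum (fun η : Fin 0 → Ω => G (powCh ℓ 0 η 0) (powCh ℓ 0 η 1) (powCh ℓ 0 η 2) (powCh ℓ 0 η 3)) (G 1 1 1 1) := by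
  have := hasSum_unique (fun η : Fin 0 → Ω => G (powCh ℓ 0 η 0) (powCh ℓ 0 η 1) (powCh ℓ 0 η 2) (powCh ℓ 0 η 3))
  simpa [powCh] using this

theorem hm_ones (f : ℝ → ℝ → ℝ → ℝ → ℝ) : hm f 1 1 1 1 = f 1 1 1 1 := by
  have := hm_norm f (m := 1) (a0 := 1) (a1 := 1) (a2 := 1) (a3 := 1) one_pos (by norm_num)
  simpa using this

/-- The elementary step in the bound for the powers. -/
theorem step_two {y h : ℝ} (hy0 : 0 ≤ y) (hy : y ≤ h) (hh : h ≤ 12) :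
    y + h - 1 / 16384 * (y ^ 2 * h + y * h ^ 2) ≤ 2 * h - 2 / 16384 * h ^ 3 := by
  have hh0 : 0 ≤ h := le_trans hy0 hy
  have key : 0 ≤ (h - y) * (1 - 1 / 16384 * (h * (2 * h + y))) := by
    apply mul_nonneg (by linarith)
    have : h * (2 * h + y) ≤ 12 * (2 * 12 + 12) := by
      apply mul_le_mul hh (by linarith) (by positivity) (by norm_num)
    linarith
  nlinarith

/-- The `k`-fold product of a good symmetric channel is good, and the bound for `S`. -/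
theorem powT_good {ℓ : Ω → Fin 4 → ℝ} (h : GoodP ℓ) (sym : IsSym ℓ) (k : ℕ) :
    GoodP (powCh ℓ k) ∧ ExT (powCh ℓ k) (hm sS) ≤ k * ExT ℓ (hm sS) ∧
      (2 ≤ k → ExT (powCh ℓ k) (hm sS) ≤ k * ExT ℓ (hm sS) - 2 / 16384 * ExT ℓ (hm sS) ^ 3) := by
  have bh := h.toBase
  induction k with
  | zero =>
    have hG : ∀ G, ExT (powCh ℓ 0) G = G 1 1 1 1 := fun G => (powCh_zero_hasSum ℓ G).tsum_eq
    refine ⟨⟨⟨?_, (powCh_zero_hasSum ℓ GM).summable, ?_⟩, ?_⟩, ?_, ?_⟩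
    · intro ω i
      simp [powCh]
    · rw [hG]
      unfold GM
      norm_num
    · rw [hG, hm_ones]
      simp [fPh, phF, sS, sT, sQ]
    · rw [hG, hm_ones]
      simp [sS]
    · intro hk
      omega
  | succ k ih =>
    obtain ⟨ih1, ih2, ih3⟩ := ih
    obtain ⟨a1, a2⟩ := product_stepT ih1 h sym
    obtain ⟨b1, b2⟩ := GoodP.of_equiv (consE Ω k) (powCh_consE ℓ k) a1
    have j1 := ih1.toBase.jensen
    have j2 := bh.jensen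
    have s1 := ih1.toBase.S_nonneg
    have s2 := bh.S_nonneg
    have s3 := bh.S_le
    have s4 := ih1.toBase.S_le
    set y := ExT (powCh ℓ k) (hm sS) with hy
    set x := ExT ℓ (hm sS) with hx
    have a3 : y + x - 1 / 16384 * (y ^ 2 * x + y * x ^ 2) ≥ ExT (pch (powCh ℓ k) ℓ) (hm sS) := by
      have k1 : y ^ 2 * x ≤ ExT (powCh ℓ k) (hm fS2) * x := mul_le_mul_of_nonneg_right j1 s2
      have k2 : y * x ^ 2 ≤ y * ExT ℓ (hm fS2) := mul_le_mul_of_nonneg_left j2 s1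
      linarith
    have hpoly : 0 ≤ 1 / 16384 * (y ^ 2 * x + y * x ^ 2) := by positivity
    refine ⟨b1, ?_, ?_⟩
    · rw [b2]
      push_cast
      linarith
    · intro hk
      rw [b2]
      push_cast
      rcases Nat.lt_or_ge k 2 with hk2 | hk2
      · have hk1 : k = 1 := by omega
        subst hk1
        norm_num at ih2 ⊢
        have := step_two s1 ih2 s3
        linarith
      · have := ih3 hk2
        linarith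

theorem edge_GM (lam x0 x1 x2 x3 : ℝ) :
    GM (lam * x0 + (1 - lam) * GM x0 x1 x2 x3) (lam * x1 + (1 - lam) * GM x0 x1 x2 x3)
      (lam * x2 + (1 - lam) * GM x0 x1 x2 x3) (lam * x3 + (1 - lam) * GM x0 x1 x2 x3) = GM x0 x1 x2 x3 := by
  unfold GM
  ring

theorem edge_eq {lam x m : ℝ} (hm' : 0 < m) : lam * x + (1 - lam) * m = m * (1 + lam * (x / m - 1)) := by
  field_simp
  ring

theorem edge_S (lam : ℝ) {x0 x1 x2 x3 : ℝ} (h0 : 0 ≤ x0) (h1 : 0 ≤ x1) (h2 : 0 ≤ x2) (h3 : 0 ≤ x3) :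
    hm sS (lam * x0 + (1 - lam) * GM x0 x1 x2 x3) (lam * x1 + (1 - lam) * GM x0 x1 x2 x3)
      (lam * x2 + (1 - lam) * GM x0 x1 x2 x3) (lam * x3 + (1 - lam) * GM x0 x1 x2 x3) = lam ^ 2 * hm sS x0 x1 x2 x3 := by
  rcases (GM_nn h0 h1 h2 h3).eq_or_lt with e | hm1
  · obtain ⟨rfl, rfl, rfl, rfl⟩ := GM_eq_zero h0 h1 h2 h3 e.symm
    simp [hm, GM]
  · have hs := norm_sum (rfl : GM x0 x1 x2 x3 = GM x0 x1 x2 x3) hm1
    set m := GM x0 x1 x2 x3 with hm2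
    rw [edge_eq hm1, edge_eq hm1, edge_eq hm1, edge_eq hm1, hm_norm sS hm1 (by linear_combination lam * hs)]
    have : hm sS x0 x1 x2 x3 = m * sS (x0 / m) (x1 / m) (x2 / m) (x3 / m) := rfl
    rw [this]
    simp only [sS]
    ring

theorem edge_Ph {lam : ℝ} (hl0 : 0 ≤ lam) (hl1 : lam ≤ 1) {x0 x1 x2 x3 : ℝ} (h0 : 0 ≤ x0) (h1 : 0 ≤ x1) (h2 : 0 ≤ x2)
    (h3 : 0 ≤ x3) :
    lam ^ 3 * hm fPh x0 x1 x2 x3 ≤ hm fPh (lam * x0 + (1 - lam) * GM x0 x1 x2 x3) (lam * x1 + (1 - lam) * GM x0 x1 x2 x3)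
      (lam * x2 + (1 - lam) * GM x0 x1 x2 x3) (lam * x3 + (1 - lam) * GM x0 x1 x2 x3) := by
  rcases (GM_nn h0 h1 h2 h3).eq_or_lt with e | hm1
  · obtain ⟨rfl, rfl, rfl, rfl⟩ := GM_eq_zero h0 h1 h2 h3 e.symm
    simp [hm, GM]
  · have hs := norm_sum (rfl : GM x0 x1 x2 x3 = GM x0 x1 x2 x3) hm1
    have hD : IsD (x0 / GM x0 x1 x2 x3) (x1 / GM x0 x1 x2 x3) (x2 / GM x0 x1 x2 x3) (x3 / GM x0 x1 x2 x3) :=
      norm_isD rfl hm1 h0 h1 h2 h3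
    set m := GM x0 x1 x2 x3 with hm2
    rw [edge_eq hm1, edge_eq hm1, edge_eq hm1, edge_eq hm1, hm_norm fPh hm1 (by linear_combination lam * hs)]
    have : hm fPh x0 x1 x2 x3 = m * fPh (x0 / m) (x1 / m) (x2 / m) (x3 / m) := rfl
    rw [this]
    set a0 := x0 / m
    set a1 := x1 / m
    set a2 := x2 / m
    set a3 := x3 / m
    have e1 : sS (1 + lam * (a0 - 1)) (1 + lam * (a1 - 1)) (1 + lam * (a2 - 1)) (1 + lam * (a3 - 1)) = lam ^ 2 * sS a0 a1 a2 a3 := by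
      simp only [sS]; ring
    have e2 : sT (1 + lam * (a0 - 1)) (1 + lam * (a1 - 1)) (1 + lam * (a2 - 1)) (1 + lam * (a3 - 1)) = lam ^ 3 * sT a0 a1 a2 a3 := by
      simp only [sT]; ring
    have e3 : sQ (1 + lam * (a0 - 1)) (1 + lam * (a1 - 1)) (1 + lam * (a2 - 1)) (1 + lam * (a3 - 1)) = lam ^ 4 * sQ a0 a1 a2 a3 := by
      simp only [sQ]; ring
    simp only [fPh, phF, e1, e2, e3]
    set S := sS a0 a1 a2 a3
    set T := sT a0 a1 a2 a3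
    set Q := sQ a0 a1 a2 a3
    have hS : 0 ≤ S := sS_nonneg _ _ _ _
    have hQ : 0 ≤ Q := by
      simp only [Q, sQ]
      positivity
    have hT : T ≤ 2 * S := by
      have hd := hD.dom
      have et : T = S * (gτ a0 a1 a2 a3 - 1) := T_eq
      have := hd.t3
      rw [et]
      nlinarith
    have hST : (1 + lam) * (S * T) ≤ 4 * S ^ 2 := by
      have h5 : S * T ≤ S * (2 * S) := mul_le_mul_of_nonneg_left hT hS
      rcases le_total 0 (S * T) with h6 | h6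
      · have : (1 + lam) * (S * T) ≤ 2 * (S * T) := mul_le_mul_of_nonneg_right (by linarith) h6
        nlinarith
      · have : (1 + lam) * (S * T) ≤ 0 := mul_nonpos_of_nonneg_of_nonpos (by linarith) h6
        nlinarith [sq_nonneg S]
    have hbr : 0 ≤ 533 / 4096 * S ^ 2 + 451 / 4096 * Q - 133 / 4096 * ((1 + lam) * (S * T)) := by
      have := sq_nonneg S
      linarith
    have hl3 : 0 ≤ lam ^ 3 * (1 - lam) := mul_nonneg (by positivity) (by linarith)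
    have key := mul_nonneg (mul_nonneg hm1.le hl3) hbr
    have e : m * (T * lam ^ 3 - 533 / 4096 * (S * lam ^ 2) ^ 2 - 451 / 4096 * (Q * lam ^ 4) + 133 / 4096 * (S * lam ^ 2) * (T * lam ^ 3)) - lam ^ 3 * (m * (T - 533 / 4096 * S ^ 2 - 451 / 4096 * Q + 133 / 4096 * S * T))
        = m * (lam ^ 3 * (1 - lam)) * (533 / 4096 * S ^ 2 + 451 / 4096 * Q - 133 / 4096 * ((1 + lam) * (S * T))) := by ring
    nlinarith

/-- The channel after one edge. -/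
noncomputable def edgeCh (lam : ℝ) (ℓ : Ω → Fin 4 → ℝ) : Ω → Fin 4 → ℝ :=
  fun ω i => lam * ℓ ω i + (1 - lam) * GM (ℓ ω 0) (ℓ ω 1) (ℓ ω 2) (ℓ ω 3)

theorem GM_fin (v : Fin 4 → ℝ) : GM (v 0) (v 1) (v 2) (v 3) = (∑ i, v i) / 4 := by
  unfold GM
  rw [Fin.sum_univ_four]

theorem IsSym.edgeT {ℓ : Ω → Fin 4 → ℝ} (h : IsSym ℓ) (lam : ℝ) : IsSym (edgeCh lam ℓ) := by
  intro σ
  obtain ⟨e, he⟩ := h σ
  refine ⟨e, ?_⟩
  intro ω i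
  unfold edgeCh
  rw [GM_fin (fun j => ℓ (e ω) j), GM_fin (fun j => ℓ ω j)]
  simp only [he]
  rw [Equiv.sum_comp σ (fun j => ℓ ω j)]

theorem GoodP.edge {ℓ : Ω → Fin 4 → ℝ} (h : GoodP ℓ) {lam : ℝ} (h0 : 0 ≤ lam) (h1 : lam ≤ 1) :
    GoodP (edgeCh lam ℓ) ∧ ExT (edgeCh lam ℓ) (hm sS) = lam ^ 2 * ExT ℓ (hm sS) := by
  have hnn : ∀ ω i, 0 ≤ edgeCh lam ℓ ω i := by
    intro ω i
    have a1 := h.nn ω i
    have a2 := GM_nn (h.nn ω 0) (h.nn ω 1) (h.nn ω 2) (h.nn ω 3)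
    have a3 : 0 ≤ 1 - lam := by linarith
    unfold edgeCh
    positivity
  have hGM : (fun ω => GM (edgeCh lam ℓ ω 0) (edgeCh lam ℓ ω 1) (edgeCh lam ℓ ω 2) (edgeCh lam ℓ ω 3))
      = fun ω => GM (ℓ ω 0) (ℓ ω 1) (ℓ ω 2) (ℓ ω 3) := by
    funext ω
    exact edge_GM _ _ _ _ _
  have hsumm : Summable (fun ω => GM (edgeCh lam ℓ ω 0) (edgeCh lam ℓ ω 1) (edgeCh lam ℓ ω 2) (edgeCh lam ℓ ω 3)) := by
    rw [hGM]; exact h.summ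
  have hm' : ExT (edgeCh lam ℓ) GM = 1 := by
    unfold ExT
    rw [hGM]
    exact h.mass
  have hb : Base (edgeCh lam ℓ) := ⟨hnn, hsumm, hm'⟩
  have hS : ExT (edgeCh lam ℓ) (hm sS) = lam ^ 2 * ExT ℓ (hm sS) := by
    unfold ExT
    rw [← tsum_mul_left]
    apply tsum_congr
    intro ω
    exact edge_S lam (h.nn ω 0) (h.nn ω 1) (h.nn ω 2) (h.nn ω 3)
  have hphi : lam ^ 3 * ExT ℓ (hm fPh) ≤ ExT (edgeCh lam ℓ) (hm fPh) := by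
    have := hasSum_le (fun ω => edge_Ph h0 h1 (h.nn ω 0) (h.nn ω 1) (h.nn ω 2) (h.nn ω 3))
      ((h.toBase.hasSum SG_Ph).mul_left (lam ^ 3)) (hb.hasSum SG_Ph)
    exact this
  have h2 : 0 ≤ lam ^ 3 * ExT ℓ (hm fPh) := mul_nonneg (by positivity) h.phi
  exact ⟨⟨hb, by linarith⟩, hS⟩

end chan

end Vale.Agent.Lib.P154Q5
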