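import Vale.Agent.Lib.P154Q5.FormB

namespace Vale.Agent.Lib.P154Q5

/-- what is proved on pairs of points -/
def PB (S τ q S' τ' q' : ℝ) : Prop := 0 ≤ dotR (bRB (ptF S τ q)) (ptF S' τ' q')

/-- what is proved on pairs of cells -/
abbrev CKB (x y : Cell) : Prop := CellOK 4096 Dom Dom PB x y

theorem ckB_sound (t : Tr) (x y : Cell) (h : chk 4096 (fB.leaf 4096) t x y = true) : CKB x y := by
  refine chk_sound (fun f1 g1 f2 g2 x y h S τ q S' τ' q' hd hd' hx hy => ?_) t x y h
  obtain ⟨_, _, _, h3⟩ := Form.leaf_sound (by norm_num) fB_ok h hd hd' hx hy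
  exact h3

end Vale.Agent.Lib.P154Q5
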