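import Vale.Agent.Lib.P154Q5.Cell

/-!
Clipping and discarding of cells; the tree recursion.
-/

namespace Vale.Agent.Lib.P154Q5

/-- a cell of the grid -/
structure Cell where
  sl : Nat
  sh : Nat
  tl : Nat
  th : Nat

/-- a point lies in a cell -/
structure InC (UU : Nat) (c : Cell) (S τ : ℝ) : Prop where
  s1 : (c.sl : ℝ) ≤ UU * S
  s2 : (UU : ℝ) * S ≤ c.sh
  t1 : (c.tl : ℝ) ≤ UU * τ
  t2 : (UU : ℝ) * τ ≤ c.th

/-- lower end of the clipped range -/
def clipL (UU : Nat) (c : Cell) : Nat :=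
  let a := Nat.sub UU c.th
  let b := Nat.sub c.tl UU
  let low := Nat.div (Nat.mul 3 (Nat.add (Nat.mul a a) (Nat.mul b b))) UU
  cond (Nat.ble c.sl low) low c.sl

/-- upper end of the clipped range -/
def clipH (UU : Nat) (c : Cell) : Nat :=
  let cl := Nat.add (Nat.div (Nat.mul 12 (Nat.mul UU UU)) (Nat.sub (Nat.mul 4 UU) c.th)) 1
  cond (Nat.ble c.sh cl) c.sh cl

theorem clipL_le {UU : Nat} (hU0 : 0 < UU) {c : Cell} {S τ q : ℝ} (hd : Dom S τ q) (hc : InC UU c S τ) : (clipL UU c : ℝ) ≤ UU * S := by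
  have hU : (0 : ℝ) < UU := by exact_mod_cast hU0
  unfold clipL
  simp only [Nat.sub_eq, Nat.mul_eq, Nat.add_eq, Nat.div_eq]
  cases hb : Nat.ble c.sl (3 * ((UU - c.th) * (UU - c.th) + (c.tl - UU) * (c.tl - UU)) / UU) with
  | false => simpa using hc.s1
  | true =>
    simp only [cond_true]
    have h1 : (((3 * ((UU - c.th) * (UU - c.th) + (c.tl - UU) * (c.tl - UU)) / UU : ℕ)) : ℝ)
        ≤ ((3 * ((UU - c.th) * (UU - c.th) + (c.tl - UU) * (c.tl - UU)) : ℕ) : ℝ) / (UU : ℝ) :=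
      Nat.cast_div_le
    refine le_trans h1 ?_
    rw [div_le_iff₀ hU]
    have hA : ((UU - c.th : ℕ) : ℝ) ^ 2 + ((c.tl - UU : ℕ) : ℝ) ^ 2 ≤ (UU * τ - UU) ^ 2 := by
      have t1 := hc.t1
      have t2 := hc.t2
      have hthl : (c.tl : ℝ) ≤ c.th := le_trans t1 t2
      have hthl' : c.tl ≤ c.th := by exact_mod_cast hthl
      rcases le_total c.th UU with h | h
      · have e1 : c.tl - UU = 0 := by omega
        rw [e1, Nat.cast_sub h]
        have h' : (c.th : ℝ) ≤ UU := by exact_mod_cast h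
        push_cast
        nlinarith
      · have e1 : UU - c.th = 0 := by omega
        rw [e1]
        rcases le_total c.tl UU with h2 | h2
        · have e2 : c.tl - UU = 0 := by omega
          rw [e2]
          push_cast
          nlinarith [sq_nonneg ((UU : ℝ) * τ - UU)]
        · rw [Nat.cast_sub h2]
          have h2' : (UU : ℝ) ≤ c.tl := by exact_mod_cast h2
          push_cast
          nlinarith
    have hB : 3 * (τ - 1) ^ 2 ≤ S := hd.tS
    push_cast
    have e : ((UU : ℝ) * τ - UU) ^ 2 = UU ^ 2 * (τ - 1) ^ 2 := by ring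
    rw [e] at hA
    have e2 : (UU : ℝ) ^ 2 * (3 * (τ - 1) ^ 2) ≤ UU ^ 2 * S := mul_le_mul_of_nonneg_left hB (by positivity)
    nlinarith

theorem le_clipH {UU : Nat} (hU0 : 0 < UU) {c : Cell} {S τ q : ℝ} (hd : Dom S τ q) (hc : InC UU c S τ) (hth : c.th ≤ 3 * UU) :
    (UU : ℝ) * S ≤ clipH UU c := by
  have hU : (0 : ℝ) < UU := by exact_mod_cast hU0
  unfold clipH
  simp only [Nat.sub_eq, Nat.mul_eq, Nat.add_eq, Nat.div_eq]
  cases hb : Nat.ble c.sh (12 * (UU * UU) / (4 * UU - c.th) + 1) with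
  | true => simpa using hc.s2
  | false =>
    simp only [cond_false]
    have hpos : 0 < 4 * UU - c.th := by
      omega
    have h1 : 12 * (UU * UU) < (12 * (UU * UU) / (4 * UU - c.th) + 1) * (4 * UU - c.th) := by
      have := Nat.lt_mul_div_succ (12 * (UU * UU)) hpos
      rwa [Nat.mul_comm (4 * UU - c.th)] at this
    have h2 : ((12 * (UU * UU) : ℕ) : ℝ) < (((12 * (UU * UU) / (4 * UU - c.th) + 1) * (4 * UU - c.th) : ℕ) : ℝ) := by
      exact_mod_cast h1
    push_cast at h2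
    rw [Nat.cast_sub (by omega)] at h2
    push_cast at h2
    have hth' : (c.th : ℝ) ≤ 3 * UU := by exact_mod_cast hth
    have hS := hd.s0
    have he := hd.e3
    have ht2 := hc.t2
    set N : ℝ := ((12 * (UU * UU) / (4 * UU - c.th) : ℕ) : ℝ) + 1 with hN
    have hden : (0 : ℝ) < 4 * UU - c.th := by linarith
    by_contra hcon
    push Not at hcon
    have k1 : N < UU * S := by
      have : (((12 * (UU * UU) / (4 * UU - c.th) + 1 : ℕ)) : ℝ) = N := by
        rw [hN]; push_cast; rfl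
      rw [← this]
      exact_mod_cast hcon
    have k2 : 12 * ((UU : ℝ) * UU) < N * (4 * UU - c.th) := h2
    have k3 : (UU : ℝ) * S * (4 * UU - c.th) ≤ 12 * (UU * UU) := by
      have a1 : S * (4 - τ) ≤ 12 := he
      have a2 : (UU : ℝ) * (S * (4 - τ)) * UU ≤ 12 * UU * UU := by
        have : (UU : ℝ) * (S * (4 - τ)) * UU = (S * (4 - τ)) * (UU * UU) := by ring
        rw [this]
        have : (12 : ℝ) * UU * UU = 12 * (UU * UU) := by ring
        rw [this]
        exact mul_le_mul_of_nonneg_right a1 (by positivity)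
      have a3 : (UU : ℝ) * S * (4 * UU - c.th) ≤ (UU : ℝ) * S * (4 * UU - UU * τ) := by
        apply mul_le_mul_of_nonneg_left
        · linarith
        · positivity
      have a4 : (UU : ℝ) * S * (4 * UU - UU * τ) = (UU : ℝ) * (S * (4 - τ)) * UU := by ring
      nlinarith
    have k4 : N * (4 * UU - c.th) ≤ (UU : ℝ) * S * (4 * UU - c.th) :=
      mul_le_mul_of_nonneg_right k1.le hden.le
    linarith

/-- a test that the polynomial `48 + 3 S² + S (40 τ - 12 τ² - 52)` is negative at a grid point -/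
def pNeg (UU x y : Nat) : Bool :=
  Nat.ble (Nat.add (Nat.add (Nat.mul 48 (Nat.mul UU (Nat.mul UU UU))) (Nat.mul 3 (Nat.mul (Nat.mul x x) UU)))
      (Nat.add (Nat.mul 40 (Nat.mul (Nat.mul x y) UU)) 1))
    (Nat.add (Nat.mul 12 (Nat.mul (Nat.mul x y) y)) (Nat.mul 52 (Nat.mul x (Nat.mul UU UU))))

theorem pNeg_sound {UU x y : Nat} (hU0 : 0 < UU) (h : pNeg UU x y = true) :
    48 + 3 * ((x : ℝ) / UU) ^ 2 + ((x : ℝ) / UU) * (40 * ((y : ℝ) / UU) - 12 * ((y : ℝ) / UU) ^ 2 - 52) < 0 := by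
  have hU : (0 : ℝ) < UU := by exact_mod_cast hU0
  unfold pNeg at h
  simp only [Nat.mul_eq, Nat.add_eq] at h
  have h1 := Nat.le_of_ble_eq_true h
  have h2 : ((48 * (UU * (UU * UU)) + 3 * (x * x * UU) + (40 * (x * y * UU) + 1) : ℕ) : ℝ)
      ≤ ((12 * (x * y * y) + 52 * (x * (UU * UU)) : ℕ) : ℝ) := by exact_mod_cast h1
  push_cast at h2
  have e : 48 + 3 * ((x : ℝ) / UU) ^ 2 + ((x : ℝ) / UU) * (40 * ((y : ℝ) / UU) - 12 * ((y : ℝ) / UU) ^ 2 - 52)
      = (48 * ((UU : ℝ) * (UU * UU)) + 3 * (x * x * UU) + 40 * (x * y * UU) - (12 * (x * y * y) + 52 * (x * (UU * UU)))) / (UU : ℝ) ^ 3 := by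
    field_simp
    ring
  rw [e]
  apply div_neg_of_neg_of_pos
  · linarith
  · positivity

/-- the test that a cell contains no point -/
def isEmpty (UU : Nat) (c : Cell) : Bool :=
  let L := clipL UU c
  let H := clipH UU c
  or (Nat.ble (Nat.add H 1) L)
    (and (Nat.ble (Nat.mul 3 c.th) (Nat.mul 5 UU)) (and (pNeg UU L c.th) (pNeg UU (Nat.add H 1) c.th)))

theorem isEmpty_sound {UU : Nat} (hU0 : 0 < UU) {c : Cell} {S τ q : ℝ} (hd : Dom S τ q) (hc : InC UU c S τ) (hth : c.th ≤ 3 * UU)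
    (h : isEmpty UU c = true) : False := by
  have hU : (0 : ℝ) < UU := by exact_mod_cast hU0
  have h1 := clipL_le hU0 hd hc
  have h2 := le_clipH hU0 hd hc hth
  unfold isEmpty at h
  simp only [Nat.add_eq, Nat.mul_eq] at h
  rcases Bool.or_eq_true _ _ ▸ h with h3 | h3
  · have h4 := Nat.le_of_ble_eq_true h3
    have h5 : ((clipH UU c + 1 : ℕ) : ℝ) ≤ (clipL UU c : ℝ) := by exact_mod_cast h4
    push_cast at h5
    linarith
  · simp only [Bool.and_eq_true] at h3
    obtain ⟨h4, h5, h6⟩ := h3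
    have a1 := pNeg_sound hU0 h5
    have a2 := pNeg_sound hU0 h6
    have h7 := Nat.le_of_ble_eq_true h4
    have h8 : (3 : ℝ) * c.th ≤ 5 * UU := by exact_mod_cast h7
    have hp := hd.pq
    set l : ℝ := (clipL UU c : ℝ) / UU with hl
    set u : ℝ := ((clipH UU c + 1 : ℕ) : ℝ) / UU with hu
    set y : ℝ := (c.th : ℝ) / UU with hy
    have hy1 : τ ≤ y := by
      rw [hy, le_div_iff₀ hU]
      have := hc.t2
      linarith
    have hy2 : y ≤ 5 / 3 := by
      rw [hy, div_le_iff₀ hU]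
      linarith
    have hS1 : l ≤ S := by
      rw [hl, div_le_iff₀ hU]
      linarith
    have hS2 : S < u := by
      rw [hu, lt_div_iff₀ hU]
      push_cast
      linarith
    have ht0 := hd.t0
    have hS0 := hd.s0
    -- monotonicity in the second variable
    have m1 : 48 + 3 * S ^ 2 + S * (40 * τ - 12 * τ ^ 2 - 52) ≤ 48 + 3 * S ^ 2 + S * (40 * y - 12 * y ^ 2 - 52) := by
      have : 40 * τ - 12 * τ ^ 2 ≤ 40 * y - 12 * y ^ 2 := by nlinarith
      nlinarith
    -- convexity in the first variable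
    set c' : ℝ := 40 * y - 12 * y ^ 2 - 52 with hc'
    have hlu : 0 < u - l := by linarith
    have m2 : (u - l) * (48 + 3 * S ^ 2 + S * c') ≤ (u - S) * (48 + 3 * l ^ 2 + l * c') + (S - l) * (48 + 3 * u ^ 2 + u * c') := by
      nlinarith [mul_nonneg (sub_nonneg.2 hS1) (sub_nonneg.2 hS2.le)]
    have m3 : (u - S) * (48 + 3 * l ^ 2 + l * c') ≤ 0 :=
      mul_nonpos_of_nonneg_of_nonpos (by linarith) a1.le
    have m4 : (S - l) * (48 + 3 * u ^ 2 + u * c') ≤ 0 :=
      mul_nonpos_of_nonneg_of_nonpos (by linarith) a2.le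
    have m5 : 48 + 3 * S ^ 2 + S * c' < 0 := by
      by_contra hcon
      push Not at hcon
      have : (u - l) * (48 + 3 * S ^ 2 + S * c') ≤ 0 := by linarith
      have k1 := mul_nonneg hlu.le hcon
      have k2 : (u - l) * (48 + 3 * S ^ 2 + S * c') = 0 := by linarith
      have k3 : 48 + 3 * S ^ 2 + S * c' = 0 := by
        rcases mul_eq_zero.1 k2 with h | h
        · linarith
        · exact h
      have k4 : (u - S) * (48 + 3 * l ^ 2 + l * c') < 0 := mul_neg_of_pos_of_neg (by linarith) a1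
      nlinarith
    linarith

/-- the certificate tree -/
inductive Tr where
  | z0 : Tr
  | z1 : Tr
  | z2 : Tr
  | z3 : Tr
  | z4 : Tr
  | z5 : Tr
  | z6 : Tr
  | z7 : Tr
  | z8 : Tr
  | z9 : Tr
  | z10 : Tr
  | z11 : Tr
  | z12 : Tr
  | z13 : Tr
  | z14 : Tr
  | z15 : Tr
  | a : Tr → Tr → Tr
  | b : Tr → Tr → Tr
  | c : Tr → Tr → Tr
  | d : Tr → Tr → Tr

/-- split point in the first coordinate -/
def midS (UU : Nat) (c : Cell) : Nat := Nat.div (Nat.add (clipL UU c) (Nat.add (clipH UU c) 1)) 2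

/-- split point in the second coordinate -/
def midT (c : Cell) : Nat := Nat.div (Nat.add c.tl c.th) 2

/-- the recursion along the tree -/
def chk (UU : Nat) (leaf : Bool → Bool → Bool → Bool → Cell → Cell → Bool) : Tr → Cell → Cell → Bool
  | .z0, x, y => leaf false false false false x y
  | .z1, x, y => leaf true false false false x y
  | .z2, x, y => leaf false true false false x y
  | .z3, x, y => leaf true true false false x y
  | .z4, x, y => leaf false false true false x y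
  | .z5, x, y => leaf true false true false x y
  | .z6, x, y => leaf false true true false x y
  | .z7, x, y => leaf true true true false x y
  | .z8, x, y => leaf false false false true x y
  | .z9, x, y => leaf true false false true x y
  | .z10, x, y => leaf false true false true x y
  | .z11, x, y => leaf true true false true x y
  | .z12, x, y => leaf false false true true x y
  | .z13, x, y => leaf true false true true x y
  | .z14, x, y => leaf false true true true x y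
  | .z15, x, y => leaf true true true true x y
  | .a l r, x, y =>
    let m := midS UU x
    and (chk UU leaf l ⟨x.sl, m, x.tl, x.th⟩ y) (chk UU leaf r ⟨m, x.sh, x.tl, x.th⟩ y)
  | .b l r, x, y =>
    let m := midT x
    and (chk UU leaf l ⟨x.sl, x.sh, x.tl, m⟩ y) (chk UU leaf r ⟨x.sl, x.sh, m, x.th⟩ y)
  | .c l r, x, y =>
    let m := midS UU y
    and (chk UU leaf l x ⟨y.sl, m, y.tl, y.th⟩) (chk UU leaf r x ⟨m, y.sh, y.tl, y.th⟩)
  | .d l r, x, y =>
    let m := midT y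
    and (chk UU leaf l x ⟨y.sl, y.sh, y.tl, m⟩) (chk UU leaf r x ⟨y.sl, y.sh, m, y.th⟩)

/-- the statement proved for a pair of cells -/
def CellOK (UU : Nat) (D1 D2 : ℝ → ℝ → ℝ → Prop) (P : ℝ → ℝ → ℝ → ℝ → ℝ → ℝ → Prop) (x y : Cell) : Prop :=
  ∀ S τ q S' τ' q', D1 S τ q → D2 S' τ' q' → InC UU x S τ → InC UU y S' τ' → P S τ q S' τ' q'

section splits

variable {UU : Nat} {D1 D2 : ℝ → ℝ → ℝ → Prop} {P : ℝ → ℝ → ℝ → ℝ → ℝ → ℝ → Prop}

theorem split1S {sl sh tl th m : Nat} {y : Cell} (h1 : CellOK UU D1 D2 P ⟨sl, m, tl, th⟩ y)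
    (h2 : CellOK UU D1 D2 P ⟨m, sh, tl, th⟩ y) : CellOK UU D1 D2 P ⟨sl, sh, tl, th⟩ y := by
  intro S τ q S' τ' q' hd hd' hx hy
  rcases le_total ((UU : ℝ) * S) (m : ℝ) with hm | hm
  · exact h1 S τ q S' τ' q' hd hd' ⟨hx.s1, hm, hx.t1, hx.t2⟩ hy
  · exact h2 S τ q S' τ' q' hd hd' ⟨hm, hx.s2, hx.t1, hx.t2⟩ hy

theorem split1T {sl sh tl th m : Nat} {y : Cell} (h1 : CellOK UU D1 D2 P ⟨sl, sh, tl, m⟩ y)
    (h2 : CellOK UU D1 D2 P ⟨sl, sh, m, th⟩ y) : CellOK UU D1 D2 P ⟨sl, sh, tl, th⟩ y := by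
  intro S τ q S' τ' q' hd hd' hx hy
  rcases le_total ((UU : ℝ) * τ) (m : ℝ) with hm | hm
  · exact h1 S τ q S' τ' q' hd hd' ⟨hx.s1, hx.s2, hx.t1, hm⟩ hy
  · exact h2 S τ q S' τ' q' hd hd' ⟨hx.s1, hx.s2, hm, hx.t2⟩ hy

theorem split2S {sl sh tl th m : Nat} {x : Cell} (h1 : CellOK UU D1 D2 P x ⟨sl, m, tl, th⟩)
    (h2 : CellOK UU D1 D2 P x ⟨m, sh, tl, th⟩) : CellOK UU D1 D2 P x ⟨sl, sh, tl, th⟩ := by
  intro S τ q S' τ' q' hd hd' hx hy
  rcases le_total ((UU : ℝ) * S') (m : ℝ) with hm | hm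
  · exact h1 S τ q S' τ' q' hd hd' hx ⟨hy.s1, hm, hy.t1, hy.t2⟩
  · exact h2 S τ q S' τ' q' hd hd' hx ⟨hm, hy.s2, hy.t1, hy.t2⟩

theorem split2T {sl sh tl th m : Nat} {x : Cell} (h1 : CellOK UU D1 D2 P x ⟨sl, sh, tl, m⟩)
    (h2 : CellOK UU D1 D2 P x ⟨sl, sh, m, th⟩) : CellOK UU D1 D2 P x ⟨sl, sh, tl, th⟩ := by
  intro S τ q S' τ' q' hd hd' hx hy
  rcases le_total ((UU : ℝ) * τ') (m : ℝ) with hm | hm
  · exact h1 S τ q S' τ' q' hd hd' hx ⟨hy.s1, hy.s2, hy.t1, hm⟩
  · exact h2 S τ q S' τ' q' hd hd' hx ⟨hy.s1, hy.s2, hm, hy.t2⟩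

/-- the recursion is sound for any property of pairs of points -/
theorem chk_sound {leaf : Bool → Bool → Bool → Bool → Cell → Cell → Bool}
    (hleaf : ∀ f1 g1 f2 g2 x y, leaf f1 g1 f2 g2 x y = true → CellOK UU D1 D2 P x y)
    (t : Tr) : ∀ x y, chk UU leaf t x y = true → CellOK UU D1 D2 P x y := by
  induction t with
  | z0 => exact fun x y h => hleaf _ _ _ _ x y h
  | z1 => exact fun x y h => hleaf _ _ _ _ x y h
  | z2 => exact fun x y h => hleaf _ _ _ _ x y h
  | z3 => exact fun x y h => hleaf _ _ _ _ x y h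
  | z4 => exact fun x y h => hleaf _ _ _ _ x y h
  | z5 => exact fun x y h => hleaf _ _ _ _ x y h
  | z6 => exact fun x y h => hleaf _ _ _ _ x y h
  | z7 => exact fun x y h => hleaf _ _ _ _ x y h
  | z8 => exact fun x y h => hleaf _ _ _ _ x y h
  | z9 => exact fun x y h => hleaf _ _ _ _ x y h
  | z10 => exact fun x y h => hleaf _ _ _ _ x y h
  | z11 => exact fun x y h => hleaf _ _ _ _ x y h
  | z12 => exact fun x y h => hleaf _ _ _ _ x y h
  | z13 => exact fun x y h => hleaf _ _ _ _ x y h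
  | z14 => exact fun x y h => hleaf _ _ _ _ x y h
  | z15 => exact fun x y h => hleaf _ _ _ _ x y h
  | a l r ihl ihr =>
    intro x y h
    simp only [chk, Bool.and_eq_true] at h
    exact split1S (ihl _ _ h.1) (ihr _ _ h.2)
  | b l r ihl ihr =>
    intro x y h
    simp only [chk, Bool.and_eq_true] at h
    exact split1T (ihl _ _ h.1) (ihr _ _ h.2)
  | c l r ihl ihr =>
    intro x y h
    simp only [chk, Bool.and_eq_true] at h
    exact split2S (ihl _ _ h.1) (ihr _ _ h.2)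
  | d l r ihl ihr =>
    intro x y h
    simp only [chk, Bool.and_eq_true] at h
    exact split2T (ihl _ _ h.1) (ihr _ _ h.2)

end splits

end Vale.Agent.Lib.P154Q5
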