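import Vale.Agent.Lib.P154Q5.Leaf

/-!
The powers of a real number up to the fifth, and the cone over the six control points
of degree five of an interval.
-/

namespace Vale.Agent.Lib.P154Q5

/-- the powers of a real number -/
def ptD (D : ℝ) : VR := ⟨1, D, D ^ 2, D ^ 3, D ^ 4, D ^ 5, 0, 0, 0, 0⟩

/-- a vector with the last four coordinates zero -/
def vD (c0 c1 c2 c3 c4 c5 : Nat) : V := ⟨c0, c1, c2, c3, c4, c5, 0, 0, 0, 0⟩

/-- the six control points of an interval -/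
def bern5 (U l h : Nat) : List V :=
  [ vD (10 * U ^ 5) (2 * U ^ 4 * (5 * l)) (U ^ 3 * (10 * l ^ 2)) (U ^ 2 * (10 * l ^ 3)) (2 * U * (5 * l ^ 4)) (10 * l ^ 5),
    vD (10 * U ^ 5) (2 * U ^ 4 * (4 * l + h)) (U ^ 3 * (6 * l ^ 2 + 4 * (l * h))) (U ^ 2 * (4 * l ^ 3 + 6 * (l ^ 2 * h)))
      (2 * U * (l ^ 4 + 4 * (l ^ 3 * h))) (10 * (l ^ 4 * h)),
    vD (10 * U ^ 5) (2 * U ^ 4 * (3 * l + 2 * h)) (U ^ 3 * (3 * l ^ 2 + 6 * (l * h) + h ^ 2))
      (U ^ 2 * (l ^ 3 + 6 * (l ^ 2 * h) + 3 * (l * h ^ 2))) (2 * U * (2 * (l ^ 3 * h) + 3 * (l ^ 2 * h ^ 2))) (10 * (l ^ 3 * h ^ 2)),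
    vD (10 * U ^ 5) (2 * U ^ 4 * (2 * l + 3 * h)) (U ^ 3 * (l ^ 2 + 6 * (l * h) + 3 * h ^ 2))
      (U ^ 2 * (3 * (l ^ 2 * h) + 6 * (l * h ^ 2) + h ^ 3)) (2 * U * (3 * (l ^ 2 * h ^ 2) + 2 * (l * h ^ 3))) (10 * (l ^ 2 * h ^ 3)),
    vD (10 * U ^ 5) (2 * U ^ 4 * (l + 4 * h)) (U ^ 3 * (4 * (l * h) + 6 * h ^ 2)) (U ^ 2 * (6 * (l * h ^ 2) + 4 * h ^ 3))
      (2 * U * (4 * (l * h ^ 3) + h ^ 4)) (10 * (l * h ^ 4)),
    vD (10 * U ^ 5) (2 * U ^ 4 * (5 * h)) (U ^ 3 * (10 * h ^ 2)) (U ^ 2 * (10 * h ^ 3)) (2 * U * (5 * h ^ 4)) (10 * h ^ 5) ]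

/-- Every power vector of a point of the interval lies in the cone over the six control points. -/
theorem hull_D {U l h : Nat} (hU : 0 < U) (hlh : l < h) {D : ℝ} (h1 : (l : ℝ) ≤ U * D) (h2 : (U : ℝ) * D ≤ h) :
    Hull (ptD D) (bern5 U l h) := by
  intro u hu
  have hU' : (0 : ℝ) < U := by exact_mod_cast hU
  have hlh' : (l : ℝ) < h := by exact_mod_cast hlh
  have hd : 0 < (h : ℝ) - l := by linarith
  have hx : 0 ≤ (U : ℝ) * D - l := by linarith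
  have hy : 0 ≤ (h : ℝ) - U * D := by linarith
  simp only [bern5, List.forall_mem_cons, List.not_mem_nil, false_imp_iff, implies_true, and_true] at hu
  obtain ⟨k0, k1, k2, k3, k4, k5⟩ := hu
  set W : ℝ := ((h : ℝ) - l) ^ 5 * (10 * (U : ℝ) ^ 5) with hW
  have hWpos : 0 < W := by positivity
  have key : W * dotR u (ptD D) =
      ((h : ℝ) - U * D) ^ 5 * dotR u (vD (10 * U ^ 5) (2 * U ^ 4 * (5 * l)) (U ^ 3 * (10 * l ^ 2)) (U ^ 2 * (10 * l ^ 3)) (2 * U * (5 * l ^ 4)) (10 * l ^ 5)).r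
      + 5 * ((h : ℝ) - U * D) ^ 4 * ((U : ℝ) * D - l) * dotR u (vD (10 * U ^ 5) (2 * U ^ 4 * (4 * l + h)) (U ^ 3 * (6 * l ^ 2 + 4 * (l * h))) (U ^ 2 * (4 * l ^ 3 + 6 * (l ^ 2 * h)))
        (2 * U * (l ^ 4 + 4 * (l ^ 3 * h))) (10 * (l ^ 4 * h))).r
      + 10 * ((h : ℝ) - U * D) ^ 3 * ((U : ℝ) * D - l) ^ 2 * dotR u (vD (10 * U ^ 5) (2 * U ^ 4 * (3 * l + 2 * h)) (U ^ 3 * (3 * l ^ 2 + 6 * (l * h) + h ^ 2))
        (U ^ 2 * (l ^ 3 + 6 * (l ^ 2 * h) + 3 * (l * h ^ 2))) (2 * U * (2 * (l ^ 3 * h) + 3 * (l ^ 2 * h ^ 2))) (10 * (l ^ 3 * h ^ 2))).r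
      + 10 * ((h : ℝ) - U * D) ^ 2 * ((U : ℝ) * D - l) ^ 3 * dotR u (vD (10 * U ^ 5) (2 * U ^ 4 * (2 * l + 3 * h)) (U ^ 3 * (l ^ 2 + 6 * (l * h) + 3 * h ^ 2))
        (U ^ 2 * (3 * (l ^ 2 * h) + 6 * (l * h ^ 2) + h ^ 3)) (2 * U * (3 * (l ^ 2 * h ^ 2) + 2 * (l * h ^ 3))) (10 * (l ^ 2 * h ^ 3))).r
      + 5 * ((h : ℝ) - U * D) * ((U : ℝ) * D - l) ^ 4 * dotR u (vD (10 * U ^ 5) (2 * U ^ 4 * (l + 4 * h)) (U ^ 3 * (4 * (l * h) + 6 * h ^ 2)) (U ^ 2 * (6 * (l * h ^ 2) + 4 * h ^ 3))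
        (2 * U * (4 * (l * h ^ 3) + h ^ 4)) (10 * (l * h ^ 4))).r
      + ((U : ℝ) * D - l) ^ 5 * dotR u (vD (10 * U ^ 5) (2 * U ^ 4 * (5 * h)) (U ^ 3 * (10 * h ^ 2)) (U ^ 2 * (10 * h ^ 3)) (2 * U * (5 * h ^ 4)) (10 * h ^ 5)).r := by
    simp only [dotR, ptD, V.r, vD, hW]
    push_cast
    ring
  have p0 := mul_nonneg (pow_nonneg hy 5) k0
  have p1 := mul_nonneg (mul_nonneg (mul_nonneg (by norm_num : (0 : ℝ) ≤ 5) (pow_nonneg hy 4)) hx) k1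
  have p2 := mul_nonneg (mul_nonneg (mul_nonneg (by norm_num : (0 : ℝ) ≤ 10) (pow_nonneg hy 3)) (pow_nonneg hx 2)) k2
  have p3 := mul_nonneg (mul_nonneg (mul_nonneg (by norm_num : (0 : ℝ) ≤ 10) (pow_nonneg hy 2)) (pow_nonneg hx 3)) k3
  have p4 := mul_nonneg (mul_nonneg (mul_nonneg (by norm_num : (0 : ℝ) ≤ 5) hy) (pow_nonneg hx 4)) k4
  have p5 := mul_nonneg (pow_nonneg hx 5) k5
  have : 0 ≤ W * dotR u (ptD D) := by
    rw [key]
    linarith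
  exact nonneg_of_mul_nonneg_right this hWpos

/-- the six control points packed into one vector, computed by few multiplications -/
def pkD (X U l h : Nat) : V :=
  let X2 := Nat.mul X X
  let X3 := Nat.mul X2 X
  let X4 := Nat.mul X2 X2
  let X5 := Nat.mul X3 X2
  let U2 := Nat.mul U U
  let U3 := Nat.mul U2 U
  let U4 := Nat.mul U2 U2
  let U5 := Nat.mul U3 U2
  let l2 := Nat.mul l l
  let l3 := Nat.mul l2 l
  let l4 := Nat.mul l2 l2
  let l5 := Nat.mul l3 l2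
  let h2 := Nat.mul h h
  let h3 := Nat.mul h2 h
  let h4 := Nat.mul h2 h2
  let h5 := Nat.mul h3 h2
  let lh := Nat.mul l h
  let l2h := Nat.mul l2 h
  let lh2 := Nat.mul l h2
  let l3h := Nat.mul l3 h
  let l2h2 := Nat.mul l2 h2
  let lh3 := Nat.mul l h3
  ⟨Nat.mul (Nat.mul 10 U5) (Nat.add 1 (Nat.add X (Nat.add X2 (Nat.add X3 (Nat.add X4 X5))))),
   Nat.mul (Nat.mul 2 U4) (Nat.add (Nat.mul 5 l) (Nat.add (Nat.mul (Nat.add (Nat.mul 4 l) h) X)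
     (Nat.add (Nat.mul (Nat.add (Nat.mul 3 l) (Nat.mul 2 h)) X2) (Nat.add (Nat.mul (Nat.add (Nat.mul 2 l) (Nat.mul 3 h)) X3)
     (Nat.add (Nat.mul (Nat.add l (Nat.mul 4 h)) X4) (Nat.mul (Nat.mul 5 h) X5)))))),
   Nat.mul U3 (Nat.add (Nat.mul 10 l2) (Nat.add (Nat.mul (Nat.add (Nat.mul 6 l2) (Nat.mul 4 lh)) X)
     (Nat.add (Nat.mul (Nat.add (Nat.mul 3 l2) (Nat.add (Nat.mul 6 lh) h2)) X2)
     (Nat.add (Nat.mul (Nat.add l2 (Nat.add (Nat.mul 6 lh) (Nat.mul 3 h2))) X3)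
     (Nat.add (Nat.mul (Nat.add (Nat.mul 4 lh) (Nat.mul 6 h2)) X4) (Nat.mul (Nat.mul 10 h2) X5)))))),
   Nat.mul U2 (Nat.add (Nat.mul 10 l3) (Nat.add (Nat.mul (Nat.add (Nat.mul 4 l3) (Nat.mul 6 l2h)) X)
     (Nat.add (Nat.mul (Nat.add l3 (Nat.add (Nat.mul 6 l2h) (Nat.mul 3 lh2))) X2)
     (Nat.add (Nat.mul (Nat.add (Nat.mul 3 l2h) (Nat.add (Nat.mul 6 lh2) h3)) X3)
     (Nat.add (Nat.mul (Nat.add (Nat.mul 6 lh2) (Nat.mul 4 h3)) X4) (Nat.mul (Nat.mul 10 h3) X5)))))),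
   Nat.mul (Nat.mul 2 U) (Nat.add (Nat.mul 5 l4) (Nat.add (Nat.mul (Nat.add l4 (Nat.mul 4 l3h)) X)
     (Nat.add (Nat.mul (Nat.add (Nat.mul 2 l3h) (Nat.mul 3 l2h2)) X2)
     (Nat.add (Nat.mul (Nat.add (Nat.mul 3 l2h2) (Nat.mul 2 lh3)) X3)
     (Nat.add (Nat.mul (Nat.add (Nat.mul 4 lh3) h4) X4) (Nat.mul (Nat.mul 5 h4) X5)))))),
   Nat.mul 10 (Nat.add l5 (Nat.add (Nat.mul (Nat.mul l4 h) X)
     (Nat.add (Nat.mul (Nat.mul l3 h2) X2) (Nat.add (Nat.mul (Nat.mul l2 h3) X3)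
     (Nat.add (Nat.mul (Nat.mul l h4) X4) (Nat.mul h5 X5)))))),
   0, 0, 0, 0⟩

theorem pkD_eq (X U l h : Nat) : pkD X U l h = packV X (bern5 U l h) := by
  simp only [pkD, bern5, packV, Nat.mul_eq, Nat.add_eq, vD]
  ext <;> simp only [V.add, V.smul, V.zero] <;> ring

/-- the length of the list -/
theorem bern5_length (U l h : Nat) : (bern5 U l h).length = 6 := rfl

/-- the bounds for the control points -/
theorem bern5_bd {U l h : Nat} (hU : 1 ≤ U) (hl : l ≤ 4 * U) (hh : h ≤ 4 * U) :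
    ∀ w ∈ bern5 U l h, Bd (16777216 * U ^ 7) w := by
  have hp : U ^ 5 ≤ U ^ 7 := Nat.pow_le_pow_right hU (by norm_num)
  have key : ∀ {c e : Nat}, c ≤ 16777216 → e ≤ c * U ^ 5 → e ≤ 16777216 * U ^ 7 := fun hc he =>
    le_trans he (Nat.mul_le_mul hc hp)
  have z : ∀ {c0 c1 c2 c3 c4 c5 : Nat}, c0 ≤ 16777216 * U ^ 7 → c1 ≤ 16777216 * U ^ 7 → c2 ≤ 16777216 * U ^ 7 →
      c3 ≤ 16777216 * U ^ 7 → c4 ≤ 16777216 * U ^ 7 → c5 ≤ 16777216 * U ^ 7 → Bd (16777216 * U ^ 7) (vD c0 c1 c2 c3 c4 c5) :=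
    fun h0 h1 h2 h3 h4 h5 => ⟨h0, h1, h2, h3, h4, h5, Nat.zero_le _, Nat.zero_le _, Nat.zero_le _, Nat.zero_le _⟩
  have c0 : 10 * U ^ 5 ≤ 16777216 * U ^ 7 := key (c := 10) (by norm_num) (le_refl _)
  simp only [bern5, List.forall_mem_cons, List.not_mem_nil, false_imp_iff, implies_true, and_true]
  refine ⟨z c0 ?_ ?_ ?_ ?_ ?_, z c0 ?_ ?_ ?_ ?_ ?_, z c0 ?_ ?_ ?_ ?_ ?_, z c0 ?_ ?_ ?_ ?_ ?_, z c0 ?_ ?_ ?_ ?_ ?_, z c0 ?_ ?_ ?_ ?_ ?_⟩
  · refine key (c := 40) (by norm_num) ?_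
    calc _ ≤ 2 * U ^ 4 * (5 * (4 * U)) := by gcongr
      _ = _ := by ring
  · refine key (c := 160) (by norm_num) ?_
    calc _ ≤ U ^ 3 * (10 * (4 * U) ^ 2) := by gcongr
      _ = _ := by ring
  · refine key (c := 640) (by norm_num) ?_
    calc _ ≤ U ^ 2 * (10 * (4 * U) ^ 3) := by gcongr
      _ = _ := by ring
  · refine key (c := 2560) (by norm_num) ?_
    calc _ ≤ 2 * U * (5 * (4 * U) ^ 4) := by gcongr
      _ = _ := by ring
  · refine key (c := 10240) (by norm_num) ?_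
    calc _ ≤ 10 * (4 * U) ^ 5 := by gcongr
      _ = _ := by ring
  · refine key (c := 40) (by norm_num) ?_
    calc _ ≤ 2 * U ^ 4 * (4 * (4 * U) + 4 * U) := by gcongr
      _ = _ := by ring
  · refine key (c := 160) (by norm_num) ?_
    calc _ ≤ U ^ 3 * (6 * (4 * U) ^ 2 + 4 * ((4 * U) * (4 * U))) := by gcongr
      _ = _ := by ring
  · refine key (c := 640) (by norm_num) ?_
    calc _ ≤ U ^ 2 * (4 * (4 * U) ^ 3 + 6 * ((4 * U) ^ 2 * (4 * U))) := by gcongr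
      _ = _ := by ring
  · refine key (c := 2560) (by norm_num) ?_
    calc _ ≤ 2 * U * ((4 * U) ^ 4 + 4 * ((4 * U) ^ 3 * (4 * U))) := by gcongr
      _ = _ := by ring
  · refine key (c := 10240) (by norm_num) ?_
    calc _ ≤ 10 * ((4 * U) ^ 4 * (4 * U)) := by gcongr
      _ = _ := by ring
  · refine key (c := 40) (by norm_num) ?_
    calc _ ≤ 2 * U ^ 4 * (3 * (4 * U) + 2 * (4 * U)) := by gcongr
      _ = _ := by ring
  · refine key (c := 160) (by norm_num) ?_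
    calc _ ≤ U ^ 3 * (3 * (4 * U) ^ 2 + 6 * ((4 * U) * (4 * U)) + (4 * U) ^ 2) := by gcongr
      _ = _ := by ring
  · refine key (c := 640) (by norm_num) ?_
    calc _ ≤ U ^ 2 * ((4 * U) ^ 3 + 6 * ((4 * U) ^ 2 * (4 * U)) + 3 * ((4 * U) * (4 * U) ^ 2)) := by gcongr
      _ = _ := by ring
  · refine key (c := 2560) (by norm_num) ?_
    calc _ ≤ 2 * U * (2 * ((4 * U) ^ 3 * (4 * U)) + 3 * ((4 * U) ^ 2 * (4 * U) ^ 2)) := by gcongr
      _ = _ := by ring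
  · refine key (c := 10240) (by norm_num) ?_
    calc _ ≤ 10 * ((4 * U) ^ 3 * (4 * U) ^ 2) := by gcongr
      _ = _ := by ring
  · refine key (c := 40) (by norm_num) ?_
    calc _ ≤ 2 * U ^ 4 * (2 * (4 * U) + 3 * (4 * U)) := by gcongr
      _ = _ := by ring
  · refine key (c := 160) (by norm_num) ?_
    calc _ ≤ U ^ 3 * ((4 * U) ^ 2 + 6 * ((4 * U) * (4 * U)) + 3 * (4 * U) ^ 2) := by gcongr
      _ = _ := by ring
  · refine key (c := 640) (by norm_num) ?_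
    calc _ ≤ U ^ 2 * (3 * ((4 * U) ^ 2 * (4 * U)) + 6 * ((4 * U) * (4 * U) ^ 2) + (4 * U) ^ 3) := by gcongr
      _ = _ := by ring
  · refine key (c := 2560) (by norm_num) ?_
    calc _ ≤ 2 * U * (3 * ((4 * U) ^ 2 * (4 * U) ^ 2) + 2 * ((4 * U) * (4 * U) ^ 3)) := by gcongr
      _ = _ := by ring
  · refine key (c := 10240) (by norm_num) ?_
    calc _ ≤ 10 * ((4 * U) ^ 2 * (4 * U) ^ 3) := by gcongr
      _ = _ := by ring
  · refine key (c := 40) (by norm_num) ?_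
    calc _ ≤ 2 * U ^ 4 * ((4 * U) + 4 * (4 * U)) := by gcongr
      _ = _ := by ring
  · refine key (c := 160) (by norm_num) ?_
    calc _ ≤ U ^ 3 * (4 * ((4 * U) * (4 * U)) + 6 * (4 * U) ^ 2) := by gcongr
      _ = _ := by ring
  · refine key (c := 640) (by norm_num) ?_
    calc _ ≤ U ^ 2 * (6 * ((4 * U) * (4 * U) ^ 2) + 4 * (4 * U) ^ 3) := by gcongr
      _ = _ := by ring
  · refine key (c := 2560) (by norm_num) ?_
    calc _ ≤ 2 * U * (4 * ((4 * U) * (4 * U) ^ 3) + (4 * U) ^ 4) := by gcongr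
      _ = _ := by ring
  · refine key (c := 10240) (by norm_num) ?_
    calc _ ≤ 10 * ((4 * U) * (4 * U) ^ 4) := by gcongr
      _ = _ := by ring
  · refine key (c := 40) (by norm_num) ?_
    calc _ ≤ 2 * U ^ 4 * (5 * (4 * U)) := by gcongr
      _ = _ := by ring
  · refine key (c := 160) (by norm_num) ?_
    calc _ ≤ U ^ 3 * (10 * (4 * U) ^ 2) := by gcongr
      _ = _ := by ring
  · refine key (c := 640) (by norm_num) ?_
    calc _ ≤ U ^ 2 * (10 * (4 * U) ^ 3) := by gcongr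
      _ = _ := by ring
  · refine key (c := 2560) (by norm_num) ?_
    calc _ ≤ 2 * U * (5 * (4 * U) ^ 4) := by gcongr
      _ = _ := by ring
  · refine key (c := 10240) (by norm_num) ?_
    calc _ ≤ 10 * (4 * U) ^ 5 := by gcongr
      _ = _ := by ring

/-- the coupling test -/
def skipI (U : Nat) (x y : Cell) : Bool :=
  let H := Nat.add (clipH U x) 1
  let a := Nat.sub y.tl U
  and (Nat.ble (Nat.add U 1) y.tl) (Nat.ble (Nat.add (Nat.mul 3 (Nat.mul H U)) 1) (Nat.mul 4 (Nat.mul a a)))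

/-- a corner of the test with the largest coordinate -/
def zCorner (U z s t : Nat) : Bool :=
  Nat.ble (Nat.add (Nat.add (Nat.mul 24 (Nat.mul (Nat.mul z z) U)) (Nat.add (Nat.mul 3 (Nat.mul (Nat.mul z s) U))
      (Nat.add (Nat.mul 24 (Nat.mul U (Nat.mul U U))) (Nat.mul 2 (Nat.mul (Nat.mul s t) U))))) 1)
    (Nat.add (Nat.mul 6 (Nat.mul z (Nat.mul z z))) (Nat.add (Nat.mul 36 (Nat.mul z (Nat.mul U U))) (Nat.mul 8 (Nat.mul s (Nat.mul U U)))))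

/-- the test with the largest coordinate -/
def zSkip (U : Nat) (x y : Cell) : Bool :=
  let L := clipL U x
  let H := Nat.add (clipH U x) 1
  and (Nat.ble (Nat.mul 8 U) (Nat.mul 3 y.tl))
    (and (zCorner U y.tl L x.tl) (and (zCorner U y.tl L x.th) (and (zCorner U y.tl H x.tl) (zCorner U y.tl H x.th))))

/-- the function behind the test with the largest coordinate -/
noncomputable def Gz (z S τ : ℝ) : ℝ := z ^ 3 - 4 * z ^ 2 + z * (6 - S / 2) - (4 - S + S * (τ - 1) / 3)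

/-- the scaled function behind the test with the largest coordinate -/
noncomputable def gz (U z s t : ℝ) : ℝ :=
  6 * z ^ 3 + 36 * z * U ^ 2 + 8 * s * U ^ 2 - 24 * z ^ 2 * U - 3 * z * s * U - 24 * U ^ 3 - 2 * s * t * U

theorem zCorner_pos {U z s t : Nat} (h : zCorner U z s t = true) : 0 < gz U z s t := by
  unfold zCorner at h
  have h1 := Nat.le_of_ble_eq_true h
  simp only [Nat.add_eq, Nat.mul_eq] at h1
  have h2 : ((24 * (z * z * U) + (3 * (z * s * U) + (24 * (U * (U * U)) + 2 * (s * t * U))) + 1 : ℕ) : ℝ)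
      ≤ ((6 * (z * (z * z)) + (36 * (z * (U * U)) + 8 * (s * (U * U))) : ℕ) : ℝ) := by exact_mod_cast h1
  push_cast at h2
  unfold gz
  nlinarith

theorem lin_pos {a b x α β : ℝ} (h1 : a ≤ x) (h2 : x ≤ b) (p1 : 0 < α + β * a) (p2 : 0 < α + β * b) : 0 < α + β * x := by
  rcases le_total 0 β with h | h
  · have := mul_le_mul_of_nonneg_left h1 h
    linarith
  · have := mul_le_mul_of_nonpos_left h2 h
    linarith

theorem zSkip_sound {U : Nat} (hU0 : 0 < U) {x y : Cell} {S τ D : ℝ} (h : zSkip U x y = true)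
    (h1 : ((clipL U x : ℕ) : ℝ) ≤ U * S) (h2 : (U : ℝ) * S ≤ ((clipH U x + 1 : ℕ) : ℝ)) (h3 : (x.tl : ℝ) ≤ U * τ)
    (h4 : (U : ℝ) * τ ≤ x.th) (h5 : (y.tl : ℝ) ≤ U * D) (hz : ∀ z, 8 / 3 ≤ z → z ≤ D → Gz z S τ ≤ 0) : False := by
  have hU : (0 : ℝ) < U := by exact_mod_cast hU0
  unfold zSkip at h
  simp only [Bool.and_eq_true] at h
  obtain ⟨k0, k1, k2, k3, k4⟩ := h
  have k0' := Nat.le_of_ble_eq_true k0
  simp only [Nat.mul_eq] at k0'
  have k0'' : (8 : ℝ) * U ≤ 3 * y.tl := by exact_mod_cast k0'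
  simp only [Nat.add_eq] at k3 k4
  have c1 := zCorner_pos k1
  have c2 := zCorner_pos k2
  have c3 := zCorner_pos k3
  have c4 := zCorner_pos k4
  set z : ℝ := (y.tl : ℝ) with hzdef
  have e : ∀ s t : ℝ, gz U z s t = (6 * z ^ 3 + 36 * z * U ^ 2 + 8 * s * U ^ 2 - 24 * z ^ 2 * U - 3 * z * s * U - 24 * U ^ 3) + (-2 * s * U) * t := by
    intro s t
    unfold gz
    ring
  have e2 : ∀ s t : ℝ, gz U z s t = (6 * z ^ 3 + 36 * z * U ^ 2 - 24 * z ^ 2 * U - 24 * U ^ 3) + (8 * U ^ 2 - 3 * z * U - 2 * t * U) * s := by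
    intro s t
    unfold gz
    ring
  have a1 : 0 < gz U z ((clipL U x : ℕ) : ℝ) ((U : ℝ) * τ) := by
    rw [e] at c1 c2 ⊢
    exact lin_pos h3 h4 c1 c2
  have a2 : 0 < gz U z ((clipH U x + 1 : ℕ) : ℝ) ((U : ℝ) * τ) := by
    rw [e] at c3 c4 ⊢
    exact lin_pos h3 h4 c3 c4
  have a3 : 0 < gz U z ((U : ℝ) * S) ((U : ℝ) * τ) := by
    rw [e2] at a1 a2 ⊢
    exact lin_pos h1 h2 a1 a2
  have hz1 : 8 / 3 ≤ z / U := by
    rw [le_div_iff₀ hU]
    linarith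
  have hz2 : z / U ≤ D := by
    rw [div_le_iff₀ hU]
    linarith
  have hG := hz _ hz1 hz2
  have e3 : gz U z ((U : ℝ) * S) ((U : ℝ) * τ) = 6 * (U : ℝ) ^ 3 * Gz (z / U) S τ := by
    unfold gz Gz
    field_simp
    ring
  rw [e3] at a3
  have := mul_nonpos_of_nonneg_of_nonpos (by positivity : 0 ≤ 6 * (U : ℝ) ^ 3) hG
  linarith

/-- the test at a leaf -/
def leafI (F : Form) (U : Nat) (f1 g1 f2 _g2 : Bool) (x y : Cell) : Bool :=
  and (and (Nat.ble x.th (Nat.mul 3 U)) (and (Nat.ble y.th (Nat.mul 4 U))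
    (and (Nat.ble x.sh (Nat.mul 12 U))
    (and (Nat.ble (Nat.add x.tl 1) x.th) (Nat.ble (Nat.add y.tl 1) y.th)))))
  (or (isEmpty U x) (cond f2 (zSkip U x y) (or (skipI U x y)
    (let L := clipL U x
     let H := Nat.add (clipH U x) 1
     and (Nat.ble (Nat.add L 1) H)
      (and (or (not f1) (Nat.ble 1 L))
      (and (or (not g1) (neGuard U L H x.tl x.th))
        (let P := pk (Nat.pow 2 F.b) U L H x.tl x.th f1 g1
         bulk F.b 24 6 (F.ctP H P) (F.ctN H P) (pkD (Nat.pow 2 (Nat.mul 24 F.b)) U y.tl y.th))))))))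

theorem leafI_sound {F : Form} {U : Nat} (hU : 1 ≤ U) {bR bR' : VR → VR} (h : F.OK U (fun _ => bR) (fun _ => bR'))
    {f1 n1 f2 n2 : Bool} {x y : Cell} (ht : leafI F U f1 n1 f2 n2 x y = true) {S τ q S' D : ℝ} (hd : Dom S τ q)
    (hx : InC U x S τ) (hy : InC U y S' D) (hc : 1 < D → 4 * (D - 1) ^ 2 ≤ 3 * S)
    (hz : ∀ z, 8 / 3 ≤ z → z ≤ D → Gz z S τ ≤ 0) :
    0 ≤ dotR (bR (ptF S τ q)) (ptD D) := by
  unfold leafI at ht
  simp only [Bool.and_eq_true, Bool.or_eq_true] at ht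
  obtain ⟨⟨g1, g2, g3, g5, g6⟩, ht⟩ := ht
  have g1' := Nat.le_of_ble_eq_true g1
  have g2' := Nat.le_of_ble_eq_true g2
  have g3' := Nat.le_of_ble_eq_true g3
  have g5' := Nat.le_of_ble_eq_true g5
  have g6' := Nat.le_of_ble_eq_true g6
  simp only [Nat.mul_eq, Nat.add_eq] at g1' g2' g3' g5' g6'
  have hUb : (1 : ℝ) ≤ U := by exact_mod_cast hU
  have hU0 : 0 < U := hU
  have hH1 := clipH_le g3'
  have hH1' : (U : ℝ) * S ≤ ((clipH U x + 1 : ℕ) : ℝ) := by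
    have := le_clipH hU0 hd hx g1'
    push_cast
    linarith
  rcases ht with he | ht
  · exact (isEmpty_sound hU hd hx g1' he).elim
  cases f2 with
  | true =>
    simp only [cond_true] at ht
    exact (zSkip_sound hU0 ht (clipL_le hU0 hd hx) hH1' hx.t1 hx.t2 hy.t1 hz).elim
  | false =>
  simp only [cond_false, Bool.or_eq_true, Bool.and_eq_true] at ht
  rcases ht with hs | ht
  · exfalso
    unfold skipI at hs
    simp only [Bool.and_eq_true, Nat.add_eq, Nat.mul_eq, Nat.sub_eq] at hs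
    obtain ⟨s1, s2⟩ := hs
    have s1' := Nat.le_of_ble_eq_true s1
    have s2' := Nat.le_of_ble_eq_true s2
    have s3 : ((3 * ((clipH U x + 1) * U) + 1 : ℕ) : ℝ) ≤ ((4 * ((y.tl - U) * (y.tl - U)) : ℕ) : ℝ) := by
      exact_mod_cast s2'
    have e : ((y.tl - U : ℕ) : ℝ) = (y.tl : ℝ) - U := by
      rw [Nat.cast_sub (by omega)]
    push_cast at s3 hH1'
    rw [e] at s3
    have t1 := hy.t1
    have hyU : (U : ℝ) + 1 ≤ y.tl := by exact_mod_cast s1'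
    have hD1 : 1 < D := by
      by_contra hcon
      push Not at hcon
      nlinarith
    have k := hc hD1
    have k1 : ((y.tl : ℝ) - U) ^ 2 ≤ (U * (D - 1)) ^ 2 := by
      apply pow_le_pow_left₀ (by linarith)
      nlinarith
    have k2 : 4 * (U * (D - 1)) ^ 2 ≤ 3 * ((U : ℝ) * S) * U := by
      have := mul_le_mul_of_nonneg_left k (by positivity : (0 : ℝ) ≤ (U : ℝ) ^ 2)
      nlinarith
    have k3 : 3 * ((U : ℝ) * S) * U ≤ 3 * (((clipH U x : ℝ) + 1) * U) := by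
      have := mul_le_mul_of_nonneg_right hH1' (by linarith : (0 : ℝ) ≤ U)
      nlinarith
    nlinarith
  obtain ⟨k1, k3, k7, k5⟩ := ht
  have k1' := Nat.le_of_ble_eq_true k1
  simp only [Nat.add_eq] at k1'
  set L := clipL U x with hL
  set H := clipH U x + 1 with hH
  have hH13 : H ≤ 13 * U := by omega
  have hL13 : L ≤ 13 * U := by omega
  have hL1 : (L : ℝ) ≤ U * S := clipL_le hU0 hd hx
  have hf1 : f1 = true → 0 < L := by
    intro hf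
    rcases k3 with k | k
    · simp [hf] at k
    · exact Nat.le_of_ble_eq_true k
  have hg1 : n1 = true → neGuard U L H x.tl x.th = true := by
    intro hf
    rcases k7 with k | k
    · simp [hf] at k
    · exact k
  have hull1 := hull_cell hU0 (by omega : L < H) (by omega : x.tl < x.th) hf1 hg1 hd hL1 hH1' hx.t1 hx.t2
  have hull2 := hull_D hU0 (by omega : y.tl < y.th) hy.t1 hy.t2
  apply hull_bil hull1 hull2 bR bR' (h.tr H)
  intro v hv w hw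
  have hlk : dotR (bR v.r) w.r = (dot (F.ctP H v) w : ℝ) - (dot (F.ctN H v) w : ℝ) := h.link H v w
  rw [hlk]
  have hvb := cellV_bd (l := x.tl) (h := x.th) hU hL13 hH13 (by omega) g1' f1 n1
  have hwb := bern5_bd (l := y.tl) (h := y.th) hU (by omega) g2'
  have e1 : F.ctP H (pk (2 ^ F.b) U L H x.tl x.th f1 n1) = packV (2 ^ F.b) ((cellV U L H x.tl x.th f1 n1).map (F.ctP H)) := by
    rw [pk_eq _ _ _ _ _ _ _ _ hg1]; exact (h.linP H).packV _ _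
  have e2 : F.ctN H (pk (2 ^ F.b) U L H x.tl x.th f1 n1) = packV (2 ^ F.b) ((cellV U L H x.tl x.th f1 n1).map (F.ctN H)) := by
    rw [pk_eq _ _ _ _ _ _ _ _ hg1]; exact (h.linN H).packV _ _
  have e3 : pkD (2 ^ (24 * F.b)) U y.tl y.th = packV (2 ^ (24 * F.b)) (bern5 U y.tl y.th) := pkD_eq _ _ _ _
  simp only [Nat.pow_eq, Nat.mul_eq] at k5
  rw [e1, e2, e3] at k5
  have key := bulk_sound (b := F.b) h.hb (cellV U L H x.tl x.th f1 n1) (bern5 U y.tl y.th) (F.ctP H) (F.ctN H)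
    (fun v hv w hw => h.bdP H hH13 v w (hvb v hv) (hwb w hw))
    (fun v hv w hw => (h.bdN H hH13 v w (hvb v hv) (hwb w hw)).le)
    (by rw [cellV_length U L H x.tl x.th f1 n1, bern5_length U y.tl y.th]; exact k5) v hv w hw
  have : ((dot (F.ctN H v) w : ℕ) : ℝ) ≤ (dot (F.ctP H v) w : ℕ) := by exact_mod_cast key
  linarith

end Vale.Agent.Lib.P154Q5
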