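import Vale.Agent.Lib.P154Q5.Channel
import Vale.Agent.Lib.P154.ModelGW

/-!
The tree models with four states.
-/

namespace Vale.Agent.Lib.P154Q5

open Vale.Agent.Lib.P154.Model Filter Topology

theorem kernel_sum (lam : ℝ) (v : Fin 4 → ℝ) (i : Fin 4) :
    ∑ j : Fin 4, pottsKernel 4 lam i j * v j = lam * v i + (1 - lam) * GM (v 0) (v 1) (v 2) (v 3) := by
  unfold pottsKernel GM
  fin_cases i <;> simp [Fin.sum_univ_four] <;> ring

/-- the elementary form of the convergence -/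
theorem tendsto_zero_of_cubic (x : ℕ → ℝ) (c : ℝ) (hc : 0 < c) (h0 : ∀ n, 0 ≤ x n)
    (h : ∀ n, x (n + 1) ≤ x n - c * x n ^ 3) : Tendsto x atTop (𝓝 0) := by
  have hanti : Antitone x := by
    apply antitone_nat_of_succ_le
    intro n
    have := h n
    have h2 : 0 ≤ c * x n ^ 3 := mul_nonneg hc.le (pow_nonneg (h0 n) 3)
    linarith
  have hbdd : BddBelow (Set.range x) := ⟨0, by rintro _ ⟨n, rfl⟩; exact h0 n⟩
  have hlim := tendsto_atTop_ciInf hanti hbdd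
  set L := ⨅ n, x n with hL
  have hL0 : 0 ≤ L := le_ciInf h0
  have hlim2 : Tendsto (fun n => x (n + 1)) atTop (𝓝 L) := (tendsto_add_atTop_iff_nat 1).2 hlim
  have hlim3 : Tendsto (fun n => x n - c * x n ^ 3) atTop (𝓝 (L - c * L ^ 3)) :=
    hlim.sub ((hlim.pow 3).const_mul c)
  have hle : L ≤ L - c * L ^ 3 := le_of_tendsto_of_tendsto' hlim2 hlim3 h
  have hL2 : L ^ 3 ≤ 0 := by
    by_contra hc'
    push Not at hc'
    have : 0 < c * L ^ 3 := by positivity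
    linarith
  have hLz : L = 0 := by
    by_contra hne
    have : 0 < L := lt_of_le_of_ne hL0 (Ne.symm hne)
    have : 0 < L ^ 3 := by positivity
    linarith
  rw [← hLz]
  exact hlim

/-- one configuration: bound on the contribution to the advantage -/
theorem adv_term {v0 v1 v2 v3 m θ : ℝ} (hm' : m = GM v0 v1 v2 v3) (hmpos : 0 < m) (hθ : 0 < θ) :
    m * ((1 / 2) * (|((1 / 4) * v0) / m - 1 / 4| + |((1 / 4) * v1) / m - 1 / 4| + |((1 / 4) * v2) / m - 1 / 4|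
        + |((1 / 4) * v3) / m - 1 / 4|))
      ≤ (hm sS v0 v1 v2 v3 / θ + 4 * m * θ) / 16 := by
  have key : ∀ v : ℝ, m * |((1 / 4) * v) / m - 1 / 4| = |v - m| / 4 := by
    intro v
    have : ((1 / 4) * v) / m - 1 / 4 = (v - m) / (4 * m) := by
      field_simp
    rw [this, abs_div, abs_of_pos (by positivity : 0 < 4 * m)]
    field_simp
  have e : m * ((1 / 2) * (|((1 / 4) * v0) / m - 1 / 4| + |((1 / 4) * v1) / m - 1 / 4| + |((1 / 4) * v2) / m - 1 / 4|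
        + |((1 / 4) * v3) / m - 1 / 4|))
      = (1 / 2) * (m * |((1 / 4) * v0) / m - 1 / 4| + m * |((1 / 4) * v1) / m - 1 / 4| + m * |((1 / 4) * v2) / m - 1 / 4|
        + m * |((1 / 4) * v3) / m - 1 / 4|) := by
    ring
  rw [e, key, key, key, key]
  have hGS : hm sS v0 v1 v2 v3 = ((v0 - m) ^ 2 + (v1 - m) ^ 2 + (v2 - m) ^ 2 + (v3 - m) ^ 2) / m := by
    unfold hm sS
    rw [← hm']
    field_simp
  have am : ∀ u : ℝ, |u| ≤ (u ^ 2 / (m * θ) + m * θ) / 2 := by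
    intro u
    have h2 : 0 < m * θ := by positivity
    rw [← sq_abs u]
    have : (|u| ^ 2 / (m * θ) + m * θ) / 2 - |u| = (|u| - m * θ) ^ 2 / (2 * (m * θ)) := by
      field_simp
      ring
    have h3 : 0 ≤ (|u| - m * θ) ^ 2 / (2 * (m * θ)) := by positivity
    linarith
  have a0 := am (v0 - m)
  have a1 := am (v1 - m)
  have a2 := am (v2 - m)
  have a3 := am (v3 - m)
  have e3 : hm sS v0 v1 v2 v3 / θ = (v0 - m) ^ 2 / (m * θ) + (v1 - m) ^ 2 / (m * θ) + (v2 - m) ^ 2 / (m * θ)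
      + (v3 - m) ^ 2 / (m * θ) := by
    rw [hGS]
    field_simp
  rw [e3]
  linarith

/-- the contribution of one configuration -/
noncomputable def tm (v0 v1 v2 v3 : ℝ) : ℝ :=
  GM v0 v1 v2 v3 * ((1 / 2) * (|((1 / 4) * v0) / GM v0 v1 v2 v3 - 1 / 4| + |((1 / 4) * v1) / GM v0 v1 v2 v3 - 1 / 4|
    + |((1 / 4) * v2) / GM v0 v1 v2 v3 - 1 / 4| + |((1 / 4) * v3) / GM v0 v1 v2 v3 - 1 / 4|))

theorem tm_bound {v0 v1 v2 v3 θ : ℝ} (h0 : 0 ≤ v0) (h1 : 0 ≤ v1) (h2 : 0 ≤ v2) (h3 : 0 ≤ v3) (hθ : 0 < θ) :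
    0 ≤ tm v0 v1 v2 v3 ∧ tm v0 v1 v2 v3 ≤ (hm sS v0 v1 v2 v3 / θ + 4 * GM v0 v1 v2 v3 * θ) / 16 := by
  have hG : 0 ≤ hm sS v0 v1 v2 v3 := hm_nonneg (fun a0 a1 a2 a3 _ => sS_nonneg a0 a1 a2 a3) h0 h1 h2 h3
  have hM := GM_nn h0 h1 h2 h3
  rcases hM.eq_or_lt with hz | hpos
  · have hzero : tm v0 v1 v2 v3 = 0 := by
      unfold tm
      rw [← hz, zero_mul]
    rw [hzero, ← hz]
    refine ⟨le_refl _, ?_⟩
    have : 0 ≤ hm sS v0 v1 v2 v3 / θ := by positivity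
    simp only [mul_zero, zero_mul, add_zero]
    positivity
  · constructor
    · unfold tm
      positivity
    · exact adv_term rfl hpos hθ

section mix

variable {Ω : Type*}

/-- The mixture over the number of children. -/
noncomputable def mixCh (p : ℕ → ℝ) (ℓ : Ω → Fin 4 → ℝ) : (Σ k : ℕ, (Fin k → Ω)) → Fin 4 → ℝ :=
  fun s i => p s.1 * powCh ℓ s.1 s.2 i

theorem IsSym.mixCh {ℓ : Ω → Fin 4 → ℝ} (h : IsSym ℓ) (p : ℕ → ℝ) : IsSym (mixCh p ℓ) := by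
  intro σ
  refine ⟨Equiv.sigmaCongrRight (fun k => Equiv.arrowCongr (Equiv.refl _) (Classical.choose (h σ))), ?_⟩
  rintro ⟨k, η⟩ i
  have he := Classical.choose_spec (h σ)
  show p k * ∏ c, ℓ ((Classical.choose (h σ)) (η c)) i = p k * ∏ c, ℓ (η c) (σ i)
  congr 1
  apply Finset.prod_congr rfl
  intro c _
  exact he (η c) i

/-- homogeneity including the factor zero -/
def Hom0 (G : ℝ → ℝ → ℝ → ℝ → ℝ) : Prop :=
  ∀ c x0 x1 x2 x3 : ℝ, 0 ≤ c → G (c * x0) (c * x1) (c * x2) (c * x3) = c * G x0 x1 x2 x3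

theorem Hom0_GM : Hom0 GM := fun c x0 x1 x2 x3 _ => GM_scale c x0 x1 x2 x3
theorem Hom0_hm (f : ℝ → ℝ → ℝ → ℝ → ℝ) : Hom0 (hm f) := fun _ x0 x1 x2 x3 hc => hm_scale f hc x0 x1 x2 x3

theorem mix_fiber (p : ℕ → ℝ) {ℓ : Ω → Fin 4 → ℝ} (hp : ∀ k, 0 ≤ p k) (h : GoodP ℓ) (sym : IsSym ℓ)
    {G : ℝ → ℝ → ℝ → ℝ → ℝ} (hG : Hom0 G) (hS : SG G) (k : ℕ) :
    HasSum (fun η : Fin k → Ω => G (mixCh p ℓ ⟨k, η⟩ 0) (mixCh p ℓ ⟨k, η⟩ 1) (mixCh p ℓ ⟨k, η⟩ 2) (mixCh p ℓ ⟨k, η⟩ 3))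
      (p k * ExT (powCh ℓ k) G) := by
  have hk := (powT_good h sym k).1
  have h1 := (hk.toBase.hasSum hS).mul_left (p k)
  have e : (fun η : Fin k → Ω => G (mixCh p ℓ ⟨k, η⟩ 0) (mixCh p ℓ ⟨k, η⟩ 1) (mixCh p ℓ ⟨k, η⟩ 2) (mixCh p ℓ ⟨k, η⟩ 3))
      = fun η => p k * G (powCh ℓ k η 0) (powCh ℓ k η 1) (powCh ℓ k η 2) (powCh ℓ k η 3) := by
    funext η
    exact hG _ _ _ _ _ (hp k)
  rw [e]
  exact h1

theorem mix_nn {p : ℕ → ℝ} (hp : ∀ k, 0 ≤ p k) {ℓ : Ω → Fin 4 → ℝ} (h : GoodP ℓ) (sym : IsSym ℓ) :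
    ∀ s i, 0 ≤ mixCh p ℓ s i := by
  intro s i
  exact mul_nonneg (hp _) ((powT_good h sym s.1).1.nn _ _)

theorem mix_summ {p : ℕ → ℝ} (hp : ∀ k, 0 ≤ p k) (hs : Summable p) {ℓ : Ω → Fin 4 → ℝ} (h : GoodP ℓ) (sym : IsSym ℓ) :
    Summable (fun s => GM (mixCh p ℓ s 0) (mixCh p ℓ s 1) (mixCh p ℓ s 2) (mixCh p ℓ s 3)) := by
  have hnn := mix_nn hp h sym
  rw [summable_sigma_of_nonneg (fun s => GM_nn (hnn s 0) (hnn s 1) (hnn s 2) (hnn s 3))]
  refine ⟨fun k => (mix_fiber p hp h sym Hom0_GM SG_GM k).summable, ?_⟩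
  have e : (fun k => ∑' η : Fin k → Ω, GM (mixCh p ℓ ⟨k, η⟩ 0) (mixCh p ℓ ⟨k, η⟩ 1) (mixCh p ℓ ⟨k, η⟩ 2) (mixCh p ℓ ⟨k, η⟩ 3)) = p := by
    funext k
    rw [(mix_fiber p hp h sym Hom0_GM SG_GM k).tsum_eq, (powT_good h sym k).1.mass, mul_one]
  rw [e]
  exact hs

theorem mix_summable {p : ℕ → ℝ} (hp : ∀ k, 0 ≤ p k) (hs : Summable p) {ℓ : Ω → Fin 4 → ℝ} (h : GoodP ℓ)
    (sym : IsSym ℓ) {G : ℝ → ℝ → ℝ → ℝ → ℝ} (hS : SG G) :
    Summable (fun s => G (mixCh p ℓ s 0) (mixCh p ℓ s 1) (mixCh p ℓ s 2) (mixCh p ℓ s 3)) := by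
  obtain ⟨C, hC⟩ := hS
  have hnn := mix_nn hp h sym
  exact Summable.of_norm_bounded ((mix_summ hp hs h sym).mul_left C)
    (fun s => hC _ _ _ _ (hnn s 0) (hnn s 1) (hnn s 2) (hnn s 3))

theorem mix_Ex {p : ℕ → ℝ} (hp : ∀ k, 0 ≤ p k) (hs : Summable p) {ℓ : Ω → Fin 4 → ℝ} (h : GoodP ℓ)
    (sym : IsSym ℓ) {G : ℝ → ℝ → ℝ → ℝ → ℝ} (hG : Hom0 G) (hS : SG G) :
    ExT (mixCh p ℓ) G = ∑' k, p k * ExT (powCh ℓ k) G := by
  unfold ExT
  rw [(mix_summable hp hs h sym hS).tsum_sigma]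
  apply tsum_congr
  intro k
  exact (mix_fiber p hp h sym hG hS k).tsum_eq

/-- The offspring mixture of a good symmetric channel is good. -/
theorem mix_good {p : ℕ → ℝ} (hp : ∀ k, 0 ≤ p k) (hs : HasSum p 1) {m : ℝ} (hm' : HasSum (fun k : ℕ => (k : ℝ) * p k) m)
    {ℓ : Ω → Fin 4 → ℝ} (h : GoodP ℓ) (sym : IsSym ℓ) :
    GoodP (mixCh p ℓ) ∧ ExT (mixCh p ℓ) (hm sS)
      ≤ m * ExT ℓ (hm sS) - (1 - p 0 - p 1) * (2 / 16384 * ExT ℓ (hm sS) ^ 3) := by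
  have hsum := hs.summable
  refine ⟨⟨⟨mix_nn hp h sym, mix_summ hp hsum h sym, ?_⟩, ?_⟩, ?_⟩
  · rw [mix_Ex hp hsum h sym Hom0_GM SG_GM]
    have : (fun k => p k * ExT (powCh ℓ k) GM) = p := by
      funext k
      rw [(powT_good h sym k).1.mass, mul_one]
    rw [this]
    exact hs.tsum_eq
  · rw [mix_Ex hp hsum h sym (Hom0_hm _) SG_Ph]
    exact tsum_nonneg fun k => mul_nonneg (hp k) (powT_good h sym k).1.phi
  · rw [mix_Ex hp hsum h sym (Hom0_hm _) SG_S]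
    set x := ExT ℓ (hm sS) with hx
    have hA : Summable (fun k => p k * ExT (powCh ℓ k) (hm sS)) := by
      refine Summable.of_nonneg_of_le (fun k => mul_nonneg (hp k) (powT_good h sym k).1.toBase.S_nonneg) (fun k => ?_)
        (hsum.mul_right 12)
      exact mul_le_mul_of_nonneg_left (powT_good h sym k).1.toBase.S_le (hp k)
    have hR : HasSum (fun k : ℕ => (((k : ℝ) * p k) * x) - (p k - (if k = 0 then p 0 else 0) - (if k = 1 then p 1 else 0)) * (2 / 16384 * x ^ 3))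
        (m * x - (1 - p 0 - p 1) * (2 / 16384 * x ^ 3)) :=
      (hm'.mul_right x).sub (((hs.sub (hasSum_ite_eq 0 (p 0))).sub (hasSum_ite_eq 1 (p 1))).mul_right _)
    refine le_of_le_of_eq (hasSum_le (fun k => ?_) hA.hasSum hR) rfl
    obtain ⟨_, b1, b2⟩ := powT_good h sym k
    have hpk := hp k
    rw [← hx] at b1 b2
    rcases Nat.lt_or_ge k 2 with hk | hk
    · interval_cases k
      · simp only [if_true, (by norm_num : (0 : ℕ) ≠ 1), if_false]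
        have : p 0 * ExT (powCh ℓ 0) (hm sS) ≤ p 0 * (((0 : ℕ) : ℝ) * x) := mul_le_mul_of_nonneg_left b1 hpk
        simp only [Nat.cast_zero, zero_mul, mul_zero] at this ⊢
        linarith
      · simp only [if_true, (by norm_num : (1 : ℕ) ≠ 0), if_false]
        have : p 1 * ExT (powCh ℓ 1) (hm sS) ≤ p 1 * (((1 : ℕ) : ℝ) * x) := mul_le_mul_of_nonneg_left b1 hpk
        push_cast at this ⊢
        linarith
    · have h3 : k ≠ 0 := by omega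
      have h4 : k ≠ 1 := by omega
      simp only [h3, h4, if_false]
      have := mul_le_mul_of_nonneg_left (b2 hk) hpk
      linarith

end mix

/-- the channel of the tree model -/
noncomputable def ch (d : ℕ) (lam : ℝ) (n : ℕ) : Leaves 4 d n → Fin 4 → ℝ :=
  fun η i => lik 4 d lam n i η

theorem ch_succ (d : ℕ) (lam : ℝ) (n : ℕ) :
    ch d lam (n + 1) = powCh (edgeCh lam (ch d lam n)) d := by
  funext η i
  unfold ch powCh edgeCh
  simp only [lik]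
  apply Finset.prod_congr rfl
  intro c _
  exact kernel_sum lam (fun j => lik 4 d lam n j (η c)) i

theorem ch_sym (d : ℕ) (lam : ℝ) (n : ℕ) : IsSym (ch d lam n) := by
  induction n with
  | zero =>
    intro σ
    refine ⟨σ.symm, ?_⟩
    intro (ω : Fin 4) i
    show (if i = σ.symm ω then (1 : ℝ) else 0) = if σ i = ω then 1 else 0
    simp only [Equiv.eq_symm_apply]
  | succ n ih =>
    rw [ch_succ]
    exact (ih.edgeT lam).powCh d

theorem hm_corner (f : ℝ → ℝ → ℝ → ℝ → ℝ) : hm f 1 0 0 0 = 1 / 4 * f 4 0 0 0 ∧ hm f 0 1 0 0 = 1 / 4 * f 0 4 0 0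
    ∧ hm f 0 0 1 0 = 1 / 4 * f 0 0 4 0 ∧ hm f 0 0 0 1 = 1 / 4 * f 0 0 0 4 := by
  refine ⟨?_, ?_, ?_, ?_⟩ <;> (simp only [hm, GM]; norm_num)

theorem corners_good {Ω : Type*} {ℓ : Ω → Fin 4 → ℝ} (hn : ∀ ω i, 0 ≤ ℓ ω i)
    (hE : ∀ G : ℝ → ℝ → ℝ → ℝ → ℝ, HasSum (fun ω => G (ℓ ω 0) (ℓ ω 1) (ℓ ω 2) (ℓ ω 3)) (G 1 0 0 0 + G 0 1 0 0 + G 0 0 1 0 + G 0 0 0 1)) :
    GoodP ℓ := by
  have hE' : ∀ G, ExT ℓ G = G 1 0 0 0 + G 0 1 0 0 + G 0 0 1 0 + G 0 0 0 1 := fun G => (hE G).tsum_eq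
  refine ⟨⟨hn, (hE GM).summable, ?_⟩, ?_⟩
  · rw [hE']
    unfold GM
    norm_num
  · rw [hE']
    obtain ⟨e1, e2, e3, e4⟩ := hm_corner fPh
    rw [e1, e2, e3, e4]
    simp only [fPh, phF, sS, sT, sQ]
    norm_num

theorem ch_zero_good (d : ℕ) (lam : ℝ) : GoodP (ch d lam 0) := by
  refine corners_good ?_ ?_
  · intro (ω : Fin 4) i
    show 0 ≤ (if i = ω then (1 : ℝ) else 0)
    split_ifs <;> norm_num
  · intro G
    have h := hasSum_fintype (fun ω : Fin 4 => G (if (0 : Fin 4) = ω then (1 : ℝ) else 0)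
      (if (1 : Fin 4) = ω then (1 : ℝ) else 0) (if (2 : Fin 4) = ω then (1 : ℝ) else 0) (if (3 : Fin 4) = ω then (1 : ℝ) else 0))
    rw [Fin.sum_univ_four] at h
    have h' : HasSum (fun ω : Fin 4 => G (if (0 : Fin 4) = ω then (1 : ℝ) else 0)
      (if (1 : Fin 4) = ω then (1 : ℝ) else 0) (if (2 : Fin 4) = ω then (1 : ℝ) else 0) (if (3 : Fin 4) = ω then (1 : ℝ) else 0))
        (G 1 0 0 0 + G 0 1 0 0 + G 0 0 1 0 + G 0 0 0 1) := by
      simpa using h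
    exact h'

theorem ch_good {d : ℕ} {lam : ℝ} (h0 : 0 ≤ lam) (h1 : lam ≤ 1) (n : ℕ) : GoodP (ch d lam n) := by
  induction n with
  | zero => exact ch_zero_good d lam
  | succ n ih =>
    rw [ch_succ]
    exact (powT_good (ih.edge h0 h1).1 ((ch_sym d lam n).edgeT lam) d).1

/-- the expected value of `S` along the levels -/
noncomputable def xs (d : ℕ) (lam : ℝ) (n : ℕ) : ℝ := ExT (ch d lam n) (hm sS)

theorem xs_recursion {d : ℕ} (hd : 2 ≤ d) {lam : ℝ} (h0 : 0 ≤ lam) (h1 : lam ≤ 1) (n : ℕ) :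
    xs d lam (n + 1) ≤ d * lam ^ 2 * xs d lam n - 2 / 16384 * lam ^ 6 * xs d lam n ^ 3 := by
  have hp := ch_good (d := d) h0 h1 n
  obtain ⟨hg, hS⟩ := hp.edge h0 h1
  have h2 := (powT_good hg ((ch_sym d lam n).edgeT lam) d).2.2 hd
  rw [hS] at h2
  have hxs : xs d lam (n + 1) = ExT (powCh (edgeCh lam (ch d lam n)) d) (hm sS) := by
    unfold xs
    rw [ch_succ]
    rfl
  rw [hxs]
  unfold xs
  refine le_trans h2 (le_of_eq ?_)
  ring

theorem lam_le {d : ℕ} (hd : 2 ≤ d) {lam : ℝ} (h0 : 0 ≤ lam) (h1 : (d : ℝ) * lam ^ 2 ≤ 1) : lam ≤ 1 := by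
  have hd' : (2 : ℝ) ≤ d := by exact_mod_cast hd
  by_contra hc
  push Not at hc
  nlinarith [mul_nonneg (sub_nonneg.2 hd') (sq_nonneg lam)]

theorem xs_tendsto {d : ℕ} (hd : 2 ≤ d) {lam : ℝ} (h0 : 0 ≤ lam) (h1 : (d : ℝ) * lam ^ 2 ≤ 1) :
    Tendsto (xs d lam) atTop (𝓝 0) := by
  have hl := lam_le hd h0 h1
  have hx0 : ∀ n, 0 ≤ xs d lam n := fun n => (ch_good h0 hl n).toBase.S_nonneg
  have hx6 : ∀ n, xs d lam n ≤ 12 := fun n => (ch_good h0 hl n).toBase.S_le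
  rcases h0.eq_or_lt with hz | hpos
  · subst hz
    apply tendsto_zero_of_cubic _ (1 / 144) (by norm_num) hx0
    intro n
    have h2 := xs_recursion hd (le_refl _) hl n
    norm_num at h2
    have a1 := hx0 n
    have a2 := hx6 n
    have a3 : xs d 0 n ^ 2 ≤ 144 := by nlinarith
    nlinarith [mul_le_mul_of_nonneg_left a3 a1]
  · apply tendsto_zero_of_cubic _ (2 / 16384 * lam ^ 6) (by positivity) hx0
    intro n
    have h2 := xs_recursion hd h0 hl n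
    have h3 : d * lam ^ 2 * xs d lam n ≤ 1 * xs d lam n := mul_le_mul_of_nonneg_right h1 (hx0 n)
    linarith

theorem marginal_eq (d : ℕ) (lam : ℝ) (n : ℕ) (η : Leaves 4 d n) :
    marginal 4 d lam n η = GM (ch d lam n η 0) (ch d lam n η 1) (ch d lam n η 2) (ch d lam n η 3) := by
  unfold marginal GM ch
  rw [Fin.sum_univ_four]
  push_cast
  ring

theorem term_eq (d : ℕ) (lam : ℝ) (n : ℕ) (η : Leaves 4 d n) :
    marginal 4 d lam n η * ((1 / 2) * ∑ i : Fin 4, |posterior 4 d lam n i η - 1 / ((4 : ℕ) : ℝ)|)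
      = tm (ch d lam n η 0) (ch d lam n η 1) (ch d lam n η 2) (ch d lam n η 3) := by
  unfold tm
  rw [← marginal_eq, Fin.sum_univ_four]
  unfold posterior ch
  push_cast
  ring_nf

theorem advantage_bounds {d : ℕ} {lam : ℝ} (h0 : 0 ≤ lam) (h1 : lam ≤ 1) (n : ℕ) {θ : ℝ} (hθ : 0 < θ) :
    0 ≤ advantage 4 d lam n ∧ advantage 4 d lam n ≤ (xs d lam n / θ + 4 * θ) / 16 := by
  have hp := ch_good (d := d) h0 h1 n
  have hb := hp.toBase
  have hnn : ∀ η : Leaves 4 d n, 0 ≤ tm (ch d lam n η 0) (ch d lam n η 1) (ch d lam n η 2) (ch d lam n η 3) := fun η =>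
    (tm_bound (hb.nn η 0) (hb.nn η 1) (hb.nn η 2) (hb.nn η 3) hθ).1
  have hle : ∀ η : Leaves 4 d n, tm (ch d lam n η 0) (ch d lam n η 1) (ch d lam n η 2) (ch d lam n η 3)
      ≤ (hm sS (ch d lam n η 0) (ch d lam n η 1) (ch d lam n η 2) (ch d lam n η 3) / θ
        + 4 * GM (ch d lam n η 0) (ch d lam n η 1) (ch d lam n η 2) (ch d lam n η 3) * θ) / 16 := fun η =>
    (tm_bound (hb.nn η 0) (hb.nn η 1) (hb.nn η 2) (hb.nn η 3) hθ).2
  have hadv : advantage 4 d lam n = ∑ η : Leaves 4 d n, tm (ch d lam n η 0) (ch d lam n η 1) (ch d lam n η 2) (ch d lam n η 3) := by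
    unfold advantage
    exact Finset.sum_congr rfl fun η _ => term_eq d lam n η
  rw [hadv]
  refine ⟨Finset.sum_nonneg fun η _ => hnn η, ?_⟩
  refine le_trans (Finset.sum_le_sum fun η _ => hle η) (le_of_eq ?_)
  have hmass := hb.mass
  unfold xs
  unfold ExT at hmass ⊢
  rw [tsum_fintype] at hmass ⊢
  rw [← Finset.sum_div, Finset.sum_add_distrib, ← Finset.sum_div]
  have : ∑ η : Leaves 4 d n, 4 * GM (ch d lam n η 0) (ch d lam n η 1) (ch d lam n η 2) (ch d lam n η 3) * θ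
      = 4 * (∑ η : Leaves 4 d n, GM (ch d lam n η 0) (ch d lam n η 1) (ch d lam n η 2) (ch d lam n η 3)) * θ := by
    rw [Finset.mul_sum, Finset.sum_mul]
  rw [this, hmass]
  ring

/-- Nonreconstruction for the four-state ferromagnetic Potts channel on the `d`-ary tree. -/
theorem main_dary (d : ℕ) (hd : 2 ≤ d) (lam : ℝ) (h0 : 0 ≤ lam) (h1 : (d : ℝ) * lam ^ 2 ≤ 1) :
    Tendsto (advantage 4 d lam) atTop (𝓝 0) := by
  have hl := lam_le hd h0 h1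
  have hx := xs_tendsto hd h0 h1
  rw [Metric.tendsto_atTop] at hx ⊢
  intro ε hε
  obtain ⟨N, hN⟩ := hx (16 * ε ^ 2) (by positivity)
  refine ⟨N, fun n hn => ?_⟩
  have h2 := hN n hn
  rw [Real.dist_eq, sub_zero] at h2 ⊢
  obtain ⟨hnn, hle⟩ := advantage_bounds (d := d) h0 hl n (θ := 2 * ε) (by positivity)
  rw [abs_of_nonneg hnn]
  have hx0 : 0 ≤ xs d lam n := (ch_good h0 hl n).toBase.S_nonneg
  rw [abs_of_nonneg hx0] at h2
  have h3 : xs d lam n / (2 * ε) < 8 * ε := by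
    rw [div_lt_iff₀ (by positivity)]
    nlinarith
  linarith

end Vale.Agent.Lib.P154Q5
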