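import Vale.Agent.Lib.P154Q5.Final

/-!
Galton-Watson trees with four states.
-/

namespace Vale.Agent.Lib.P154Q5

open Vale.Agent.Lib.P154.Model Filter Topology

/-- the channel of the Galton-Watson model -/
noncomputable def gch (p : ℕ → ℝ) (lam : ℝ) (n : ℕ) : Obs 4 n → Fin 4 → ℝ :=
  fun ω i => gwLik 4 p lam n i ω

theorem gch_succ (p : ℕ → ℝ) (lam : ℝ) (n : ℕ) :
    gch p lam (n + 1) = mixCh p (edgeCh lam (gch p lam n)) := by
  funext (ω : Σ k : ℕ, (Fin k → Obs 4 n)) i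
  show p ω.1 * ∏ c : Fin ω.1, ∑ j : Fin 4, pottsKernel 4 lam i j * gwLik 4 p lam n j (ω.2 c)
    = p ω.1 * powCh (edgeCh lam (gch p lam n)) ω.1 ω.2 i
  congr 1
  unfold powCh edgeCh gch
  apply Finset.prod_congr rfl
  intro c _
  exact kernel_sum lam (fun j => gwLik 4 p lam n j (ω.2 c)) i

theorem gch_sym (p : ℕ → ℝ) (lam : ℝ) (n : ℕ) : IsSym (gch p lam n) := by
  induction n with
  | zero =>
    intro σ
    refine ⟨σ.symm, ?_⟩
    intro (ω : Fin 4) i
    show (if i = σ.symm ω then (1 : ℝ) else 0) = if σ i = ω then 1 else 0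
    simp only [Equiv.eq_symm_apply]
  | succ n ih =>
    rw [gch_succ]
    exact (ih.edgeT lam).mixCh p

theorem gch_zero_good (p : ℕ → ℝ) (lam : ℝ) : GoodP (gch p lam 0) := by
  refine corners_good ?_ ?_
  · intro (ω : Fin 4) i
    show 0 ≤ (if i = ω then (1 : ℝ) else 0)
    split_ifs <;> norm_num
  · intro G
    have h := hasSum_fintype (fun ω : Fin 4 => G (if (0 : Fin 4) = ω then (1 : ℝ) else 0)
      (if (1 : Fin 4) = ω then (1 : ℝ) else 0) (if (2 : Fin 4) = ω then (1 : ℝ) else 0) (if (3 : Fin 4) = ω then (1 : ℝ) else 0))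
    rw [Fin.sum_univ_four] at h
    have h' : HasSum (fun ω : Fin 4 => G (if (0 : Fin 4) = ω then (1 : ℝ) else 0)
      (if (1 : Fin 4) = ω then (1 : ℝ) else 0) (if (2 : Fin 4) = ω then (1 : ℝ) else 0) (if (3 : Fin 4) = ω then (1 : ℝ) else 0))
        (G 1 0 0 0 + G 0 1 0 0 + G 0 0 1 0 + G 0 0 0 1) := by
      simpa using h
    exact h'

theorem gch_good {p : ℕ → ℝ} (hp : ∀ k, 0 ≤ p k) (hs : HasSum p 1) {m : ℝ} (hm' : HasSum (fun k : ℕ => (k : ℝ) * p k) m)
    {lam : ℝ} (h0 : 0 ≤ lam) (h1 : lam ≤ 1) (n : ℕ) : GoodP (gch p lam n) := by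
  induction n with
  | zero => exact gch_zero_good p lam
  | succ n ih =>
    rw [gch_succ]
    exact (mix_good hp hs hm' (ih.edge h0 h1).1 ((gch_sym p lam n).edgeT lam)).1

/-- the expected value of `S` -/
noncomputable def xg (p : ℕ → ℝ) (lam : ℝ) (n : ℕ) : ℝ := ExT (gch p lam n) (hm sS)

theorem xg_recursion {p : ℕ → ℝ} (hp : ∀ k, 0 ≤ p k) (hs : HasSum p 1) {m : ℝ}
    (hm' : HasSum (fun k : ℕ => (k : ℝ) * p k) m) {lam : ℝ} (h0 : 0 ≤ lam) (h1 : lam ≤ 1) (n : ℕ) :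
    xg p lam (n + 1) ≤ m * lam ^ 2 * xg p lam n - (1 - p 0 - p 1) * (2 / 16384 * lam ^ 6) * xg p lam n ^ 3 := by
  have hg := gch_good hp hs hm' h0 h1 n
  obtain ⟨hE, hS⟩ := hg.edge h0 h1
  have h2 := (mix_good hp hs hm' hE ((gch_sym p lam n).edgeT lam)).2
  rw [hS] at h2
  have hxs : xg p lam (n + 1) = ExT (mixCh p (edgeCh lam (gch p lam n))) (hm sS) := by
    unfold xg
    rw [gch_succ]
    rfl
  rw [hxs]
  unfold xg
  refine le_trans h2 (le_of_eq ?_)
  ring

theorem p01_le {p : ℕ → ℝ} (hp : ∀ k, 0 ≤ p k) (hs : HasSum p 1) : p 0 + p 1 ≤ 1 := by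
  have := sum_le_hasSum ({0, 1} : Finset ℕ) (fun k _ => hp k) hs
  simpa using this

theorem xg_tendsto {p : ℕ → ℝ} (hp : ∀ k, 0 ≤ p k) (hs : HasSum p 1) {m : ℝ}
    (hm' : HasSum (fun k : ℕ => (k : ℝ) * p k) m) {lam : ℝ} (h0 : 0 ≤ lam) (h1 : lam ≤ 1)
    (hκ : m * lam ^ 2 ≤ 1) (hnd : ¬ (p 1 = 1 ∧ lam = 1)) : Tendsto (xg p lam) atTop (𝓝 0) := by
  have hx0 : ∀ n, 0 ≤ xg p lam n := fun n => (gch_good hp hs hm' h0 h1 n).toBase.S_nonneg
  have hx6 : ∀ n, xg p lam n ≤ 12 := fun n => (gch_good hp hs hm' h0 h1 n).toBase.S_le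
  have hrec := xg_recursion hp hs hm' h0 h1
  have hp01 := p01_le hp hs
  have hcube : ∀ n, xg p lam n ^ 3 ≤ 144 * xg p lam n := by
    intro n
    have a1 := hx0 n
    have a2 := hx6 n
    have a3 : xg p lam n ^ 2 ≤ 144 := by nlinarith
    nlinarith [mul_le_mul_of_nonneg_left a3 a1]
  rcases h0.eq_or_lt with hz | hpos
  · subst hz
    apply tendsto_zero_of_cubic _ (1 / 144) (by norm_num) hx0
    intro n
    have h2 := hrec n
    norm_num at h2
    have := hcube n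
    linarith
  · rcases (by linarith : 0 ≤ 1 - p 0 - p 1).eq_or_lt with hc | hc
    · -- at most one child
      have hk2 : ∀ k, 2 ≤ k → p k = 0 := by
        intro k hk
        have h3 := sum_le_hasSum ({0, 1, k} : Finset ℕ) (fun k _ => hp k) hs
        rw [Finset.sum_insert (by simp; omega), Finset.sum_insert (by simp; omega), Finset.sum_singleton] at h3
        have := hp k
        linarith
      have hm1 : m = p 1 := by
        have h5 : HasSum (fun k : ℕ => (k : ℝ) * p k) (((1 : ℕ) : ℝ) * p 1) := by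
          apply hasSum_single
          intro k hk
          rcases Nat.lt_or_ge k 2 with h6 | h6
          · interval_cases k
            · simp
            · exact absurd rfl hk
          · rw [hk2 k h6]; simp
        have := hm'.unique h5
        simpa using this
      have hp1 : p 1 ≤ 1 := by have := hp 0; linarith
      have hp1' : 0 ≤ p 1 := hp 1
      have hκ' : m * lam ^ 2 < 1 := by
        rw [hm1]
        by_contra hcon
        push Not at hcon
        have hll : lam ^ 2 ≤ 1 := pow_le_one₀ hpos.le h1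
        have e1 : p 1 = 1 := by nlinarith
        have e2 : lam = 1 := by
          have : lam ^ 2 = 1 := by rw [e1] at hcon; nlinarith
          nlinarith
        exact hnd ⟨e1, e2⟩
      apply tendsto_zero_of_cubic _ ((1 - m * lam ^ 2) / 144) (by linarith) hx0
      intro n
      have h2 := hrec n
      rw [← hc] at h2
      have h4 := hcube n
      have h5 : (1 - m * lam ^ 2) / 144 * xg p lam n ^ 3 ≤ (1 - m * lam ^ 2) * xg p lam n := by
        have h6 : 0 ≤ (1 - m * lam ^ 2) / 144 := by linarith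
        have := mul_le_mul_of_nonneg_left h4 h6
        linarith
      have h7 : 0 * (2 / 16384 * lam ^ 6) * xg p lam n ^ 3 = 0 := by ring
      rw [h7] at h2
      nlinarith
    · apply tendsto_zero_of_cubic _ ((1 - p 0 - p 1) * (2 / 16384 * lam ^ 6)) (by positivity) hx0
      intro n
      have h2 := hrec n
      have h3 : m * lam ^ 2 * xg p lam n ≤ 1 * xg p lam n := mul_le_mul_of_nonneg_right hκ (hx0 n)
      linarith

theorem gwMarginal_eq (p : ℕ → ℝ) (lam : ℝ) (n : ℕ) (ω : Obs 4 n) :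
    gwMarginal 4 p lam n ω = GM (gch p lam n ω 0) (gch p lam n ω 1) (gch p lam n ω 2) (gch p lam n ω 3) := by
  unfold gwMarginal GM gch
  rw [Fin.sum_univ_four]
  push_cast
  ring

theorem gwTerm_eq (p : ℕ → ℝ) (lam : ℝ) (n : ℕ) (ω : Obs 4 n) :
    gwTerm 4 p lam n ω = tm (gch p lam n ω 0) (gch p lam n ω 1) (gch p lam n ω 2) (gch p lam n ω 3) := by
  unfold tm gwTerm
  rw [← gwMarginal_eq, Fin.sum_univ_four]
  unfold gwPosterior gch
  push_cast
  ring_nf

theorem gw_term_summable {p : ℕ → ℝ} (hp : ∀ k, 0 ≤ p k) (hs : HasSum p 1) {m : ℝ}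
    (hm' : HasSum (fun k : ℕ => (k : ℝ) * p k) m) {lam : ℝ} (h0 : 0 ≤ lam) (h1 : lam ≤ 1) (n : ℕ) :
    Summable (gwTerm 4 p lam n) ∧ 0 ≤ gwAdvantage 4 p lam n ∧
      ∀ θ : ℝ, 0 < θ → gwAdvantage 4 p lam n ≤ (xg p lam n / θ + 4 * θ) / 16 := by
  have hg := (gch_good hp hs hm' h0 h1 n).toBase
  have hb : ∀ θ : ℝ, 0 < θ → ∀ ω, 0 ≤ gwTerm 4 p lam n ω ∧ gwTerm 4 p lam n ω
      ≤ (hm sS (gch p lam n ω 0) (gch p lam n ω 1) (gch p lam n ω 2) (gch p lam n ω 3) / θ
        + 4 * GM (gch p lam n ω 0) (gch p lam n ω 1) (gch p lam n ω 2) (gch p lam n ω 3) * θ) / 16 := by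
    intro θ hθ ω
    rw [gwTerm_eq]
    exact tm_bound (hg.nn ω 0) (hg.nn ω 1) (hg.nn ω 2) (hg.nn ω 3) hθ
  have hB : ∀ θ : ℝ, HasSum (fun ω => (hm sS (gch p lam n ω 0) (gch p lam n ω 1) (gch p lam n ω 2) (gch p lam n ω 3) / θ
        + 4 * GM (gch p lam n ω 0) (gch p lam n ω 1) (gch p lam n ω 2) (gch p lam n ω 3) * θ) / 16) ((xg p lam n / θ + 4 * 1 * θ) / 16) := by
    intro θ
    have a1 := (hg.hasSum SG_S).div_const θ
    have a2 := ((hg.hasSum SG_GM).mul_left 4).mul_right θ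
    rw [hg.mass] at a2
    exact (a1.add a2).div_const 16
  have hsum : Summable (gwTerm 4 p lam n) :=
    Summable.of_nonneg_of_le (fun ω => (hb 1 one_pos ω).1) (fun ω => (hb 1 one_pos ω).2) (hB 1).summable
  refine ⟨hsum, tsum_nonneg fun ω => (hb 1 one_pos ω).1, fun θ hθ => ?_⟩
  have := hasSum_le (fun ω => (hb θ hθ ω).2) hsum.hasSum (hB θ)
  unfold gwAdvantage
  linarith

/-- Nonreconstruction for the four-state ferromagnetic Potts channel on Galton-Watson trees. -/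
theorem main_gw {p : ℕ → ℝ} (hp : ∀ k, 0 ≤ p k) (hs : HasSum p 1) {m : ℝ}
    (hm' : HasSum (fun k : ℕ => (k : ℝ) * p k) m) {lam : ℝ} (h0 : 0 ≤ lam) (h1 : lam ≤ 1)
    (hκ : m * lam ^ 2 ≤ 1) (hnd : ¬ (p 1 = 1 ∧ lam = 1)) :
    (∀ n, Summable (gwTerm 4 p lam n)) ∧ Tendsto (gwAdvantage 4 p lam) atTop (𝓝 0) := by
  refine ⟨fun n => (gw_term_summable hp hs hm' h0 h1 n).1, ?_⟩
  have hx := xg_tendsto hp hs hm' h0 h1 hκ hnd
  rw [Metric.tendsto_atTop] at hx ⊢
  intro ε hε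
  obtain ⟨N, hN⟩ := hx (16 * ε ^ 2) (by positivity)
  refine ⟨N, fun n hn => ?_⟩
  have h2 := hN n hn
  rw [Real.dist_eq, sub_zero] at h2 ⊢
  obtain ⟨_, hnn, hle⟩ := gw_term_summable hp hs hm' h0 h1 n
  have hle := hle (2 * ε) (by positivity)
  rw [abs_of_nonneg hnn]
  have hx0 : 0 ≤ xg p lam n := (gch_good hp hs hm' h0 h1 n).toBase.S_nonneg
  rw [abs_of_nonneg hx0] at h2
  have h3 : xg p lam n / (2 * ε) < 8 * ε := by
    rw [div_lt_iff₀ (by positivity)]
    nlinarith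
  linarith

theorem poisson_nonneg {d : ℝ} (hd : 0 < d) (k : ℕ) : 0 ≤ poissonLaw d k := by
  unfold poissonLaw
  positivity

theorem exp_hasSum (d : ℝ) : HasSum (fun k : ℕ => d ^ k / (k.factorial : ℝ)) (Real.exp d) := by
  rw [Real.exp_eq_exp_ℝ]
  exact NormedSpace.expSeries_div_hasSum_exp d

theorem poisson_hasSum (d : ℝ) : HasSum (poissonLaw d) 1 := by
  have h := (exp_hasSum d).mul_left (Real.exp (-d))
  have e : Real.exp (-d) * Real.exp d = 1 := by
    rw [← Real.exp_add]; simp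
  rw [e] at h
  have e' : poissonLaw d = fun k : ℕ => Real.exp (-d) * (d ^ k / (k.factorial : ℝ)) := by
    funext k
    unfold poissonLaw
    ring
  rw [e']
  exact h

theorem poisson_mean (d : ℝ) : HasSum (fun k : ℕ => (k : ℝ) * poissonLaw d k) d := by
  have h := (poisson_hasSum d).mul_left d
  rw [mul_one] at h
  rw [← hasSum_nat_add_iff' 1]
  simp only [Finset.range_one, Finset.sum_singleton, Nat.cast_zero, zero_mul, sub_zero]
  have e' : (fun k : ℕ => ((k + 1 : ℕ) : ℝ) * poissonLaw d (k + 1)) = fun k : ℕ => d * poissonLaw d k := by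
    funext k
    unfold poissonLaw
    rw [Nat.factorial_succ]
    push_cast
    field_simp
    ring
  rw [e']
  exact h

/-- Nonreconstruction on Poisson Galton-Watson trees. -/
theorem main_poisson {d : ℝ} (hd : 0 < d) {lam : ℝ} (h0 : 0 ≤ lam) (h1 : lam ≤ 1) (hκ : d * lam ^ 2 ≤ 1) :
    (∀ n, Summable (gwTerm 4 (poissonLaw d) lam n)) ∧ Tendsto (gwAdvantage 4 (poissonLaw d) lam) atTop (𝓝 0) := by
  apply main_gw (poisson_nonneg hd) (poisson_hasSum d) (poisson_mean d) h0 h1 hκ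
  rintro ⟨e, -⟩
  have h2 : poissonLaw d 1 = Real.exp (-d) * d := by
    unfold poissonLaw
    simp
  rw [h2] at e
  have h3 := Real.add_one_le_exp d
  have h4 : Real.exp (-d) * Real.exp d = 1 := by
    rw [← Real.exp_add]; simp
  have h5 : 0 < Real.exp (-d) := Real.exp_pos _
  nlinarith

end Vale.Agent.Lib.P154Q5
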