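import Vale.Agent.Lib.P154Q5.DHull

namespace Vale.Agent.Lib.P154Q5

set_option maxRecDepth 100000
set_option exponentiation.threshold 1000

/-- positive part of the contraction -/
def ctPI (v : V) : V :=
  ⟨Nat.mul 1484112 v.a0,
   Nat.add (Nat.mul 959616 v.a4) (Nat.mul 25536 v.a8),
   Nat.add (Nat.mul 64752048 v.a0) (Nat.add (Nat.mul 1919232 v.a4) (Nat.mul 51072 v.a8)),
   Nat.add (Nat.mul 6450432 v.a4) (Nat.mul 76608 v.a8),
   Nat.add (Nat.mul 43521992 v.a2) (Nat.add (Nat.mul 56697 v.a7) (Nat.mul 102144 v.a8)),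
   Nat.add (Nat.mul 60615696 v.a0) (Nat.add (Nat.mul 6647824 v.a4) (Nat.mul 909060 v.a5)),
   0,
   0,
   0,
   0⟩

/-- negative part of the contraction -/
def ctNI (v : V) : V :=
  ⟨0,
   Nat.add (Nat.mul 10628544 v.a0) (Nat.add (Nat.mul 497792 v.a2) (Nat.add (Nat.mul 127872 v.a5) (Nat.mul 7216 v.a7))),
   Nat.add (Nat.mul 6114088 v.a2) (Nat.add (Nat.mul 255744 v.a5) (Nat.mul 14432 v.a7)),
   Nat.add (Nat.mul 21606096 v.a0) (Nat.add (Nat.mul 12053712 v.a2) (Nat.add (Nat.mul 383616 v.a5) (Nat.mul 21648 v.a7))),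
   Nat.add (Nat.mul 93521568 v.a0) (Nat.add (Nat.mul 15160568 v.a4) (Nat.mul 407682 v.a5)),
   Nat.add (Nat.mul 24827488 v.a2) (Nat.add (Nat.mul 15168 v.a7) (Nat.mul 225432 v.a8)),
   0,
   0,
   0,
   0⟩

/-- the form over the reals -/
def bRI (x : VR) : VR :=
  ⟨(1484112 : ℝ) * x.a0,
   (-10628544 : ℝ) * x.a0 + (-497792 : ℝ) * x.a2 + (959616 : ℝ) * x.a4 + (-127872 : ℝ) * x.a5 + (-7216 : ℝ) * x.a7 + (25536 : ℝ) * x.a8,
   (64752048 : ℝ) * x.a0 + (-6114088 : ℝ) * x.a2 + (1919232 : ℝ) * x.a4 + (-255744 : ℝ) * x.a5 + (-14432 : ℝ) * x.a7 + (51072 : ℝ) * x.a8,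
   (-21606096 : ℝ) * x.a0 + (-12053712 : ℝ) * x.a2 + (6450432 : ℝ) * x.a4 + (-383616 : ℝ) * x.a5 + (-21648 : ℝ) * x.a7 + (76608 : ℝ) * x.a8,
   (-93521568 : ℝ) * x.a0 + (43521992 : ℝ) * x.a2 + (-15160568 : ℝ) * x.a4 + (-407682 : ℝ) * x.a5 + (56697 : ℝ) * x.a7 + (102144 : ℝ) * x.a8,
   (60615696 : ℝ) * x.a0 + (-24827488 : ℝ) * x.a2 + (6647824 : ℝ) * x.a4 + (909060 : ℝ) * x.a5 + (-15168 : ℝ) * x.a7 + (-225432 : ℝ) * x.a8,
   0,
   0,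
   0,
   0⟩

/-- the transposed form over the reals -/
def bTI (x : VR) : VR :=
  ⟨(1484112 : ℝ) * x.a0 + (-10628544 : ℝ) * x.a1 + (64752048 : ℝ) * x.a2 + (-21606096 : ℝ) * x.a3 + (-93521568 : ℝ) * x.a4 + (60615696 : ℝ) * x.a5,
   0,
   (-497792 : ℝ) * x.a1 + (-6114088 : ℝ) * x.a2 + (-12053712 : ℝ) * x.a3 + (43521992 : ℝ) * x.a4 + (-24827488 : ℝ) * x.a5,
   0,
   (959616 : ℝ) * x.a1 + (1919232 : ℝ) * x.a2 + (6450432 : ℝ) * x.a3 + (-15160568 : ℝ) * x.a4 + (6647824 : ℝ) * x.a5,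
   (-127872 : ℝ) * x.a1 + (-255744 : ℝ) * x.a2 + (-383616 : ℝ) * x.a3 + (-407682 : ℝ) * x.a4 + (909060 : ℝ) * x.a5,
   0,
   (-7216 : ℝ) * x.a1 + (-14432 : ℝ) * x.a2 + (-21648 : ℝ) * x.a3 + (56697 : ℝ) * x.a4 + (-15168 : ℝ) * x.a5,
   (25536 : ℝ) * x.a1 + (51072 : ℝ) * x.a2 + (76608 : ℝ) * x.a3 + (102144 : ℝ) * x.a4 + (-225432 : ℝ) * x.a5,
   0⟩

theorem ctPI_lin : LinV ctPI := by
  constructor
  · simp only [ctPI, V.zero, Nat.add_eq, Nat.mul_eq, Nat.mul_zero, Nat.add_zero]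
  · intro x y
    ext <;> simp only [ctPI, V.add, Nat.add_eq, Nat.mul_eq] <;> ring
  · intro c x
    ext <;> simp only [ctPI, V.smul, Nat.add_eq, Nat.mul_eq] <;> ring

theorem ctNI_lin : LinV ctNI := by
  constructor
  · simp only [ctNI, V.zero, Nat.add_eq, Nat.mul_eq, Nat.mul_zero, Nat.add_zero]
  · intro x y
    ext <;> simp only [ctNI, V.add, Nat.add_eq, Nat.mul_eq] <;> ring
  · intro c x
    ext <;> simp only [ctNI, V.smul, Nat.add_eq, Nat.mul_eq] <;> ring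

theorem bRI_tr (a y : VR) : dotR (bRI a) y = dotR (bTI y) a := by
  simp only [dotR, bRI, bTI]
  ring

theorem bRI_link (v w : V) : dotR (bRI v.r) w.r = (dot (ctPI v) w : ℝ) - (dot (ctNI v) w : ℝ) := by
  simp only [dotR, bRI, V.r, dot_eq, ctPI, ctNI, Nat.add_eq, Nat.mul_eq]
  push_cast
  ring

theorem ctPI_mono {v w : V} {K : Nat} (h : Bd K v) (k : Bd K w) :
    dot (ctPI v) w ≤ dot (ctPI ⟨K, K, K, K, K, K, K, K, K, K⟩) ⟨K, K, K, K, K, K, K, K, K, K⟩ := by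
  obtain ⟨h0, h1, h2, h3, h4, h5, h6, h7, h8, h9⟩ := h
  obtain ⟨k0, k1, k2, k3, k4, k5, k6, k7, k8, k9⟩ := k
  simp only [dot_eq, ctPI, Nat.add_eq, Nat.mul_eq]
  gcongr

theorem ctNI_mono {v w : V} {K : Nat} (h : Bd K v) (k : Bd K w) :
    dot (ctNI v) w ≤ dot (ctNI ⟨K, K, K, K, K, K, K, K, K, K⟩) ⟨K, K, K, K, K, K, K, K, K, K⟩ := by
  obtain ⟨h0, h1, h2, h3, h4, h5, h6, h7, h8, h9⟩ := h
  obtain ⟨k0, k1, k2, k3, k4, k5, k6, k7, k8, k9⟩ := k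
  simp only [dot_eq, ctNI, Nat.add_eq, Nat.mul_eq]
  gcongr

/-- the form for the inequality in the third variable -/
def fI : Form := ⟨302, fun _ v => ctPI v, fun _ v => ctNI v⟩

theorem vmI_P : dot (ctPI ⟨16777216 * 65536 ^ 7, 16777216 * 65536 ^ 7, 16777216 * 65536 ^ 7, 16777216 * 65536 ^ 7, 16777216 * 65536 ^ 7, 16777216 * 65536 ^ 7, 16777216 * 65536 ^ 7, 16777216 * 65536 ^ 7, 16777216 * 65536 ^ 7, 16777216 * 65536 ^ 7⟩) ⟨16777216 * 65536 ^ 7, 16777216 * 65536 ^ 7, 16777216 * 65536 ^ 7, 16777216 * 65536 ^ 7, 16777216 * 65536 ^ 7, 16777216 * 65536 ^ 7, 16777216 * 65536 ^ 7, 16777216 * 65536 ^ 7, 16777216 * 65536 ^ 7, 16777216 * 65536 ^ 7⟩ < 2 ^ (302 - 1) := by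
  decide +kernel

theorem vmI_N : dot (ctNI ⟨16777216 * 65536 ^ 7, 16777216 * 65536 ^ 7, 16777216 * 65536 ^ 7, 16777216 * 65536 ^ 7, 16777216 * 65536 ^ 7, 16777216 * 65536 ^ 7, 16777216 * 65536 ^ 7, 16777216 * 65536 ^ 7, 16777216 * 65536 ^ 7, 16777216 * 65536 ^ 7⟩) ⟨16777216 * 65536 ^ 7, 16777216 * 65536 ^ 7, 16777216 * 65536 ^ 7, 16777216 * 65536 ^ 7, 16777216 * 65536 ^ 7, 16777216 * 65536 ^ 7, 16777216 * 65536 ^ 7, 16777216 * 65536 ^ 7, 16777216 * 65536 ^ 7, 16777216 * 65536 ^ 7⟩ < 2 ^ (302 - 1) := by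
  decide +kernel

theorem fI_ok : fI.OK 65536 (fun _ => bRI) (fun _ => bTI) where
  hb := by decide
  linP := fun _ => ctPI_lin
  linN := fun _ => ctNI_lin
  tr := fun _ a y => bRI_tr a y
  link := fun _ v w => bRI_link v w
  bdP := fun _ _ _ _ h k => lt_of_le_of_lt (ctPI_mono h k) vmI_P
  bdN := fun _ _ _ _ h k => lt_of_le_of_lt (ctNI_mono h k) vmI_N

/-- what is proved on pairs of points for the inequality in the third variable -/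
def PI (S τ q _S' D _q' : ℝ) : Prop :=
  (1 < D → 4 * (D - 1) ^ 2 ≤ 3 * S) → (∀ z, 8 / 3 ≤ z → z ≤ D → Gz z S τ ≤ 0) → 0 ≤ dotR (bRI (ptF S τ q)) (ptD D)

/-- what is proved on pairs of cells for the inequality in the third variable -/
abbrev CKI (x y : Cell) : Prop := CellOK 65536 Dom (fun _ _ _ => True) PI x y

theorem ckI_sound (t : Tr) (x y : Cell) (h : chk 65536 (leafI fI 65536) t x y = true) : CKI x y := by
  refine chk_sound (fun f1 g1 f2 g2 x y h S τ q S' τ' q' hd _ hx hy => ?_) t x y h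
  intro hc hz
  exact leafI_sound (by norm_num) fI_ok h hd hx hy hc hz

end Vale.Agent.Lib.P154Q5
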