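import Vale.Agent.Lib.P154Q5.Inv

/-!
Vectors of ten features, the cone over the control points of a cell, and the passage from a
bilinear form on control points to the bilinear form on the points of the cell.
-/

namespace Vale.Agent.Lib.P154Q5

/-- a vector of natural numbers -/
@[ext] structure V where
  a0 : Nat
  a1 : Nat
  a2 : Nat
  a3 : Nat
  a4 : Nat
  a5 : Nat
  a6 : Nat
  a7 : Nat
  a8 : Nat
  a9 : Nat

/-- a vector of real numbers -/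
@[ext] structure VR where
  a0 : ℝ
  a1 : ℝ
  a2 : ℝ
  a3 : ℝ
  a4 : ℝ
  a5 : ℝ
  a6 : ℝ
  a7 : ℝ
  a8 : ℝ
  a9 : ℝ

/-- the embedding -/
def V.r (v : V) : VR :=
  ⟨v.a0, v.a1, v.a2, v.a3, v.a4, v.a5, v.a6, v.a7, v.a8, v.a9⟩

/-- the dot product -/
def dotR (u x : VR) : ℝ :=
  u.a0 * x.a0 + u.a1 * x.a1 + u.a2 * x.a2 + u.a3 * x.a3 + u.a4 * x.a4 + u.a5 * x.a5 + u.a6 * x.a6
    + u.a7 * x.a7 + u.a8 * x.a8 + u.a9 * x.a9

/-- the features of a point -/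
def ptF (S τ q : ℝ) : VR :=
  ⟨1, τ, S, q, S * τ, S ^ 2, S * τ ^ 2, S * q, S ^ 2 * τ, S * τ * q⟩

/-- a real control point, lower corner -/
def vLoR (s0 s1 s2 n0 n1 n2 n3 : ℝ) : VR :=
  ⟨s0 * n0, s0 * n1, s1 * n0, 3 * (s1 * n0) + s0 * (12 * n2 + 52 * n0), s1 * n1, s2 * n0, s1 * n2,
    3 * (s2 * n0) + s1 * (12 * n2 + 52 * n0), s2 * n1, 3 * (s2 * n1) + s1 * (12 * n3 + 52 * n1)⟩

/-- a real control point, first upper corner -/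
def vHiR (s0 s1 s2 n0 n1 n2 n3 : ℝ) : VR :=
  ⟨s0 * n0, s0 * n1, s1 * n0, 6 * (s1 * n0) + s0 * (3 * n2 + 18 * n1 + 43 * n0), s1 * n1, s2 * n0, s1 * n2,
    6 * (s2 * n0) + s1 * (3 * n2 + 18 * n1 + 43 * n0), s2 * n1, 6 * (s2 * n1) + s1 * (3 * n3 + 18 * n2 + 43 * n1)⟩

/-- a real control point, second upper corner -/
def vChR (E W s0 s1 s2 b1 b2 n0 n1 n2 n3 : ℝ) : VR :=
  ⟨E * (s0 * n0), E * (s0 * n1), E * (s1 * n0), W * (b1 * n0) + E * (40 * (s0 * n1) + 6 * (s1 * n0)),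
    E * (s1 * n1), E * (s2 * n0), E * (s1 * n2), W * (b2 * n0) + E * (40 * (s1 * n1) + 6 * (s2 * n0)),
    E * (s2 * n1), W * (b2 * n1) + E * (40 * (s1 * n2) + 6 * (s2 * n1))⟩

/-- a control point, lower corner -/
def vLo (s0 s1 s2 n0 n1 n2 n3 : Nat) : V :=
  ⟨s0 * n0, s0 * n1, s1 * n0, 3 * (s1 * n0) + s0 * (12 * n2 + 52 * n0), s1 * n1, s2 * n0, s1 * n2,
    3 * (s2 * n0) + s1 * (12 * n2 + 52 * n0), s2 * n1, 3 * (s2 * n1) + s1 * (12 * n3 + 52 * n1)⟩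

/-- a control point, first upper corner -/
def vHi (s0 s1 s2 n0 n1 n2 n3 : Nat) : V :=
  ⟨s0 * n0, s0 * n1, s1 * n0, 6 * (s1 * n0) + s0 * (3 * n2 + 18 * n1 + 43 * n0), s1 * n1, s2 * n0, s1 * n2,
    6 * (s2 * n0) + s1 * (3 * n2 + 18 * n1 + 43 * n0), s2 * n1, 6 * (s2 * n1) + s1 * (3 * n3 + 18 * n2 + 43 * n1)⟩

/-- a control point, second upper corner -/
def vCh (E W s0 s1 s2 b1 b2 n0 n1 n2 n3 : Nat) : V :=
  ⟨E * (s0 * n0), E * (s0 * n1), E * (s1 * n0), W * (b1 * n0) + E * (40 * (s0 * n1) + 6 * (s1 * n0)),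
    E * (s1 * n1), E * (s2 * n0), E * (s1 * n2), W * (b2 * n0) + E * (40 * (s1 * n1) + 6 * (s2 * n0)),
    E * (s2 * n1), W * (b2 * n1) + E * (40 * (s1 * n2) + 6 * (s2 * n1))⟩

/-- a real control point of the third lower corner -/
def vNeR (E W s0 s1 s2 b1 b2 n0 n1 n2 n3 : ℝ) : VR :=
  ⟨E * (s0 * n0), E * (s0 * n1), E * (s1 * n0),
    E * (6 * (s1 * n0) + 64 * (s0 * n0) + 8 * (s0 * n1) + 4 * (s0 * n2)) + W * (b1 * (9 * n0 + n2)) + 72 * W * (s0 * n1)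
      - (6 * W * (b1 * n1) + 12 * W * (s0 * (9 * n0 + n2))),
    E * (s1 * n1), E * (s2 * n0), E * (s1 * n2),
    E * (6 * (s2 * n0) + 64 * (s1 * n0) + 8 * (s1 * n1) + 4 * (s1 * n2)) + W * (b2 * (9 * n0 + n2)) + 72 * W * (s1 * n1)
      - (6 * W * (b2 * n1) + 12 * W * (s1 * (9 * n0 + n2))),
    E * (s2 * n1),
    E * (6 * (s2 * n1) + 64 * (s1 * n1) + 8 * (s1 * n2) + 4 * (s1 * n3)) + W * (b2 * (9 * n1 + n3)) + 72 * W * (s1 * n2)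
      - (6 * W * (b2 * n2) + 12 * W * (s1 * (9 * n1 + n3)))⟩

/-- the minuend of a control point of the third lower corner -/
def vNeP (E W s0 s1 s2 b1 b2 n0 n1 n2 n3 : Nat) : V :=
  ⟨E * (s0 * n0), E * (s0 * n1), E * (s1 * n0),
    E * (6 * (s1 * n0) + 64 * (s0 * n0) + 8 * (s0 * n1) + 4 * (s0 * n2)) + W * (b1 * (9 * n0 + n2)) + 72 * W * (s0 * n1),
    E * (s1 * n1), E * (s2 * n0), E * (s1 * n2),
    E * (6 * (s2 * n0) + 64 * (s1 * n0) + 8 * (s1 * n1) + 4 * (s1 * n2)) + W * (b2 * (9 * n0 + n2)) + 72 * W * (s1 * n1),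
    E * (s2 * n1),
    E * (6 * (s2 * n1) + 64 * (s1 * n1) + 8 * (s1 * n2) + 4 * (s1 * n3)) + W * (b2 * (9 * n1 + n3)) + 72 * W * (s1 * n2)⟩

/-- the subtrahend of a control point of the third lower corner -/
def vNeM (_E W s0 s1 _s2 b1 b2 n0 n1 n2 n3 : Nat) : V :=
  ⟨0, 0, 0, 6 * W * (b1 * n1) + 12 * W * (s0 * (9 * n0 + n2)), 0, 0, 0,
    6 * W * (b2 * n1) + 12 * W * (s1 * (9 * n0 + n2)), 0,
    6 * W * (b2 * n2) + 12 * W * (s1 * (9 * n1 + n3))⟩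

/-- the difference of two vectors, cut off at zero -/
def V.sub (x y : V) : V :=
  ⟨Nat.sub x.a0 y.a0, Nat.sub x.a1 y.a1, Nat.sub x.a2 y.a2, Nat.sub x.a3 y.a3, Nat.sub x.a4 y.a4, Nat.sub x.a5 y.a5,
    Nat.sub x.a6 y.a6, Nat.sub x.a7 y.a7, Nat.sub x.a8 y.a8, Nat.sub x.a9 y.a9⟩

/-- a control point of the third lower corner -/
def vNe (E W s0 s1 s2 b1 b2 n0 n1 n2 n3 : Nat) : V :=
  V.sub (vNeP E W s0 s1 s2 b1 b2 n0 n1 n2 n3) (vNeM E W s0 s1 s2 b1 b2 n0 n1 n2 n3)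

/-- no cutting off happens -/
def neOK (E W s0 s1 s2 b1 b2 n0 n1 n2 n3 : Nat) : Bool :=
  and (Nat.ble (6 * W * (b1 * n1) + 12 * W * (s0 * (9 * n0 + n2)))
      (E * (6 * (s1 * n0) + 64 * (s0 * n0) + 8 * (s0 * n1) + 4 * (s0 * n2)) + W * (b1 * (9 * n0 + n2)) + 72 * W * (s0 * n1)))
    (and (Nat.ble (6 * W * (b2 * n1) + 12 * W * (s1 * (9 * n0 + n2)))
      (E * (6 * (s2 * n0) + 64 * (s1 * n0) + 8 * (s1 * n1) + 4 * (s1 * n2)) + W * (b2 * (9 * n0 + n2)) + 72 * W * (s1 * n1)))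
    (Nat.ble (6 * W * (b2 * n2) + 12 * W * (s1 * (9 * n1 + n3)))
      (E * (6 * (s2 * n1) + 64 * (s1 * n1) + 8 * (s1 * n2) + 4 * (s1 * n3)) + W * (b2 * (9 * n1 + n3)) + 72 * W * (s1 * n2))))

theorem vNe_r {E W s0 s1 s2 b1 b2 n0 n1 n2 n3 : Nat} (h : neOK E W s0 s1 s2 b1 b2 n0 n1 n2 n3 = true) :
    (vNe E W s0 s1 s2 b1 b2 n0 n1 n2 n3).r = vNeR E W s0 s1 s2 b1 b2 n0 n1 n2 n3 := by
  simp only [neOK, Bool.and_eq_true] at h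
  obtain ⟨h1, h2, h3⟩ := h
  have h1' := Nat.le_of_ble_eq_true h1
  have h2' := Nat.le_of_ble_eq_true h2
  have h3' := Nat.le_of_ble_eq_true h3
  simp only [V.r, vNe, V.sub, vNeP, vNeM, vNeR, Nat.sub_eq, Nat.sub_zero]
  rw [Nat.cast_sub h1', Nat.cast_sub h2', Nat.cast_sub h3']
  push_cast
  rfl

theorem vLo_r (s0 s1 s2 n0 n1 n2 n3 : Nat) : (vLo s0 s1 s2 n0 n1 n2 n3).r
    = vLoR s0 s1 s2 n0 n1 n2 n3 := by
  simp only [V.r, vLo, vLoR]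
  push_cast
  rfl

theorem vHi_r (s0 s1 s2 n0 n1 n2 n3 : Nat) : (vHi s0 s1 s2 n0 n1 n2 n3).r
    = vHiR s0 s1 s2 n0 n1 n2 n3 := by
  simp only [V.r, vHi, vHiR]
  push_cast
  rfl

theorem vCh_r (E W s0 s1 s2 b1 b2 n0 n1 n2 n3 : Nat) : (vCh E W s0 s1 s2 b1 b2 n0 n1 n2 n3).r
    = vChR E W s0 s1 s2 b1 b2 n0 n1 n2 n3 := by
  simp only [V.r, vCh, vChR]
  push_cast
  rfl

/-- The point `x` lies in the cone over the list `L`, in dual form. -/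
def Hull (x : VR) (L : List V) : Prop :=
  ∀ u : VR, (∀ v ∈ L, 0 ≤ dotR u v.r) → 0 ≤ dotR u x

/-- from control points to points -/
theorem hull_bil {x y : VR} {L L' : List V} (hx : Hull x L) (hy : Hull y L') (B B' : VR → VR)
    (hT : ∀ a b, dotR (B a) b = dotR (B' b) a) (h : ∀ v ∈ L, ∀ w ∈ L', 0 ≤ dotR (B v.r) w.r) :
    0 ≤ dotR (B x) y := by
  apply hy
  intro w hw
  rw [hT]
  apply hx
  intro v hv
  rw [← hT]
  exact h v hv w hw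

section moments

theorem bil_lo (u : VR) (A0 A1 A2 B0 B1 B2 B3 s0 n0 s10 s11 s12 s20 s21 s22 n10 n11 n12 n13 n20 n21 n22 n23
    n30 n31 n32 n33 : ℝ) :
    dotR u (vLoR (A0 * s0 + A1 * s0 + A2 * s0) (A0 * s10 + A1 * s11 + A2 * s12) (A0 * s20 + A1 * s21 + A2 * s22)
      (B0 * n0 + B1 * n0 + B2 * n0 + B3 * n0) (B0 * n10 + B1 * n11 + B2 * n12 + B3 * n13)
      (B0 * n20 + B1 * n21 + B2 * n22 + B3 * n23) (B0 * n30 + B1 * n31 + B2 * n32 + B3 * n33))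
    = A0 * B0 * dotR u (vLoR s0 s10 s20 n0 n10 n20 n30) + A0 * B1 * dotR u (vLoR s0 s10 s20 n0 n11 n21 n31)
      + A0 * B2 * dotR u (vLoR s0 s10 s20 n0 n12 n22 n32) + A0 * B3 * dotR u (vLoR s0 s10 s20 n0 n13 n23 n33)
      + A1 * B0 * dotR u (vLoR s0 s11 s21 n0 n10 n20 n30) + A1 * B1 * dotR u (vLoR s0 s11 s21 n0 n11 n21 n31)
      + A1 * B2 * dotR u (vLoR s0 s11 s21 n0 n12 n22 n32) + A1 * B3 * dotR u (vLoR s0 s11 s21 n0 n13 n23 n33)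
      + A2 * B0 * dotR u (vLoR s0 s12 s22 n0 n10 n20 n30) + A2 * B1 * dotR u (vLoR s0 s12 s22 n0 n11 n21 n31)
      + A2 * B2 * dotR u (vLoR s0 s12 s22 n0 n12 n22 n32) + A2 * B3 * dotR u (vLoR s0 s12 s22 n0 n13 n23 n33) := by
  simp only [dotR, vLoR]
  ring

theorem bil_hi (u : VR) (A0 A1 A2 B0 B1 B2 B3 s0 n0 s10 s11 s12 s20 s21 s22 n10 n11 n12 n13 n20 n21 n22 n23
    n30 n31 n32 n33 : ℝ) :
    dotR u (vHiR (A0 * s0 + A1 * s0 + A2 * s0) (A0 * s10 + A1 * s11 + A2 * s12) (A0 * s20 + A1 * s21 + A2 * s22)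
      (B0 * n0 + B1 * n0 + B2 * n0 + B3 * n0) (B0 * n10 + B1 * n11 + B2 * n12 + B3 * n13)
      (B0 * n20 + B1 * n21 + B2 * n22 + B3 * n23) (B0 * n30 + B1 * n31 + B2 * n32 + B3 * n33))
    = A0 * B0 * dotR u (vHiR s0 s10 s20 n0 n10 n20 n30) + A0 * B1 * dotR u (vHiR s0 s10 s20 n0 n11 n21 n31)
      + A0 * B2 * dotR u (vHiR s0 s10 s20 n0 n12 n22 n32) + A0 * B3 * dotR u (vHiR s0 s10 s20 n0 n13 n23 n33)
      + A1 * B0 * dotR u (vHiR s0 s11 s21 n0 n10 n20 n30) + A1 * B1 * dotR u (vHiR s0 s11 s21 n0 n11 n21 n31)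
      + A1 * B2 * dotR u (vHiR s0 s11 s21 n0 n12 n22 n32) + A1 * B3 * dotR u (vHiR s0 s11 s21 n0 n13 n23 n33)
      + A2 * B0 * dotR u (vHiR s0 s12 s22 n0 n10 n20 n30) + A2 * B1 * dotR u (vHiR s0 s12 s22 n0 n11 n21 n31)
      + A2 * B2 * dotR u (vHiR s0 s12 s22 n0 n12 n22 n32) + A2 * B3 * dotR u (vHiR s0 s12 s22 n0 n13 n23 n33) := by
  simp only [dotR, vHiR]
  ring

theorem bil_ch (u : VR) (E W A0 A1 A2 B0 B1 B2 B3 s0 n0 s10 s11 s12 s20 s21 s22 b10 b11 b12 b20 b21 b22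
    n10 n11 n12 n13 n20 n21 n22 n23 n30 n31 n32 n33 : ℝ) :
    dotR u (vChR E W (A0 * s0 + A1 * s0 + A2 * s0) (A0 * s10 + A1 * s11 + A2 * s12) (A0 * s20 + A1 * s21 + A2 * s22)
      (A0 * b10 + A1 * b11 + A2 * b12) (A0 * b20 + A1 * b21 + A2 * b22)
      (B0 * n0 + B1 * n0 + B2 * n0 + B3 * n0) (B0 * n10 + B1 * n11 + B2 * n12 + B3 * n13)
      (B0 * n20 + B1 * n21 + B2 * n22 + B3 * n23) (B0 * n30 + B1 * n31 + B2 * n32 + B3 * n33))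
    = A0 * B0 * dotR u (vChR E W s0 s10 s20 b10 b20 n0 n10 n20 n30) + A0 * B1 * dotR u (vChR E W s0 s10 s20 b10 b20 n0 n11 n21 n31)
      + A0 * B2 * dotR u (vChR E W s0 s10 s20 b10 b20 n0 n12 n22 n32) + A0 * B3 * dotR u (vChR E W s0 s10 s20 b10 b20 n0 n13 n23 n33)
      + A1 * B0 * dotR u (vChR E W s0 s11 s21 b11 b21 n0 n10 n20 n30) + A1 * B1 * dotR u (vChR E W s0 s11 s21 b11 b21 n0 n11 n21 n31)
      + A1 * B2 * dotR u (vChR E W s0 s11 s21 b11 b21 n0 n12 n22 n32) + A1 * B3 * dotR u (vChR E W s0 s11 s21 b11 b21 n0 n13 n23 n33)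
      + A2 * B0 * dotR u (vChR E W s0 s12 s22 b12 b22 n0 n10 n20 n30) + A2 * B1 * dotR u (vChR E W s0 s12 s22 b12 b22 n0 n11 n21 n31)
      + A2 * B2 * dotR u (vChR E W s0 s12 s22 b12 b22 n0 n12 n22 n32) + A2 * B3 * dotR u (vChR E W s0 s12 s22 b12 b22 n0 n13 n23 n33) := by
  simp only [dotR, vChR]
  ring

theorem bil_ne (u : VR) (E W A0 A1 A2 B0 B1 B2 B3 s0 n0 s10 s11 s12 s20 s21 s22 b10 b11 b12 b20 b21 b22
    n10 n11 n12 n13 n20 n21 n22 n23 n30 n31 n32 n33 : ℝ) :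
    dotR u (vNeR E W (A0 * s0 + A1 * s0 + A2 * s0) (A0 * s10 + A1 * s11 + A2 * s12) (A0 * s20 + A1 * s21 + A2 * s22)
      (A0 * b10 + A1 * b11 + A2 * b12) (A0 * b20 + A1 * b21 + A2 * b22)
      (B0 * n0 + B1 * n0 + B2 * n0 + B3 * n0) (B0 * n10 + B1 * n11 + B2 * n12 + B3 * n13)
      (B0 * n20 + B1 * n21 + B2 * n22 + B3 * n23) (B0 * n30 + B1 * n31 + B2 * n32 + B3 * n33))
    = A0 * B0 * dotR u (vNeR E W s0 s10 s20 b10 b20 n0 n10 n20 n30) + A0 * B1 * dotR u (vNeR E W s0 s10 s20 b10 b20 n0 n11 n21 n31)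
      + A0 * B2 * dotR u (vNeR E W s0 s10 s20 b10 b20 n0 n12 n22 n32) + A0 * B3 * dotR u (vNeR E W s0 s10 s20 b10 b20 n0 n13 n23 n33)
      + A1 * B0 * dotR u (vNeR E W s0 s11 s21 b11 b21 n0 n10 n20 n30) + A1 * B1 * dotR u (vNeR E W s0 s11 s21 b11 b21 n0 n11 n21 n31)
      + A1 * B2 * dotR u (vNeR E W s0 s11 s21 b11 b21 n0 n12 n22 n32) + A1 * B3 * dotR u (vNeR E W s0 s11 s21 b11 b21 n0 n13 n23 n33)
      + A2 * B0 * dotR u (vNeR E W s0 s12 s22 b12 b22 n0 n10 n20 n30) + A2 * B1 * dotR u (vNeR E W s0 s12 s22 b12 b22 n0 n11 n21 n31)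
      + A2 * B2 * dotR u (vNeR E W s0 s12 s22 b12 b22 n0 n12 n22 n32) + A2 * B3 * dotR u (vNeR E W s0 s12 s22 b12 b22 n0 n13 n23 n33) := by
  simp only [dotR, vNeR]
  ring

theorem ne_moment (u : VR) (E W S τ b q : ℝ) (hq : E * q = E * (6 * S + 64 + 8 * τ + 4 * τ ^ 2) - W * (12 - b) * (3 - τ) ^ 2) :
    dotR u (vNeR E W 1 S (S ^ 2) b (S * b) 1 τ (τ ^ 2) (τ ^ 3)) = E * dotR u (ptF S τ q) := by
  simp only [dotR, vNeR, ptF]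
  linear_combination (-u.a3 - u.a7 * S - u.a9 * (S * τ)) * hq

theorem lo_moment (u : VR) (S τ : ℝ) :
    dotR u (vLoR 1 S (S ^ 2) 1 τ (τ ^ 2) (τ ^ 3)) = dotR u (ptF S τ (3 * S + 12 * τ ^ 2 + 52)) := by
  simp only [dotR, vLoR, ptF]
  ring

theorem hi_moment (u : VR) (S τ : ℝ) :
    dotR u (vHiR 1 S (S ^ 2) 1 τ (τ ^ 2) (τ ^ 3)) = dotR u (ptF S τ (6 * S + 3 * τ ^ 2 + 18 * τ + 43)) := by
  simp only [dotR, vHiR, ptF]
  ring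

theorem ch_moment (u : VR) (E W S τ b q : ℝ) (hq : E * q = W * b + E * (40 * τ + 6 * S)) :
    dotR u (vChR E W 1 S (S ^ 2) b (S * b) 1 τ (τ ^ 2) (τ ^ 3)) = E * dotR u (ptF S τ q) := by
  have h1 : E * q * S = (W * b + E * (40 * τ + 6 * S)) * S := by rw [hq]
  have h2 : E * q * S * τ = (W * b + E * (40 * τ + 6 * S)) * S * τ := by rw [hq]
  simp only [dotR, vChR, ptF]
  linear_combination (-u.a3) * hq - u.a7 * h1 - u.a9 * h2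

theorem dot_affine (u : VR) (S τ q q0 q1 μ0 μ1 : ℝ) (h : μ0 + μ1 = 1) (hq : q = μ0 * q0 + μ1 * q1) :
    dotR u (ptF S τ q) = μ0 * dotR u (ptF S τ q0) + μ1 * dotR u (ptF S τ q1) := by
  subst hq
  have : μ0 = 1 - μ1 := by linarith
  subst this
  simp only [dotR, ptF]
  ring

/-- interpolation in the last coordinate -/
theorem exists_mix {q q0 q1 : ℝ} (h0 : q0 ≤ q) (h1 : q ≤ q1) :
    ∃ μ0 μ1 : ℝ, 0 ≤ μ0 ∧ 0 ≤ μ1 ∧ μ0 + μ1 = 1 ∧ q = μ0 * q0 + μ1 * q1 := by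
  rcases (le_trans h0 h1).eq_or_lt with h | h
  · refine ⟨1, 0, by norm_num, by norm_num, by norm_num, ?_⟩
    have : q = q0 := by linarith
    rw [this]; ring
  · have hd : 0 < q1 - q0 := by linarith
    refine ⟨(q1 - q) / (q1 - q0), (q - q0) / (q1 - q0), div_nonneg (by linarith) hd.le,
      div_nonneg (by linarith) hd.le, ?_, ?_⟩
    · field_simp; ring
    · field_simp; ring

end moments

/-- the control values for the first coordinate -/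
structure SW (U L H S A0 A1 A2 : ℝ) : Prop where
  n0 : 0 ≤ A0
  n1 : 0 ≤ A1
  n2 : 0 ≤ A2
  m0 : A0 * (2 * U ^ 2) + A1 * (2 * U ^ 2) + A2 * (2 * U ^ 2) = 1
  m1 : A0 * (2 * U * L) + A1 * (U * (L + H)) + A2 * (2 * U * H) = S
  m2 : A0 * (2 * L ^ 2) + A1 * (2 * (L * H)) + A2 * (2 * H ^ 2) = S ^ 2
  m3 : A0 * (2 * U * H) + A1 * (U * (L + H)) + A2 * (2 * U * L) = (L + H) / U - S
  m4 : A0 * (2 * (L * H)) + A1 * (L ^ 2 + H ^ 2) + A2 * (2 * (L * H)) = S * ((L + H) / U - S)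

theorem exists_SW {U L H S : ℝ} (hU : 0 < U) (hLH : L < H) (h1 : L ≤ U * S) (h2 : U * S ≤ H) :
    ∃ A0 A1 A2, SW U L H S A0 A1 A2 := by
  have hd : 0 < H - L := by linarith
  have hx : 0 ≤ U * S - L := by linarith
  have hy : 0 ≤ H - U * S := by linarith
  refine ⟨(H - U * S) ^ 2 / ((H - L) ^ 2 * (2 * U ^ 2)), 2 * (H - U * S) * (U * S - L) / ((H - L) ^ 2 * (2 * U ^ 2)),
    (U * S - L) ^ 2 / ((H - L) ^ 2 * (2 * U ^ 2)), ?_, ?_, ?_, ?_, ?_, ?_, ?_, ?_⟩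
  · positivity
  · positivity
  · positivity
  · field_simp; ring
  · field_simp; ring
  · field_simp; ring
  · field_simp; ring
  · field_simp; ring

/-- the control values for the second coordinate -/
structure NW (U l h τ B0 B1 B2 B3 : ℝ) : Prop where
  n0 : 0 ≤ B0
  n1 : 0 ≤ B1
  n2 : 0 ≤ B2
  n3 : 0 ≤ B3
  m0 : B0 * (3 * U ^ 3) + B1 * (3 * U ^ 3) + B2 * (3 * U ^ 3) + B3 * (3 * U ^ 3) = 1
  m1 : B0 * (3 * U ^ 2 * l) + B1 * (U ^ 2 * (2 * l + h)) + B2 * (U ^ 2 * (l + 2 * h)) + B3 * (3 * U ^ 2 * h) = τ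
  m2 : B0 * (3 * U * l ^ 2) + B1 * (U * (l ^ 2 + 2 * (l * h))) + B2 * (U * (2 * (l * h) + h ^ 2)) + B3 * (3 * U * h ^ 2) = τ ^ 2
  m3 : B0 * (3 * l ^ 3) + B1 * (3 * (l ^ 2 * h)) + B2 * (3 * (l * h ^ 2)) + B3 * (3 * h ^ 3) = τ ^ 3

theorem exists_NW {U l h τ : ℝ} (hU : 0 < U) (hlh : l < h) (h1 : l ≤ U * τ) (h2 : U * τ ≤ h) :
    ∃ B0 B1 B2 B3, NW U l h τ B0 B1 B2 B3 := by
  have hd : 0 < h - l := by linarith
  have hx : 0 ≤ U * τ - l := by linarith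
  have hy : 0 ≤ h - U * τ := by linarith
  refine ⟨(h - U * τ) ^ 3 / ((h - l) ^ 3 * (3 * U ^ 3)), 3 * (h - U * τ) ^ 2 * (U * τ - l) / ((h - l) ^ 3 * (3 * U ^ 3)),
    3 * (h - U * τ) * (U * τ - l) ^ 2 / ((h - l) ^ 3 * (3 * U ^ 3)), (U * τ - l) ^ 3 / ((h - l) ^ 3 * (3 * U ^ 3)),
    ?_, ?_, ?_, ?_, ?_, ?_, ?_, ?_⟩
  · positivity
  · positivity
  · positivity
  · positivity
  · field_simp; ring
  · field_simp; ring
  · field_simp; ring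
  · field_simp; ring

/-- the twelve lower control points -/
def listLo (U L H l h : Nat) : List V :=
  let s0 := 2 * U ^ 2
  let n0 := 3 * U ^ 3
  let v := fun s1 s2 n1 n2 n3 => vLo s0 s1 s2 n0 n1 n2 n3
  [ v (2 * U * L) (2 * L ^ 2) (3 * U ^ 2 * l) (3 * U * l ^ 2) (3 * l ^ 3),
    v (2 * U * L) (2 * L ^ 2) (U ^ 2 * (2 * l + h)) (U * (l ^ 2 + 2 * (l * h))) (3 * (l ^ 2 * h)),
    v (2 * U * L) (2 * L ^ 2) (U ^ 2 * (l + 2 * h)) (U * (2 * (l * h) + h ^ 2)) (3 * (l * h ^ 2)),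
    v (2 * U * L) (2 * L ^ 2) (3 * U ^ 2 * h) (3 * U * h ^ 2) (3 * h ^ 3),
    v (U * (L + H)) (2 * (L * H)) (3 * U ^ 2 * l) (3 * U * l ^ 2) (3 * l ^ 3),
    v (U * (L + H)) (2 * (L * H)) (U ^ 2 * (2 * l + h)) (U * (l ^ 2 + 2 * (l * h))) (3 * (l ^ 2 * h)),
    v (U * (L + H)) (2 * (L * H)) (U ^ 2 * (l + 2 * h)) (U * (2 * (l * h) + h ^ 2)) (3 * (l * h ^ 2)),
    v (U * (L + H)) (2 * (L * H)) (3 * U ^ 2 * h) (3 * U * h ^ 2) (3 * h ^ 3),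
    v (2 * U * H) (2 * H ^ 2) (3 * U ^ 2 * l) (3 * U * l ^ 2) (3 * l ^ 3),
    v (2 * U * H) (2 * H ^ 2) (U ^ 2 * (2 * l + h)) (U * (l ^ 2 + 2 * (l * h))) (3 * (l ^ 2 * h)),
    v (2 * U * H) (2 * H ^ 2) (U ^ 2 * (l + 2 * h)) (U * (2 * (l * h) + h ^ 2)) (3 * (l * h ^ 2)),
    v (2 * U * H) (2 * H ^ 2) (3 * U ^ 2 * h) (3 * U * h ^ 2) (3 * h ^ 3) ]

/-- the twelve control points of the first upper corner -/
def listHi (U L H l h : Nat) : List V :=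
  let s0 := 2 * U ^ 2
  let n0 := 3 * U ^ 3
  let v := fun s1 s2 n1 n2 n3 => vHi s0 s1 s2 n0 n1 n2 n3
  [ v (2 * U * L) (2 * L ^ 2) (3 * U ^ 2 * l) (3 * U * l ^ 2) (3 * l ^ 3),
    v (2 * U * L) (2 * L ^ 2) (U ^ 2 * (2 * l + h)) (U * (l ^ 2 + 2 * (l * h))) (3 * (l ^ 2 * h)),
    v (2 * U * L) (2 * L ^ 2) (U ^ 2 * (l + 2 * h)) (U * (2 * (l * h) + h ^ 2)) (3 * (l * h ^ 2)),
    v (2 * U * L) (2 * L ^ 2) (3 * U ^ 2 * h) (3 * U * h ^ 2) (3 * h ^ 3),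
    v (U * (L + H)) (2 * (L * H)) (3 * U ^ 2 * l) (3 * U * l ^ 2) (3 * l ^ 3),
    v (U * (L + H)) (2 * (L * H)) (U ^ 2 * (2 * l + h)) (U * (l ^ 2 + 2 * (l * h))) (3 * (l ^ 2 * h)),
    v (U * (L + H)) (2 * (L * H)) (U ^ 2 * (l + 2 * h)) (U * (2 * (l * h) + h ^ 2)) (3 * (l * h ^ 2)),
    v (U * (L + H)) (2 * (L * H)) (3 * U ^ 2 * h) (3 * U * h ^ 2) (3 * h ^ 3),
    v (2 * U * H) (2 * H ^ 2) (3 * U ^ 2 * l) (3 * U * l ^ 2) (3 * l ^ 3),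
    v (2 * U * H) (2 * H ^ 2) (U ^ 2 * (2 * l + h)) (U * (l ^ 2 + 2 * (l * h))) (3 * (l ^ 2 * h)),
    v (2 * U * H) (2 * H ^ 2) (U ^ 2 * (l + 2 * h)) (U * (2 * (l * h) + h ^ 2)) (3 * (l * h ^ 2)),
    v (2 * U * H) (2 * H ^ 2) (3 * U ^ 2 * h) (3 * U * h ^ 2) (3 * h ^ 3) ]

/-- the twelve control points of the second upper corner -/
def listCh (U L H l h : Nat) : List V :=
  let s0 := 2 * U ^ 2
  let n0 := 3 * U ^ 3
  let v := fun s1 s2 b1 b2 n1 n2 n3 => vCh (L * H) (48 * U ^ 2) s0 s1 s2 b1 b2 n0 n1 n2 n3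
  [ v (2 * U * L) (2 * L ^ 2) (2 * U * H) (2 * (L * H)) (3 * U ^ 2 * l) (3 * U * l ^ 2) (3 * l ^ 3),
    v (2 * U * L) (2 * L ^ 2) (2 * U * H) (2 * (L * H)) (U ^ 2 * (2 * l + h)) (U * (l ^ 2 + 2 * (l * h))) (3 * (l ^ 2 * h)),
    v (2 * U * L) (2 * L ^ 2) (2 * U * H) (2 * (L * H)) (U ^ 2 * (l + 2 * h)) (U * (2 * (l * h) + h ^ 2)) (3 * (l * h ^ 2)),
    v (2 * U * L) (2 * L ^ 2) (2 * U * H) (2 * (L * H)) (3 * U ^ 2 * h) (3 * U * h ^ 2) (3 * h ^ 3),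
    v (U * (L + H)) (2 * (L * H)) (U * (L + H)) (L ^ 2 + H ^ 2) (3 * U ^ 2 * l) (3 * U * l ^ 2) (3 * l ^ 3),
    v (U * (L + H)) (2 * (L * H)) (U * (L + H)) (L ^ 2 + H ^ 2) (U ^ 2 * (2 * l + h)) (U * (l ^ 2 + 2 * (l * h))) (3 * (l ^ 2 * h)),
    v (U * (L + H)) (2 * (L * H)) (U * (L + H)) (L ^ 2 + H ^ 2) (U ^ 2 * (l + 2 * h)) (U * (2 * (l * h) + h ^ 2)) (3 * (l * h ^ 2)),
    v (U * (L + H)) (2 * (L * H)) (U * (L + H)) (L ^ 2 + H ^ 2) (3 * U ^ 2 * h) (3 * U * h ^ 2) (3 * h ^ 3),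
    v (2 * U * H) (2 * H ^ 2) (2 * U * L) (2 * (L * H)) (3 * U ^ 2 * l) (3 * U * l ^ 2) (3 * l ^ 3),
    v (2 * U * H) (2 * H ^ 2) (2 * U * L) (2 * (L * H)) (U ^ 2 * (2 * l + h)) (U * (l ^ 2 + 2 * (l * h))) (3 * (l ^ 2 * h)),
    v (2 * U * H) (2 * H ^ 2) (2 * U * L) (2 * (L * H)) (U ^ 2 * (l + 2 * h)) (U * (2 * (l * h) + h ^ 2)) (3 * (l * h ^ 2)),
    v (2 * U * H) (2 * H ^ 2) (2 * U * L) (2 * (L * H)) (3 * U ^ 2 * h) (3 * U * h ^ 2) (3 * h ^ 3) ]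

/-- the twelve combinations of the control values of a cell -/
def ctrl12 {α : Type} (U L H l h : Nat) (v : Nat → Nat → Nat → Nat → Nat → Nat → Nat → α) : List α :=
  [ v (2 * U * L) (2 * L ^ 2) (2 * U * H) (2 * (L * H)) (3 * U ^ 2 * l) (3 * U * l ^ 2) (3 * l ^ 3),
    v (2 * U * L) (2 * L ^ 2) (2 * U * H) (2 * (L * H)) (U ^ 2 * (2 * l + h)) (U * (l ^ 2 + 2 * (l * h))) (3 * (l ^ 2 * h)),
    v (2 * U * L) (2 * L ^ 2) (2 * U * H) (2 * (L * H)) (U ^ 2 * (l + 2 * h)) (U * (2 * (l * h) + h ^ 2)) (3 * (l * h ^ 2)),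
    v (2 * U * L) (2 * L ^ 2) (2 * U * H) (2 * (L * H)) (3 * U ^ 2 * h) (3 * U * h ^ 2) (3 * h ^ 3),
    v (U * (L + H)) (2 * (L * H)) (U * (L + H)) (L ^ 2 + H ^ 2) (3 * U ^ 2 * l) (3 * U * l ^ 2) (3 * l ^ 3),
    v (U * (L + H)) (2 * (L * H)) (U * (L + H)) (L ^ 2 + H ^ 2) (U ^ 2 * (2 * l + h)) (U * (l ^ 2 + 2 * (l * h))) (3 * (l ^ 2 * h)),
    v (U * (L + H)) (2 * (L * H)) (U * (L + H)) (L ^ 2 + H ^ 2) (U ^ 2 * (l + 2 * h)) (U * (2 * (l * h) + h ^ 2)) (3 * (l * h ^ 2)),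
    v (U * (L + H)) (2 * (L * H)) (U * (L + H)) (L ^ 2 + H ^ 2) (3 * U ^ 2 * h) (3 * U * h ^ 2) (3 * h ^ 3),
    v (2 * U * H) (2 * H ^ 2) (2 * U * L) (2 * (L * H)) (3 * U ^ 2 * l) (3 * U * l ^ 2) (3 * l ^ 3),
    v (2 * U * H) (2 * H ^ 2) (2 * U * L) (2 * (L * H)) (U ^ 2 * (2 * l + h)) (U * (l ^ 2 + 2 * (l * h))) (3 * (l ^ 2 * h)),
    v (2 * U * H) (2 * H ^ 2) (2 * U * L) (2 * (L * H)) (U ^ 2 * (l + 2 * h)) (U * (2 * (l * h) + h ^ 2)) (3 * (l * h ^ 2)),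
    v (2 * U * H) (2 * H ^ 2) (2 * U * L) (2 * (L * H)) (3 * U ^ 2 * h) (3 * U * h ^ 2) (3 * h ^ 3) ]

/-- the scale of the third lower corner -/
def neE (U L H : Nat) : Nat := (12 * U - L) * (12 * U - H)

/-- the twelve minuends of the third lower corner -/
def listNeP (U L H l h : Nat) : List V :=
  ctrl12 U L H l h fun s1 s2 b1 b2 n1 n2 n3 => vNeP (neE U L H) (48 * U ^ 2) (2 * U ^ 2) s1 s2 b1 b2 (3 * U ^ 3) n1 n2 n3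

/-- the twelve subtrahends of the third lower corner -/
def listNeM (U L H l h : Nat) : List V :=
  ctrl12 U L H l h fun s1 s2 b1 b2 n1 n2 n3 => vNeM (neE U L H) (48 * U ^ 2) (2 * U ^ 2) s1 s2 b1 b2 (3 * U ^ 3) n1 n2 n3

/-- the twelve control points of the third lower corner -/
def listNe (U L H l h : Nat) : List V :=
  ctrl12 U L H l h fun s1 s2 b1 b2 n1 n2 n3 => vNe (neE U L H) (48 * U ^ 2) (2 * U ^ 2) s1 s2 b1 b2 (3 * U ^ 3) n1 n2 n3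

/-- the test that the third lower corner may be used -/
def neGuard (U L H l h : Nat) : Bool :=
  and (Nat.ble (Nat.add H 1) (Nat.mul 12 U))
    (List.all (ctrl12 U L H l h fun s1 s2 b1 b2 n1 n2 n3 =>
      neOK (neE U L H) (48 * U ^ 2) (2 * U ^ 2) s1 s2 b1 b2 (3 * U ^ 3) n1 n2 n3) id)

/-- all control points of a cell: lower corners and upper corners alternate -/
def zipAlt : List V → List V → List V
  | a :: as, b :: bs => a :: b :: zipAlt as bs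
  | _, _ => []

/-- the control points of a cell -/
def cellV (U L H l h : Nat) (f g : Bool) : List V :=
  zipAlt (cond g (listNe U L H l h) (listLo U L H l h)) (cond f (listCh U L H l h) (listHi U L H l h))

end Vale.Agent.Lib.P154Q5
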