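import Vale.Agent.Lib.P154Q5.Hull

namespace Vale.Agent.Lib.P154Q5

theorem lo_nonneg {u : VR} {U L H l h : Nat} (hu : ∀ v ∈ listLo U L H l h, 0 ≤ dotR u v.r)
    {S τ A0 A1 A2 B0 B1 B2 B3 : ℝ} (sw : SW U L H S A0 A1 A2) (nw : NW U l h τ B0 B1 B2 B3) :
    0 ≤ dotR u (ptF S τ (3 * S + 12 * τ ^ 2 + 52)) := by
  have e := bil_lo u A0 A1 A2 B0 B1 B2 B3 (2 * (U : ℝ) ^ 2) (3 * (U : ℝ) ^ 3) (2 * U * L) (U * (L + H)) (2 * U * H)
    (2 * (L : ℝ) ^ 2) (2 * (L * H)) (2 * (H : ℝ) ^ 2)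
    (3 * (U : ℝ) ^ 2 * l) ((U : ℝ) ^ 2 * (2 * l + h)) ((U : ℝ) ^ 2 * (l + 2 * h)) (3 * (U : ℝ) ^ 2 * h)
    (3 * U * (l : ℝ) ^ 2) (U * ((l : ℝ) ^ 2 + 2 * (l * h))) (U * (2 * (l * h) + (h : ℝ) ^ 2)) (3 * U * (h : ℝ) ^ 2)
    (3 * (l : ℝ) ^ 3) (3 * ((l : ℝ) ^ 2 * h)) (3 * (l * (h : ℝ) ^ 2)) (3 * (h : ℝ) ^ 3)
  rw [sw.m0, sw.m1, sw.m2, nw.m0, nw.m1, nw.m2, nw.m3, lo_moment] at e
  rw [e]
  simp only [listLo, List.forall_mem_cons, List.not_mem_nil, false_imp_iff, implies_true, and_true, vLo_r] at hu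
  push_cast at hu
  obtain ⟨h1, h2, h3, h4, h5, h6, h7, h8, h9, h10, h11, h12⟩ := hu
  have p : ∀ {a b c : ℝ}, 0 ≤ a → 0 ≤ b → 0 ≤ c → 0 ≤ a * b * c := fun ha hb hc => mul_nonneg (mul_nonneg ha hb) hc
  have a0 := sw.n0; have a1 := sw.n1; have a2 := sw.n2
  have b0 := nw.n0; have b1 := nw.n1; have b2 := nw.n2; have b3 := nw.n3
  have := p a0 b0 h1; have := p a0 b1 h2; have := p a0 b2 h3; have := p a0 b3 h4
  have := p a1 b0 h5; have := p a1 b1 h6; have := p a1 b2 h7; have := p a1 b3 h8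
  have := p a2 b0 h9; have := p a2 b1 h10; have := p a2 b2 h11; have := p a2 b3 h12
  linarith

theorem hi_nonneg {u : VR} {U L H l h : Nat} (hu : ∀ v ∈ listHi U L H l h, 0 ≤ dotR u v.r)
    {S τ A0 A1 A2 B0 B1 B2 B3 : ℝ} (sw : SW U L H S A0 A1 A2) (nw : NW U l h τ B0 B1 B2 B3) :
    0 ≤ dotR u (ptF S τ (6 * S + 3 * τ ^ 2 + 18 * τ + 43)) := by
  have e := bil_hi u A0 A1 A2 B0 B1 B2 B3 (2 * (U : ℝ) ^ 2) (3 * (U : ℝ) ^ 3) (2 * U * L) (U * (L + H)) (2 * U * H)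
    (2 * (L : ℝ) ^ 2) (2 * (L * H)) (2 * (H : ℝ) ^ 2)
    (3 * (U : ℝ) ^ 2 * l) ((U : ℝ) ^ 2 * (2 * l + h)) ((U : ℝ) ^ 2 * (l + 2 * h)) (3 * (U : ℝ) ^ 2 * h)
    (3 * U * (l : ℝ) ^ 2) (U * ((l : ℝ) ^ 2 + 2 * (l * h))) (U * (2 * (l * h) + (h : ℝ) ^ 2)) (3 * U * (h : ℝ) ^ 2)
    (3 * (l : ℝ) ^ 3) (3 * ((l : ℝ) ^ 2 * h)) (3 * (l * (h : ℝ) ^ 2)) (3 * (h : ℝ) ^ 3)
  rw [sw.m0, sw.m1, sw.m2, nw.m0, nw.m1, nw.m2, nw.m3, hi_moment] at e
  rw [e]
  simp only [listHi, List.forall_mem_cons, List.not_mem_nil, false_imp_iff, implies_true, and_true, vHi_r] at hu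
  push_cast at hu
  obtain ⟨h1, h2, h3, h4, h5, h6, h7, h8, h9, h10, h11, h12⟩ := hu
  have p : ∀ {a b c : ℝ}, 0 ≤ a → 0 ≤ b → 0 ≤ c → 0 ≤ a * b * c := fun ha hb hc => mul_nonneg (mul_nonneg ha hb) hc
  have a0 := sw.n0; have a1 := sw.n1; have a2 := sw.n2
  have b0 := nw.n0; have b1 := nw.n1; have b2 := nw.n2; have b3 := nw.n3
  have := p a0 b0 h1; have := p a0 b1 h2; have := p a0 b2 h3; have := p a0 b3 h4
  have := p a1 b0 h5; have := p a1 b1 h6; have := p a1 b2 h7; have := p a1 b3 h8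
  have := p a2 b0 h9; have := p a2 b1 h10; have := p a2 b2 h11; have := p a2 b3 h12
  linarith

theorem ch_nonneg {u : VR} {U L H l h : Nat} (hu : ∀ v ∈ listCh U L H l h, 0 ≤ dotR u v.r)
    {S τ A0 A1 A2 B0 B1 B2 B3 q : ℝ} (sw : SW U L H S A0 A1 A2) (nw : NW U l h τ B0 B1 B2 B3)
    (hE : 0 < (L : ℝ) * H)
    (hq : (L : ℝ) * H * q = 48 * (U : ℝ) ^ 2 * ((L + H) / U - S) + L * H * (40 * τ + 6 * S)) :
    0 ≤ dotR u (ptF S τ q) := by
  have e := bil_ch u ((L : ℝ) * H) (48 * (U : ℝ) ^ 2) A0 A1 A2 B0 B1 B2 B3 (2 * (U : ℝ) ^ 2) (3 * (U : ℝ) ^ 3)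
    (2 * U * L) (U * (L + H)) (2 * U * H)
    (2 * (L : ℝ) ^ 2) (2 * (L * H)) (2 * (H : ℝ) ^ 2)
    (2 * U * H) (U * (L + H)) (2 * U * L)
    (2 * (L * H)) ((L : ℝ) ^ 2 + (H : ℝ) ^ 2) (2 * (L * H))
    (3 * (U : ℝ) ^ 2 * l) ((U : ℝ) ^ 2 * (2 * l + h)) ((U : ℝ) ^ 2 * (l + 2 * h)) (3 * (U : ℝ) ^ 2 * h)
    (3 * U * (l : ℝ) ^ 2) (U * ((l : ℝ) ^ 2 + 2 * (l * h))) (U * (2 * (l * h) + (h : ℝ) ^ 2)) (3 * U * (h : ℝ) ^ 2)
    (3 * (l : ℝ) ^ 3) (3 * ((l : ℝ) ^ 2 * h)) (3 * (l * (h : ℝ) ^ 2)) (3 * (h : ℝ) ^ 3)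
  rw [sw.m0, sw.m1, sw.m2, sw.m3, sw.m4, nw.m0, nw.m1, nw.m2, nw.m3, ch_moment u _ _ S τ _ q hq] at e
  simp only [listCh, List.forall_mem_cons, List.not_mem_nil, false_imp_iff, implies_true, and_true, vCh_r] at hu
  push_cast at hu
  obtain ⟨h1, h2, h3, h4, h5, h6, h7, h8, h9, h10, h11, h12⟩ := hu
  have p : ∀ {a b c : ℝ}, 0 ≤ a → 0 ≤ b → 0 ≤ c → 0 ≤ a * b * c := fun ha hb hc => mul_nonneg (mul_nonneg ha hb) hc
  have a0 := sw.n0; have a1 := sw.n1; have a2 := sw.n2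
  have b0 := nw.n0; have b1 := nw.n1; have b2 := nw.n2; have b3 := nw.n3
  have := p a0 b0 h1; have := p a0 b1 h2; have := p a0 b2 h3; have := p a0 b3 h4
  have := p a1 b0 h5; have := p a1 b1 h6; have := p a1 b2 h7; have := p a1 b3 h8
  have := p a2 b0 h9; have := p a2 b1 h10; have := p a2 b2 h11; have := p a2 b3 h12
  have h0 : 0 ≤ (L : ℝ) * H * dotR u (ptF S τ q) := by
    rw [e]
    linarith
  exact nonneg_of_mul_nonneg_right h0 hE

theorem ne_nonneg {u : VR} {U L H l h : Nat} (hu : ∀ v ∈ listNe U L H l h, 0 ≤ dotR u v.r) (hg : neGuard U L H l h = true)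
    {S τ A0 A1 A2 B0 B1 B2 B3 q : ℝ} (sw : SW U L H S A0 A1 A2) (nw : NW U l h τ B0 B1 B2 B3)
    (hE : 0 < ((neE U L H : ℕ) : ℝ))
    (hq : ((neE U L H : ℕ) : ℝ) * q = ((neE U L H : ℕ) : ℝ) * (6 * S + 64 + 8 * τ + 4 * τ ^ 2)
      - (((48 * U ^ 2 : ℕ) : ℝ)) * (12 - ((L + H) / U - S)) * (3 - τ) ^ 2) :
    0 ≤ dotR u (ptF S τ q) := by
  have e := bil_ne u ((neE U L H : ℕ) : ℝ) ((48 * U ^ 2 : ℕ) : ℝ) A0 A1 A2 B0 B1 B2 B3 (2 * (U : ℝ) ^ 2) (3 * (U : ℝ) ^ 3)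
    (2 * U * L) (U * (L + H)) (2 * U * H)
    (2 * (L : ℝ) ^ 2) (2 * (L * H)) (2 * (H : ℝ) ^ 2)
    (2 * U * H) (U * (L + H)) (2 * U * L)
    (2 * (L * H)) ((L : ℝ) ^ 2 + (H : ℝ) ^ 2) (2 * (L * H))
    (3 * (U : ℝ) ^ 2 * l) ((U : ℝ) ^ 2 * (2 * l + h)) ((U : ℝ) ^ 2 * (l + 2 * h)) (3 * (U : ℝ) ^ 2 * h)
    (3 * U * (l : ℝ) ^ 2) (U * ((l : ℝ) ^ 2 + 2 * (l * h))) (U * (2 * (l * h) + (h : ℝ) ^ 2)) (3 * U * (h : ℝ) ^ 2)
    (3 * (l : ℝ) ^ 3) (3 * ((l : ℝ) ^ 2 * h)) (3 * (l * (h : ℝ) ^ 2)) (3 * (h : ℝ) ^ 3)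
  rw [sw.m0, sw.m1, sw.m2, sw.m3, sw.m4, nw.m0, nw.m1, nw.m2, nw.m3, ne_moment u _ _ S τ _ q hq] at e
  simp only [neGuard, ctrl12, List.all_cons, List.all_nil, id, Bool.and_eq_true, Bool.and_true] at hg
  obtain ⟨_, g1, g2, g3, g4, g5, g6, g7, g8, g9, g10, g11, g12⟩ := hg
  simp only [listNe, ctrl12, List.forall_mem_cons, List.not_mem_nil, false_imp_iff, implies_true, and_true] at hu
  obtain ⟨h1, h2, h3, h4, h5, h6, h7, h8, h9, h10, h11, h12⟩ := hu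
  rw [vNe_r g1] at h1
  rw [vNe_r g2] at h2
  rw [vNe_r g3] at h3
  rw [vNe_r g4] at h4
  rw [vNe_r g5] at h5
  rw [vNe_r g6] at h6
  rw [vNe_r g7] at h7
  rw [vNe_r g8] at h8
  rw [vNe_r g9] at h9
  rw [vNe_r g10] at h10
  rw [vNe_r g11] at h11
  rw [vNe_r g12] at h12
  generalize ((neE U L H : ℕ) : ℝ) = E' at *
  generalize ((48 * U ^ 2 : ℕ) : ℝ) = W' at *
  push_cast at h1 h2 h3 h4 h5 h6 h7 h8 h9 h10 h11 h12
  have p : ∀ {a b c : ℝ}, 0 ≤ a → 0 ≤ b → 0 ≤ c → 0 ≤ a * b * c := fun ha hb hc => mul_nonneg (mul_nonneg ha hb) hc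
  have a0 := sw.n0; have a1 := sw.n1; have a2 := sw.n2
  have b0 := nw.n0; have b1 := nw.n1; have b2 := nw.n2; have b3 := nw.n3
  have := p a0 b0 h1; have := p a0 b1 h2; have := p a0 b2 h3; have := p a0 b3 h4
  have := p a1 b0 h5; have := p a1 b1 h6; have := p a1 b2 h7; have := p a1 b3 h8
  have := p a2 b0 h9; have := p a2 b1 h10; have := p a2 b2 h11; have := p a2 b3 h12
  have h0 : 0 ≤ E' * dotR u (ptF S τ q) := by
    rw [e]
    linarith
  exact nonneg_of_mul_nonneg_right h0 hE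

theorem mem_zipAlt {a b : List V} (hl : a.length = b.length) (v : V) (h : v ∈ a ∨ v ∈ b) : v ∈ zipAlt a b := by
  induction a generalizing b with
  | nil =>
    cases b with
    | nil => simp at h
    | cons _ _ => simp at hl
  | cons x xs ih =>
    cases b with
    | nil => simp at hl
    | cons y ys =>
      have hl' : xs.length = ys.length := by simpa using hl
      simp only [zipAlt, List.mem_cons]
      simp only [List.mem_cons] at h
      rcases h with (h | h) | (h | h)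
      · exact Or.inl h
      · exact Or.inr (Or.inr (ih hl' (Or.inl h)))
      · exact Or.inr (Or.inl h)
      · exact Or.inr (Or.inr (ih hl' (Or.inr h)))

/-- Every point of a cell lies in the cone over the control points of the cell. -/
theorem hull_cell {U L H l h : ℕ} (hU : 0 < U) (hLH : L < H) (hlh : l < h) {f g : Bool} (hf : f = true → 0 < L)
    (hg : g = true → neGuard U L H l h = true)
    {S τ q : ℝ} (hd : Dom S τ q) (h1 : (L : ℝ) ≤ U * S) (h2 : U * S ≤ H) (h3 : (l : ℝ) ≤ U * τ)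
    (h4 : U * τ ≤ h) : Hull (ptF S τ q) (cellV U L H l h f g) := by
  intro u hu
  have hU' : (0 : ℝ) < U := by exact_mod_cast hU
  have hLH' : (L : ℝ) < H := by exact_mod_cast hLH
  have hlh' : (l : ℝ) < h := by exact_mod_cast hlh
  obtain ⟨A0, A1, A2, sw⟩ := exists_SW hU' hLH' h1 h2
  obtain ⟨B0, B1, B2, B3, nw⟩ := exists_NW hU' hlh' h3 h4
  have hLow : ∀ v ∈ cond g (listNe U L H l h) (listLo U L H l h), 0 ≤ dotR u v.r := by
    intro v hv
    apply hu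
    unfold cellV
    cases g <;> cases f
    · exact mem_zipAlt (a := listLo U L H l h) (b := listHi U L H l h) rfl v (Or.inl hv)
    · exact mem_zipAlt (a := listLo U L H l h) (b := listCh U L H l h) rfl v (Or.inl hv)
    · exact mem_zipAlt (a := listNe U L H l h) (b := listHi U L H l h) rfl v (Or.inl hv)
    · exact mem_zipAlt (a := listNe U L H l h) (b := listCh U L H l h) rfl v (Or.inl hv)
  have hUpp : ∀ v ∈ cond f (listCh U L H l h) (listHi U L H l h), 0 ≤ dotR u v.r := by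
    intro v hv
    apply hu
    unfold cellV
    cases g <;> cases f
    · exact mem_zipAlt (a := listLo U L H l h) (b := listHi U L H l h) rfl v (Or.inr hv)
    · exact mem_zipAlt (a := listLo U L H l h) (b := listCh U L H l h) rfl v (Or.inr hv)
    · exact mem_zipAlt (a := listNe U L H l h) (b := listHi U L H l h) rfl v (Or.inr hv)
    · exact mem_zipAlt (a := listNe U L H l h) (b := listCh U L H l h) rfl v (Or.inr hv)
  -- the lower corner
  obtain ⟨q0, hq0, p0⟩ : ∃ q0, q0 ≤ q ∧ 0 ≤ dotR u (ptF S τ q0) := by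
    cases g with
    | false =>
      exact ⟨_, hd.lo, lo_nonneg hLow sw nw⟩
    | true =>
      have hG := hg rfl
      have hG2 := hG
      simp only [neGuard, Bool.and_eq_true] at hG2
      have hH12 := Nat.le_of_ble_eq_true hG2.1
      simp only [Nat.add_eq, Nat.mul_eq] at hH12
      have hH12' : (H : ℝ) + 1 ≤ 12 * U := by exact_mod_cast hH12
      have e1 : ((neE U L H : ℕ) : ℝ) = (12 * U - L) * (12 * U - H) := by
        unfold neE
        rw [Nat.cast_mul, Nat.cast_sub (by omega), Nat.cast_sub (by omega)]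
        push_cast
        ring
      have hE : 0 < ((neE U L H : ℕ) : ℝ) := by
        rw [e1]
        apply mul_pos <;> linarith
      have e2 : ((48 * U ^ 2 : ℕ) : ℝ) = 48 * (U : ℝ) ^ 2 := by push_cast; ring
      set q2 : ℝ := 6 * S + 64 + 8 * τ + 4 * τ ^ 2
        - ((48 * U ^ 2 : ℕ) : ℝ) * (12 - ((L + H) / U - S)) * (3 - τ) ^ 2 / ((neE U L H : ℕ) : ℝ) with hq2
      have eq2 : ((neE U L H : ℕ) : ℝ) * q2 = ((neE U L H : ℕ) : ℝ) * (6 * S + 64 + 8 * τ + 4 * τ ^ 2)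
          - (((48 * U ^ 2 : ℕ) : ℝ)) * (12 - ((L + H) / U - S)) * (3 - τ) ^ 2 := by
        rw [hq2]
        field_simp
      refine ⟨q2, ?_, ne_nonneg hLow hG sw nw hE eq2⟩
      -- the chord
      have hS12 : U * S < 12 * U := by linarith
      have hS12' : 0 < 12 - S := by
        have : (U : ℝ) * S < U * 12 := by linarith
        have := lt_of_mul_lt_mul_left this hU'.le
        linarith
      have key : ((neE U L H : ℕ) : ℝ) ≤ (U : ℝ) ^ 2 * (12 - ((L + H) / U - S)) * (12 - S) := by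
        rw [e1]
        have e3 : (U : ℝ) ^ 2 * (12 - ((L + H) / U - S)) * (12 - S) = (12 * U - L - H + U * S) * (12 * U - U * S) := by
          field_simp
          ring
        rw [e3]
        nlinarith [mul_nonneg (sub_nonneg.2 h1) (sub_nonneg.2 h2)]
      have hlo2 := hd.lo2
      rw [hq2, e2]
      have hsq := sq_nonneg (3 - τ)
      have hE2 : (48 * (U : ℝ) ^ 2 * (12 - ((L + H) / U - S)) * (3 - τ) ^ 2) / ((neE U L H : ℕ) : ℝ) ≥ 48 * (3 - τ) ^ 2 / (12 - S) := by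
        rw [ge_iff_le, div_le_div_iff₀ hS12' hE]
        have := mul_le_mul_of_nonneg_left key (by positivity : 0 ≤ 48 * (3 - τ) ^ 2)
        nlinarith
      have e5 : q - (6 * S + 64 + 8 * τ + 4 * τ ^ 2) ≥ - (48 * (3 - τ) ^ 2 / (12 - S)) := by
        have e6 : 48 * (3 - τ) ^ 2 / (12 - S) * (12 - S) = 48 * (3 - τ) ^ 2 := by field_simp
        have e7 : (12 - S) * (q - (6 * S + 64 + 8 * τ + 4 * τ ^ 2) + 48 * (3 - τ) ^ 2 / (12 - S)) ≥ 0 := by
          have : (12 - S) * (q - (6 * S + 64 + 8 * τ + 4 * τ ^ 2) + 48 * (3 - τ) ^ 2 / (12 - S))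
              = (12 - S) * (q - 6 * S - 64 - 8 * τ - 4 * τ ^ 2) + 48 * (3 - τ) ^ 2 / (12 - S) * (12 - S) := by ring
          rw [this, e6]
          exact hlo2
        have := nonneg_of_mul_nonneg_right e7 hS12'
        linarith
      linarith
  -- the upper corner
  obtain ⟨q1, hq1, p1⟩ : ∃ q1, q ≤ q1 ∧ 0 ≤ dotR u (ptF S τ q1) := by
    cases f with
    | false =>
      exact ⟨_, hd.hi, hi_nonneg hUpp sw nw⟩
    | true =>
      have hL : 0 < L := hf rfl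
      have hL' : (0 : ℝ) < L := by exact_mod_cast hL
      have hH' : (0 : ℝ) < H := by linarith
      have hE : 0 < (L : ℝ) * H := by positivity
      have hS : 0 < S := by
        have : 0 < U * S := by linarith
        exact (pos_iff_pos_of_mul_pos this).1 hU'
      set q2 : ℝ := (48 * (U : ℝ) ^ 2 * ((L + H) / U - S) + L * H * (40 * τ + 6 * S)) / (L * H) with hq2
      have eq2 : (L : ℝ) * H * q2 = 48 * (U : ℝ) ^ 2 * ((L + H) / U - S) + L * H * (40 * τ + 6 * S) := by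
        rw [hq2]; field_simp
      have p1 := ch_nonneg hUpp sw nw hE eq2
      have hqq : q ≤ q2 := by
        have e1 : S * q ≤ 48 + S * (40 * τ + 6 * S) := hd.hi2
        have e2 : (L : ℝ) * H ≤ S * (U * (L + H) - U ^ 2 * S) := by
          nlinarith [mul_nonneg (sub_nonneg.2 h1) (sub_nonneg.2 h2)]
        have e3 : q2 = 48 * (U * (L + H) - U ^ 2 * S) / (L * H) + 40 * τ + 6 * S := by
          rw [hq2]; field_simp; ring
        rw [e3]
        have e4 : 48 / S ≤ 48 * (U * (L + H) - U ^ 2 * S) / (L * H) := by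
          rw [div_le_div_iff₀ hS hE]
          nlinarith
        have e5 : q ≤ 48 / S + 40 * τ + 6 * S := by
          have : q = (S * q) / S := by field_simp
          rw [this]
          have e6 : (S * q) / S ≤ (48 + S * (40 * τ + 6 * S)) / S := by
            apply div_le_div_of_nonneg_right e1 hS.le
          have e7 : (48 + S * (40 * τ + 6 * S)) / S = 48 / S + 40 * τ + 6 * S := by
            field_simp
            ring
          linarith
        linarith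
      exact ⟨q2, hqq, p1⟩
  obtain ⟨μ0, μ1, m0, m1, ms, mq⟩ := exists_mix hq0 hq1
  rw [dot_affine u S τ q _ _ μ0 μ1 ms mq]
  have := mul_nonneg m0 p0
  have := mul_nonneg m1 p1
  linarith

end Vale.Agent.Lib.P154Q5
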