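import Mathlib.Tactic
import Mathlib.Data.Real.Basic

/-!
Invariants of a point of the simplex `{a : a_i ≥ 0, Σ a_i = 4}`: `S = Σ (a_i - 1)^2`,
`T = Σ (a_i - 1)^3`, `Q = Σ (a_i - 1)^4`, and the region they lie in.
-/

namespace Vale.Agent.Lib.P154Q5

/-- the quadratic invariant -/
def sS (a b c d : ℝ) : ℝ := (a - 1) ^ 2 + (b - 1) ^ 2 + (c - 1) ^ 2 + (d - 1) ^ 2
/-- the cubic invariant -/
def sT (a b c d : ℝ) : ℝ := (a - 1) ^ 3 + (b - 1) ^ 3 + (c - 1) ^ 3 + (d - 1) ^ 3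
/-- the quartic invariant -/
def sQ (a b c d : ℝ) : ℝ := (a - 1) ^ 4 + (b - 1) ^ 4 + (c - 1) ^ 4 + (d - 1) ^ 4

/-- a point of the simplex -/
structure IsD (a b c d : ℝ) : Prop where
  ha : 0 ≤ a
  hb : 0 ≤ b
  hc : 0 ≤ c
  hd : 0 ≤ d
  sum : a + b + c + d = 4

theorem sS_nonneg (a b c d : ℝ) : 0 ≤ sS a b c d := by
  unfold sS; positivity

theorem IsD.sS_le {a b c d : ℝ} (h : IsD a b c d) : sS a b c d ≤ 12 := by
  obtain ⟨ha, hb, hc, hd, hs⟩ := h
  have e : d = 4 - a - b - c := by linarith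
  subst e
  unfold sS
  nlinarith [mul_nonneg ha hb, mul_nonneg ha hc, mul_nonneg ha hd, mul_nonneg hb hc, mul_nonneg hb hd,
    mul_nonneg hc hd]

/-- `e₃ ≥ 0` -/
theorem IsD.e3 {a b c d : ℝ} (h : IsD a b c d) : 3 * sS a b c d - 12 ≤ sT a b c d := by
  obtain ⟨ha, hb, hc, hd, hs⟩ := h
  have p1 := mul_nonneg (mul_nonneg ha hb) hc
  have p2 := mul_nonneg (mul_nonneg ha hb) hd
  have p3 := mul_nonneg (mul_nonneg ha hc) hd
  have p4 := mul_nonneg (mul_nonneg hb hc) hd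
  have key : sT a b c d - 3 * sS a b c d + 12 = 3 * (a * b * c + a * b * d + a * c * d + b * c * d) := by
    have e : d = 4 - a - b - c := by linarith
    subst e
    unfold sT sS
    ring
  linarith

/-- `e₄ ≥ 0` -/
theorem IsD.e4 {a b c d : ℝ} (h : IsD a b c d) :
    sQ a b c d ≤ 4 - 2 * sS a b c d + 4 / 3 * sT a b c d + sS a b c d ^ 2 / 2 := by
  obtain ⟨ha, hb, hc, hd, hs⟩ := h
  have p := mul_nonneg (mul_nonneg (mul_nonneg ha hb) hc) hd
  have key : 4 - 2 * sS a b c d + 4 / 3 * sT a b c d + sS a b c d ^ 2 / 2 - sQ a b c d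
      = 4 * (a * b * c * d) := by
    have e : d = 4 - a - b - c := by linarith
    subst e
    unfold sT sS sQ
    ring
  linarith

/-- the Gram determinant of `1, v, v²` -/
theorem IsD.gram {a b c d : ℝ} (h : a + b + c + d = 4) :
    sS a b c d ^ 3 / 4 + sT a b c d ^ 2 ≤ sS a b c d * sQ a b c d := by
  have key : sS a b c d * sQ a b c d - sS a b c d ^ 3 / 4 - sT a b c d ^ 2
      = ((a - b) * (b - c) * (a - c)) ^ 2 / 4 + ((a - b) * (b - d) * (a - d)) ^ 2 / 4
        + ((a - c) * (c - d) * (a - d)) ^ 2 / 4 + ((b - c) * (c - d) * (b - d)) ^ 2 / 4 := by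
    have e : d = 4 - a - b - c := by linarith
    subst e
    unfold sT sS sQ
    ring
  have : 0 ≤ ((a - b) * (b - c) * (a - c)) ^ 2 / 4 + ((a - b) * (b - d) * (a - d)) ^ 2 / 4
        + ((a - c) * (c - d) * (a - d)) ^ 2 / 4 + ((b - c) * (c - d) * (b - d)) ^ 2 / 4 := by positivity
  linarith

/-- the auxiliary inequality behind the upper bound for `Q` -/
theorem aux_f {A R W : ℝ} (hA : 0 ≤ A) (hR : 0 ≤ R) (hW : 0 ≤ W) :
    0 ≤ 4 * (4 * A + 2 * R + 2 * W) * ((A - R) * (A - W)) + 9 * A * (R - W) ^ 2 := by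
  have main : ∀ {R W : ℝ}, 0 ≤ R → 0 ≤ W → R ≤ A → A ≤ W →
      0 ≤ 4 * (4 * A + 2 * R + 2 * W) * ((A - R) * (A - W)) + 9 * A * (R - W) ^ 2 := by
    intro R W hR hW h1 h2
    have hu : 0 ≤ A - R := by linarith
    have hw : 0 ≤ W - A := by linarith
    have key : 4 * (4 * A + 2 * R + 2 * W) * ((A - R) * (A - W)) + 9 * A * (R - W) ^ 2
        = R * (9 * (A - R) ^ 2 - 14 * (A - R) * (W - A) + 9 * (W - A) ^ 2)
          + (A - R) * (3 * (A - R) - (W - A)) ^ 2 := by ring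
    rw [key]
    have q : 0 ≤ 9 * (A - R) ^ 2 - 14 * (A - R) * (W - A) + 9 * (W - A) ^ 2 := by
      nlinarith [sq_nonneg ((A - R) - (W - A)), sq_nonneg ((A - R) + (W - A)), sq_nonneg (A - R),
        sq_nonneg (W - A)]
    positivity
  by_cases h : 0 ≤ (A - R) * (A - W)
  · positivity
  · push Not at h
    rcases le_total R A with h1 | h1
    · have h2 : A ≤ W := by
        by_contra h3
        push Not at h3
        have : 0 ≤ (A - R) * (A - W) := mul_nonneg (by linarith) (by linarith)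
        linarith
      exact main hR hW h1 h2
    · have h2 : W ≤ A := by
        by_contra h3
        push Not at h3
        have : 0 ≤ (A - R) * (A - W) := mul_nonneg_of_nonpos_of_nonpos (by linarith) (by linarith)
        linarith
      have := main hW hR h2 h1
      have e : 4 * (4 * A + 2 * W + 2 * R) * ((A - W) * (A - R)) + 9 * A * (W - R) ^ 2
          = 4 * (4 * A + 2 * R + 2 * W) * ((A - R) * (A - W)) + 9 * A * (R - W) ^ 2 := by ring
      linarith

/-- the upper bound for `Q` in terms of `S, T` -/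
theorem IsD.upper {a b c d : ℝ} (h : a + b + c + d = 4) :
    sS a b c d * sQ a b c d ≤ sS a b c d ^ 3 / 2 + sT a b c d ^ 2 / 4 := by
  set p := (a + b - 2) / 2 with hp
  set r := (a - b) / 2 with hr
  set s := (c - d) / 2 with hs
  have ea : a - 1 = p + r := by rw [hp, hr]; ring
  have eb : b - 1 = p - r := by rw [hp, hr]; ring
  have ec : c - 1 = -p + s := by rw [hp, hs]; linarith
  have ed : d - 1 = -p - s := by rw [hp, hs]; linarith
  have eS : sS a b c d = 4 * p ^ 2 + 2 * r ^ 2 + 2 * s ^ 2 := by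
    unfold sS; rw [ea, eb, ec, ed]; ring
  have eT : sT a b c d = 6 * p * (r ^ 2 - s ^ 2) := by
    unfold sT; rw [ea, eb, ec, ed]; ring
  have eQ : sQ a b c d = 4 * p ^ 4 + 12 * p ^ 2 * (r ^ 2 + s ^ 2) + 2 * r ^ 4 + 2 * s ^ 4 := by
    unfold sQ; rw [ea, eb, ec, ed]; ring
  have key := aux_f (sq_nonneg p) (sq_nonneg r) (sq_nonneg s)
  rw [eS, eT, eQ]
  nlinarith [key]

/-- the inequality of Newton for the products of three coordinates -/
theorem IsD.newton {a b c d : ℝ} (h : a + b + c + d = 4) :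
    0 ≤ 3 * (4 - sS a b c d + sT a b c d / 3) ^ 2
      - 8 * (6 - sS a b c d / 2) * (1 - sS a b c d / 2 + sT a b c d / 3 + sS a b c d ^ 2 / 8 - sQ a b c d / 4) := by
  have key : 3 * (4 - sS a b c d + sT a b c d / 3) ^ 2
      - 8 * (6 - sS a b c d / 2) * (1 - sS a b c d / 2 + sT a b c d / 3 + sS a b c d ^ 2 / 8 - sQ a b c d / 4)
      = (b * c * d - a * c * d) ^ 2 + (b * c * d - a * b * d) ^ 2 + (b * c * d - a * b * c) ^ 2
        + (a * c * d - a * b * d) ^ 2 + (a * c * d - a * b * c) ^ 2 + (a * b * d - a * b * c) ^ 2 := by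
    have e : d = 4 - a - b - c := by linarith
    subst e
    unfold sT sS sQ
    ring
  rw [key]
  positivity

/-- the normalized coordinates of a point: `τ = T / S + 1` -/
noncomputable def gτ (a b c d : ℝ) : ℝ := sT a b c d / sS a b c d + 1
/-- the normalized coordinates of a point: `qh = 12 Q / S + 24 τ + 40` -/
noncomputable def gq (a b c d : ℝ) : ℝ := 12 * (sQ a b c d / sS a b c d) + 24 * gτ a b c d + 40

/-- The region of normalized coordinates. -/
structure Dom (S τ q : ℝ) : Prop where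
  s0 : 0 ≤ S
  s12 : S ≤ 12
  t0 : 0 ≤ τ
  t3 : τ ≤ 3
  tS : 3 * (τ - 1) ^ 2 ≤ S
  lo : 3 * S + 12 * τ ^ 2 + 52 ≤ q
  hi : q ≤ 6 * S + 3 * τ ^ 2 + 18 * τ + 43
  hi2 : S * q ≤ 48 + S * (40 * τ + 6 * S)
  e3 : S * (4 - τ) ≤ 12
  lo2 : 0 ≤ (12 - S) * (q - 6 * S - 64 - 8 * τ - 4 * τ ^ 2) + 48 * (3 - τ) ^ 2

theorem sS_eq_zero {a b c d : ℝ} (h : sS a b c d = 0) : a = 1 ∧ b = 1 ∧ c = 1 ∧ d = 1 := by
  unfold sS at h
  have h1 : (a - 1) ^ 2 = 0 := by nlinarith [sq_nonneg (a - 1), sq_nonneg (b - 1), sq_nonneg (c - 1), sq_nonneg (d - 1)]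
  have h2 : (b - 1) ^ 2 = 0 := by nlinarith [sq_nonneg (a - 1), sq_nonneg (b - 1), sq_nonneg (c - 1), sq_nonneg (d - 1)]
  have h3 : (c - 1) ^ 2 = 0 := by nlinarith [sq_nonneg (a - 1), sq_nonneg (b - 1), sq_nonneg (c - 1), sq_nonneg (d - 1)]
  have h4 : (d - 1) ^ 2 = 0 := by nlinarith [sq_nonneg (a - 1), sq_nonneg (b - 1), sq_nonneg (c - 1), sq_nonneg (d - 1)]
  have e1 : a - 1 = 0 := by simpa using h1
  have e2 : b - 1 = 0 := by simpa using h2
  have e3 : c - 1 = 0 := by simpa using h3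
  have e4 : d - 1 = 0 := by simpa using h4
  exact ⟨by linarith, by linarith, by linarith, by linarith⟩

/-- the two identities that define the normalized coordinates -/
theorem T_eq {a b c d : ℝ} : sT a b c d = sS a b c d * (gτ a b c d - 1) := by
  by_cases h : sS a b c d = 0
  · obtain ⟨rfl, rfl, rfl, rfl⟩ := sS_eq_zero h
    unfold sS sT gτ sT sS; norm_num
  · unfold gτ
    field_simp
    ring

theorem Q_eq {a b c d : ℝ} :
    sQ a b c d = sS a b c d * ((gq a b c d - 24 * gτ a b c d - 40) / 12) := by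
  by_cases h : sS a b c d = 0
  · obtain ⟨rfl, rfl, rfl, rfl⟩ := sS_eq_zero h
    unfold sS sQ gq gτ sQ sS; norm_num
  · unfold gq
    field_simp
    ring

theorem IsD.dom {a b c d : ℝ} (h : IsD a b c d) :
    Dom (sS a b c d) (gτ a b c d) (gq a b c d) := by
  by_cases h0 : sS a b c d = 0
  · obtain ⟨rfl, rfl, rfl, rfl⟩ := sS_eq_zero h0
    refine ⟨?_, ?_, ?_, ?_, ?_, ?_, ?_, ?_, ?_, ?_⟩ <;> (simp only [gq, gτ, sS, sT, sQ]; norm_num)
  have hpos : 0 < sS a b c d := lt_of_le_of_ne (sS_nonneg a b c d) (Ne.symm h0)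
  have hle := h.sS_le
  have he3 := h.e3
  have he4 := h.e4
  have hg := IsD.gram h.sum
  have hu := IsD.upper h.sum
  set S := sS a b c d with hS
  set T := sT a b c d with hT
  set Q := sQ a b c d with hQ
  have eT : T = S * (T / S) := by field_simp
  have eQ : Q = S * (Q / S) := by field_simp
  set t := T / S with ht
  set q := Q / S with hq
  have hτ : gτ a b c d = t + 1 := by rw [ht]; rfl
  have hqq : gq a b c d = 12 * q + 24 * (t + 1) + 40 := by
    unfold gq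
    rw [hτ]
  rw [hτ, hqq]
  rw [eT, eQ] at hg hu
  have hg' : S / 4 + t ^ 2 ≤ q := by
    have : S ^ 2 * (S / 4 + t ^ 2) ≤ S ^ 2 * q := by nlinarith
    exact le_of_mul_le_mul_left this (by positivity)
  have hu' : q ≤ S / 2 + t ^ 2 / 4 := by
    have : S ^ 2 * q ≤ S ^ 2 * (S / 2 + t ^ 2 / 4) := by nlinarith
    exact le_of_mul_le_mul_left this (by positivity)
  have htt : 3 * t ^ 2 ≤ S := by nlinarith
  rw [eT] at he3
  rw [eT, eQ] at he4
  have h3 : S * (3 - t) ≤ 12 := by nlinarith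
  have tu : t ≤ 2 := by nlinarith [sq_nonneg (t - 2)]
  have tl : -1 ≤ t := by
    by_contra hc
    push Not at hc
    have a1 : 3 < S := by nlinarith
    nlinarith
  have hn : 0 ≤ 3 * (4 - S + T / 3) ^ 2 - 8 * (6 - S / 2) * (1 - S / 2 + T / 3 + S ^ 2 / 8 - Q / 4) := IsD.newton h.sum
  rw [eT, eQ] at hn
  have hlo2 : 0 ≤ (12 - S) * (12 * q + 24 * (t + 1) + 40 - 6 * S - 64 - 8 * (t + 1) - 4 * (t + 1) ^ 2) + 48 * (3 - (t + 1)) ^ 2 := by
    have k : S * ((12 - S) * (12 * q + 24 * (t + 1) + 40 - 6 * S - 64 - 8 * (t + 1) - 4 * (t + 1) ^ 2) + 48 * (3 - (t + 1)) ^ 2)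
        = 12 * (3 * (4 - S + S * t / 3) ^ 2 - 8 * (6 - S / 2) * (1 - S / 2 + S * t / 3 + S ^ 2 / 8 - S * q / 4)) := by
      ring
    have k2 : 0 ≤ S * ((12 - S) * (12 * q + 24 * (t + 1) + 40 - 6 * S - 64 - 8 * (t + 1) - 4 * (t + 1) ^ 2) + 48 * (3 - (t + 1)) ^ 2) := by
      rw [k]
      linarith
    exact nonneg_of_mul_nonneg_right k2 hpos
  clear hn
  refine ⟨hpos.le, hle, by clear hlo2; linarith, by clear hlo2; linarith, by clear hlo2; nlinarith, by clear hlo2; nlinarith,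
    by clear hlo2; nlinarith, by clear hlo2; nlinarith, by clear hlo2; nlinarith, hlo2⟩

/-- the consequence of the two bounds for `Q` used to discard cells -/
theorem Dom.pq {S τ q : ℝ} (h : Dom S τ q) : 0 ≤ 48 + 3 * S ^ 2 + S * (40 * τ - 12 * τ ^ 2 - 52) := by
  have h1 := mul_le_mul_of_nonneg_left h.lo h.s0
  have h2 := h.hi2
  nlinarith

end Vale.Agent.Lib.P154Q5
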