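import Vale.Agent.Lib.P154Q5.Clip

/-!
The test at a leaf of the certificate tree, for a bilinear form given by its positive and negative
parts.
-/

namespace Vale.Agent.Lib.P154Q5

/-- all coordinates are at most `K` -/
structure Bd (K : Nat) (v : V) : Prop where
  a0 : v.a0 ≤ K
  a1 : v.a1 ≤ K
  a2 : v.a2 ≤ K
  a3 : v.a3 ≤ K
  a4 : v.a4 ≤ K
  a5 : v.a5 ≤ K
  a6 : v.a6 ≤ K
  a7 : v.a7 ≤ K
  a8 : v.a8 ≤ K
  a9 : v.a9 ≤ K

theorem vLo_bd {U s1 s2 n1 n2 n3 : Nat} (hU : 1 ≤ U) (h1 : s1 ≤ 26 * U ^ 2) (h2 : s2 ≤ 338 * U ^ 2)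
    (h3 : n1 ≤ 9 * U ^ 3) (h4 : n2 ≤ 27 * U ^ 3) (h5 : n3 ≤ 81 * U ^ 3) :
    Bd (16777216 * U ^ 7) (vLo (2 * U ^ 2) s1 s2 (3 * U ^ 3) n1 n2 n3) := by
  have hp : U ^ 5 ≤ U ^ 7 := Nat.pow_le_pow_right hU (by norm_num)
  have key : ∀ {c e : Nat}, c ≤ 16777216 → e ≤ c * U ^ 5 → e ≤ 16777216 * U ^ 7 := fun hc he =>
    le_trans he (Nat.mul_le_mul hc hp)
  constructor
  · refine key (c := 6) (by norm_num) ?_
    simp only [vLo]
    apply le_of_eq; ring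
  · refine key (c := 18) (by norm_num) ?_
    simp only [vLo]
    calc _ ≤ 2 * U ^ 2 * (9 * U ^ 3) := by gcongr
      _ = _ := by ring
  · refine key (c := 78) (by norm_num) ?_
    simp only [vLo]
    calc _ ≤ 26 * U ^ 2 * (3 * U ^ 3) := by gcongr
      _ = _ := by ring
  · refine key (c := 1194) (by norm_num) ?_
    simp only [vLo]
    calc _ ≤ 3 * (26 * U ^ 2 * (3 * U ^ 3)) + 2 * U ^ 2 * (12 * (27 * U ^ 3) + 52 * (3 * U ^ 3)) := by gcongr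
      _ = _ := by ring
  · refine key (c := 234) (by norm_num) ?_
    simp only [vLo]
    calc _ ≤ 26 * U ^ 2 * (9 * U ^ 3) := by gcongr
      _ = _ := by ring
  · refine key (c := 1014) (by norm_num) ?_
    simp only [vLo]
    calc _ ≤ 338 * U ^ 2 * (3 * U ^ 3) := by gcongr
      _ = _ := by ring
  · refine key (c := 702) (by norm_num) ?_
    simp only [vLo]
    calc _ ≤ 26 * U ^ 2 * (27 * U ^ 3) := by gcongr
      _ = _ := by ring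
  · refine key (c := 15522) (by norm_num) ?_
    simp only [vLo]
    calc _ ≤ 3 * (338 * U ^ 2 * (3 * U ^ 3)) + 26 * U ^ 2 * (12 * (27 * U ^ 3) + 52 * (3 * U ^ 3)) := by gcongr
      _ = _ := by ring
  · refine key (c := 3042) (by norm_num) ?_
    simp only [vLo]
    calc _ ≤ 338 * U ^ 2 * (9 * U ^ 3) := by gcongr
      _ = _ := by ring
  · refine key (c := 46566) (by norm_num) ?_
    simp only [vLo]
    calc _ ≤ 3 * (338 * U ^ 2 * (9 * U ^ 3)) + 26 * U ^ 2 * (12 * (81 * U ^ 3) + 52 * (9 * U ^ 3)) := by gcongr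
      _ = _ := by ring

theorem vHi_bd {U s1 s2 n1 n2 n3 : Nat} (hU : 1 ≤ U) (h1 : s1 ≤ 26 * U ^ 2) (h2 : s2 ≤ 338 * U ^ 2)
    (h3 : n1 ≤ 9 * U ^ 3) (h4 : n2 ≤ 27 * U ^ 3) (h5 : n3 ≤ 81 * U ^ 3) :
    Bd (16777216 * U ^ 7) (vHi (2 * U ^ 2) s1 s2 (3 * U ^ 3) n1 n2 n3) := by
  have hp : U ^ 5 ≤ U ^ 7 := Nat.pow_le_pow_right hU (by norm_num)
  have key : ∀ {c e : Nat}, c ≤ 16777216 → e ≤ c * U ^ 5 → e ≤ 16777216 * U ^ 7 := fun hc he =>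
    le_trans he (Nat.mul_le_mul hc hp)
  constructor
  · refine key (c := 6) (by norm_num) ?_
    simp only [vHi]
    apply le_of_eq; ring
  · refine key (c := 18) (by norm_num) ?_
    simp only [vHi]
    calc _ ≤ 2 * U ^ 2 * (9 * U ^ 3) := by gcongr
      _ = _ := by ring
  · refine key (c := 78) (by norm_num) ?_
    simp only [vHi]
    calc _ ≤ 26 * U ^ 2 * (3 * U ^ 3) := by gcongr
      _ = _ := by ring
  · refine key (c := 1212) (by norm_num) ?_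
    simp only [vHi]
    calc _ ≤ 6 * (26 * U ^ 2 * (3 * U ^ 3)) + 2 * U ^ 2 * (3 * (27 * U ^ 3) + 18 * (9 * U ^ 3) + 43 * (3 * U ^ 3)) := by gcongr
      _ = _ := by ring
  · refine key (c := 234) (by norm_num) ?_
    simp only [vHi]
    calc _ ≤ 26 * U ^ 2 * (9 * U ^ 3) := by gcongr
      _ = _ := by ring
  · refine key (c := 1014) (by norm_num) ?_
    simp only [vHi]
    calc _ ≤ 338 * U ^ 2 * (3 * U ^ 3) := by gcongr
      _ = _ := by ring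
  · refine key (c := 702) (by norm_num) ?_
    simp only [vHi]
    calc _ ≤ 26 * U ^ 2 * (27 * U ^ 3) := by gcongr
      _ = _ := by ring
  · refine key (c := 15756) (by norm_num) ?_
    simp only [vHi]
    calc _ ≤ 6 * (338 * U ^ 2 * (3 * U ^ 3)) + 26 * U ^ 2 * (3 * (27 * U ^ 3) + 18 * (9 * U ^ 3) + 43 * (3 * U ^ 3)) := by gcongr
      _ = _ := by ring
  · refine key (c := 3042) (by norm_num) ?_
    simp only [vHi]
    calc _ ≤ 338 * U ^ 2 * (9 * U ^ 3) := by gcongr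
      _ = _ := by ring
  · refine key (c := 47268) (by norm_num) ?_
    simp only [vHi]
    calc _ ≤ 6 * (338 * U ^ 2 * (9 * U ^ 3)) + 26 * U ^ 2 * (3 * (81 * U ^ 3) + 18 * (27 * U ^ 3) + 43 * (9 * U ^ 3)) := by gcongr
      _ = _ := by ring

theorem vCh_bd {U E s1 s2 b1 b2 n1 n2 : Nat} (hE : E ≤ 169 * U ^ 2)
    (h1 : s1 ≤ 26 * U ^ 2) (h2 : s2 ≤ 338 * U ^ 2) (k1 : b1 ≤ 26 * U ^ 2) (k2 : b2 ≤ 338 * U ^ 2)
    (h3 : n1 ≤ 9 * U ^ 3) (h4 : n2 ≤ 27 * U ^ 3) :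
    ∀ n3 : Nat, Bd (16777216 * U ^ 7) (vCh E (48 * U ^ 2) (2 * U ^ 2) s1 s2 b1 b2 (3 * U ^ 3) n1 n2 n3) := by
  intro n3
  have key : ∀ {c e : Nat}, c ≤ 16777216 → e ≤ c * U ^ 7 → e ≤ 16777216 * U ^ 7 := fun hc he =>
    le_trans he (Nat.mul_le_mul_right _ hc)
  constructor
  · refine key (c := 1014) (by norm_num) ?_
    simp only [vCh]
    calc _ ≤ 169 * U ^ 2 * (2 * U ^ 2 * (3 * U ^ 3)) := by gcongr
      _ = _ := by ring
  · refine key (c := 3042) (by norm_num) ?_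
    simp only [vCh]
    calc _ ≤ 169 * U ^ 2 * (2 * U ^ 2 * (9 * U ^ 3)) := by gcongr
      _ = _ := by ring
  · refine key (c := 13182) (by norm_num) ?_
    simp only [vCh]
    calc _ ≤ 169 * U ^ 2 * (26 * U ^ 2 * (3 * U ^ 3)) := by gcongr
      _ = _ := by ring
  · refine key (c := 204516) (by norm_num) ?_
    simp only [vCh]
    calc _ ≤ 48 * U ^ 2 * (26 * U ^ 2 * (3 * U ^ 3)) + 169 * U ^ 2 * (40 * (2 * U ^ 2 * (9 * U ^ 3)) + 6 * (26 * U ^ 2 * (3 * U ^ 3))) := by gcongr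
      _ = _ := by ring
  · refine key (c := 39546) (by norm_num) ?_
    simp only [vCh]
    calc _ ≤ 169 * U ^ 2 * (26 * U ^ 2 * (9 * U ^ 3)) := by gcongr
      _ = _ := by ring
  · refine key (c := 171366) (by norm_num) ?_
    simp only [vCh]
    calc _ ≤ 169 * U ^ 2 * (338 * U ^ 2 * (3 * U ^ 3)) := by gcongr
      _ = _ := by ring
  · refine key (c := 118638) (by norm_num) ?_
    simp only [vCh]
    calc _ ≤ 169 * U ^ 2 * (26 * U ^ 2 * (27 * U ^ 3)) := by gcongr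
      _ = _ := by ring
  · refine key (c := 2658708) (by norm_num) ?_
    simp only [vCh]
    calc _ ≤ 48 * U ^ 2 * (338 * U ^ 2 * (3 * U ^ 3)) + 169 * U ^ 2 * (40 * (26 * U ^ 2 * (9 * U ^ 3)) + 6 * (338 * U ^ 2 * (3 * U ^ 3))) := by gcongr
      _ = _ := by ring
  · refine key (c := 514098) (by norm_num) ?_
    simp only [vCh]
    calc _ ≤ 169 * U ^ 2 * (338 * U ^ 2 * (9 * U ^ 3)) := by gcongr
      _ = _ := by ring
  · refine key (c := 7976124) (by norm_num) ?_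
    simp only [vCh]
    calc _ ≤ 48 * U ^ 2 * (338 * U ^ 2 * (9 * U ^ 3)) + 169 * U ^ 2 * (40 * (26 * U ^ 2 * (27 * U ^ 3)) + 6 * (338 * U ^ 2 * (9 * U ^ 3))) := by gcongr
      _ = _ := by ring

theorem vNe_bd {U E s1 s2 b1 b2 n1 n2 n3 : Nat} (hE : E ≤ 144 * U ^ 2)
    (h1 : s1 ≤ 26 * U ^ 2) (h2 : s2 ≤ 338 * U ^ 2) (k1 : b1 ≤ 26 * U ^ 2) (k2 : b2 ≤ 338 * U ^ 2)
    (h3 : n1 ≤ 9 * U ^ 3) (h4 : n2 ≤ 27 * U ^ 3) (h5 : n3 ≤ 81 * U ^ 3) :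
    Bd (16777216 * U ^ 7) (vNe E (48 * U ^ 2) (2 * U ^ 2) s1 s2 b1 b2 (3 * U ^ 3) n1 n2 n3) := by
  have key : ∀ {c e : Nat}, c ≤ 16777216 → e ≤ c * U ^ 7 → e ≤ 16777216 * U ^ 7 := fun hc he =>
    le_trans he (Nat.mul_le_mul_right _ hc)
  have sb : ∀ {x y z : Nat}, x ≤ z → Nat.sub x y ≤ z := fun hx => le_trans (Nat.sub_le _ _) hx
  constructor
  · refine key (c := 864) (by norm_num) (sb ?_)
    simp only [vNeP]
    calc _ ≤ 144 * U ^ 2 * (2 * U ^ 2 * (3 * U ^ 3)) := by gcongr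
      _ = _ := by ring
  · refine key (c := 2592) (by norm_num) (sb ?_)
    simp only [vNeP]
    calc _ ≤ 144 * U ^ 2 * (2 * U ^ 2 * (9 * U ^ 3)) := by gcongr
      _ = _ := by ring
  · refine key (c := 11232) (by norm_num) (sb ?_)
    simp only [vNeP]
    calc _ ≤ 144 * U ^ 2 * (26 * U ^ 2 * (3 * U ^ 3)) := by gcongr
      _ = _ := by ring
  · refine key (c := 144 * (6 * (26 * 3) + 64 * (2 * 3) + 8 * (2 * 9) + 4 * (2 * 27)) + 48 * (26 * (9 * 3 + 27)) + 72 * 48 * (2 * 9)) (by norm_num) (sb ?_)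
    simp only [vNeP]
    calc _ ≤ 144 * U ^ 2 * (6 * (26 * U ^ 2 * (3 * U ^ 3)) + 64 * (2 * U ^ 2 * (3 * U ^ 3)) + 8 * (2 * U ^ 2 * (9 * U ^ 3)) + 4 * (2 * U ^ 2 * (27 * U ^ 3)))
          + 48 * U ^ 2 * (26 * U ^ 2 * (9 * (3 * U ^ 3) + 27 * U ^ 3)) + 72 * (48 * U ^ 2) * (2 * U ^ 2 * (9 * U ^ 3)) := by gcongr
      _ = _ := by ring
  · refine key (c := 33696) (by norm_num) (sb ?_)
    simp only [vNeP]
    calc _ ≤ 144 * U ^ 2 * (26 * U ^ 2 * (9 * U ^ 3)) := by gcongr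
      _ = _ := by ring
  · refine key (c := 146016) (by norm_num) (sb ?_)
    simp only [vNeP]
    calc _ ≤ 144 * U ^ 2 * (338 * U ^ 2 * (3 * U ^ 3)) := by gcongr
      _ = _ := by ring
  · refine key (c := 101088) (by norm_num) (sb ?_)
    simp only [vNeP]
    calc _ ≤ 144 * U ^ 2 * (26 * U ^ 2 * (27 * U ^ 3)) := by gcongr
      _ = _ := by ring
  · refine key (c := 144 * (6 * (338 * 3) + 64 * (26 * 3) + 8 * (26 * 9) + 4 * (26 * 27)) + 48 * (338 * (9 * 3 + 27)) + 72 * 48 * (26 * 9)) (by norm_num) (sb ?_)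
    simp only [vNeP]
    calc _ ≤ 144 * U ^ 2 * (6 * (338 * U ^ 2 * (3 * U ^ 3)) + 64 * (26 * U ^ 2 * (3 * U ^ 3)) + 8 * (26 * U ^ 2 * (9 * U ^ 3)) + 4 * (26 * U ^ 2 * (27 * U ^ 3)))
          + 48 * U ^ 2 * (338 * U ^ 2 * (9 * (3 * U ^ 3) + 27 * U ^ 3)) + 72 * (48 * U ^ 2) * (26 * U ^ 2 * (9 * U ^ 3)) := by gcongr
      _ = _ := by ring
  · refine key (c := 438048) (by norm_num) (sb ?_)
    simp only [vNeP]
    calc _ ≤ 144 * U ^ 2 * (338 * U ^ 2 * (9 * U ^ 3)) := by gcongr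
      _ = _ := by ring
  · refine key (c := 144 * (6 * (338 * 9) + 64 * (26 * 9) + 8 * (26 * 27) + 4 * (26 * 81)) + 48 * (338 * (9 * 9 + 81)) + 72 * 48 * (26 * 27)) (by norm_num) (sb ?_)
    simp only [vNeP]
    calc _ ≤ 144 * U ^ 2 * (6 * (338 * U ^ 2 * (9 * U ^ 3)) + 64 * (26 * U ^ 2 * (9 * U ^ 3)) + 8 * (26 * U ^ 2 * (27 * U ^ 3)) + 4 * (26 * U ^ 2 * (81 * U ^ 3)))
          + 48 * U ^ 2 * (338 * U ^ 2 * (9 * (9 * U ^ 3) + 81 * U ^ 3)) + 72 * (48 * U ^ 2) * (26 * U ^ 2 * (27 * U ^ 3)) := by gcongr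
      _ = _ := by ring

/-- the bounds for all control points of a cell -/
theorem cellV_bd {U L H l h : Nat} (hU : 1 ≤ U) (hL : L ≤ 13 * U) (hH : H ≤ 13 * U) (hl : l ≤ 3 * U) (hh : h ≤ 3 * U)
    (f g : Bool) : ∀ v ∈ cellV U L H l h f g, Bd (16777216 * U ^ 7) v := by
  have sa1 : 2 * U * L ≤ 26 * U ^ 2 := by
    calc _ ≤ 2 * U * (13 * U) := by gcongr
      _ = _ := by ring
  have sb1 : U * (L + H) ≤ 26 * U ^ 2 := by
    calc _ ≤ U * (13 * U + 13 * U) := by gcongr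
      _ = _ := by ring
  have sc1 : 2 * U * H ≤ 26 * U ^ 2 := by
    calc _ ≤ 2 * U * (13 * U) := by gcongr
      _ = _ := by ring
  have sa2 : 2 * L ^ 2 ≤ 338 * U ^ 2 := by
    calc _ ≤ 2 * (13 * U) ^ 2 := by gcongr
      _ = _ := by ring
  have sb2 : 2 * (L * H) ≤ 338 * U ^ 2 := by
    calc _ ≤ 2 * (13 * U * (13 * U)) := by gcongr
      _ = _ := by ring
  have sc2 : 2 * H ^ 2 ≤ 338 * U ^ 2 := by
    calc _ ≤ 2 * (13 * U) ^ 2 := by gcongr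
      _ = _ := by ring
  have sb3 : L ^ 2 + H ^ 2 ≤ 338 * U ^ 2 := by
    calc _ ≤ (13 * U) ^ 2 + (13 * U) ^ 2 := by gcongr
      _ = _ := by ring
  have hE : L * H ≤ 169 * U ^ 2 := by
    calc _ ≤ 13 * U * (13 * U) := by gcongr
      _ = _ := by ring
  have na1 : 3 * U ^ 2 * l ≤ 9 * U ^ 3 := by
    calc _ ≤ 3 * U ^ 2 * (3 * U) := by gcongr
      _ = _ := by ring
  have nb1 : U ^ 2 * (2 * l + h) ≤ 9 * U ^ 3 := by
    calc _ ≤ U ^ 2 * (2 * (3 * U) + 3 * U) := by gcongr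
      _ = _ := by ring
  have nc1 : U ^ 2 * (l + 2 * h) ≤ 9 * U ^ 3 := by
    calc _ ≤ U ^ 2 * (3 * U + 2 * (3 * U)) := by gcongr
      _ = _ := by ring
  have nd1 : 3 * U ^ 2 * h ≤ 9 * U ^ 3 := by
    calc _ ≤ 3 * U ^ 2 * (3 * U) := by gcongr
      _ = _ := by ring
  have na2 : 3 * U * l ^ 2 ≤ 27 * U ^ 3 := by
    calc _ ≤ 3 * U * (3 * U) ^ 2 := by gcongr
      _ = _ := by ring
  have nb2 : U * (l ^ 2 + 2 * (l * h)) ≤ 27 * U ^ 3 := by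
    calc _ ≤ U * ((3 * U) ^ 2 + 2 * (3 * U * (3 * U))) := by gcongr
      _ = _ := by ring
  have nc2 : U * (2 * (l * h) + h ^ 2) ≤ 27 * U ^ 3 := by
    calc _ ≤ U * (2 * (3 * U * (3 * U)) + (3 * U) ^ 2) := by gcongr
      _ = _ := by ring
  have nd2 : 3 * U * h ^ 2 ≤ 27 * U ^ 3 := by
    calc _ ≤ 3 * U * (3 * U) ^ 2 := by gcongr
      _ = _ := by ring
  have na3 : 3 * l ^ 3 ≤ 81 * U ^ 3 := by
    calc _ ≤ 3 * (3 * U) ^ 3 := by gcongr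
      _ = _ := by ring
  have nb3 : 3 * (l ^ 2 * h) ≤ 81 * U ^ 3 := by
    calc _ ≤ 3 * ((3 * U) ^ 2 * (3 * U)) := by gcongr
      _ = _ := by ring
  have nc3 : 3 * (l * h ^ 2) ≤ 81 * U ^ 3 := by
    calc _ ≤ 3 * (3 * U * (3 * U) ^ 2) := by gcongr
      _ = _ := by ring
  have nd3 : 3 * h ^ 3 ≤ 81 * U ^ 3 := by
    calc _ ≤ 3 * (3 * U) ^ 3 := by gcongr
      _ = _ := by ring
  have hEE : neE U L H ≤ 144 * U ^ 2 := by
    unfold neE
    calc _ ≤ 12 * U * (12 * U) := Nat.mul_le_mul (Nat.sub_le _ _) (Nat.sub_le _ _)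
      _ = _ := by ring
  cases g with
  | true =>
    cases f
    · simp only [cellV, cond_false, cond_true, listNe, ctrl12, listHi, zipAlt, List.forall_mem_cons, List.not_mem_nil,
        false_imp_iff, implies_true, and_true]
      exact ⟨vNe_bd hEE sa1 sa2 sc1 sb2 na1 na2 na3, vHi_bd hU sa1 sa2 na1 na2 na3,
        vNe_bd hEE sa1 sa2 sc1 sb2 nb1 nb2 nb3, vHi_bd hU sa1 sa2 nb1 nb2 nb3,
        vNe_bd hEE sa1 sa2 sc1 sb2 nc1 nc2 nc3, vHi_bd hU sa1 sa2 nc1 nc2 nc3,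
        vNe_bd hEE sa1 sa2 sc1 sb2 nd1 nd2 nd3, vHi_bd hU sa1 sa2 nd1 nd2 nd3,
        vNe_bd hEE sb1 sb2 sb1 sb3 na1 na2 na3, vHi_bd hU sb1 sb2 na1 na2 na3,
        vNe_bd hEE sb1 sb2 sb1 sb3 nb1 nb2 nb3, vHi_bd hU sb1 sb2 nb1 nb2 nb3,
        vNe_bd hEE sb1 sb2 sb1 sb3 nc1 nc2 nc3, vHi_bd hU sb1 sb2 nc1 nc2 nc3,
        vNe_bd hEE sb1 sb2 sb1 sb3 nd1 nd2 nd3, vHi_bd hU sb1 sb2 nd1 nd2 nd3,
        vNe_bd hEE sc1 sc2 sa1 sb2 na1 na2 na3, vHi_bd hU sc1 sc2 na1 na2 na3,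
        vNe_bd hEE sc1 sc2 sa1 sb2 nb1 nb2 nb3, vHi_bd hU sc1 sc2 nb1 nb2 nb3,
        vNe_bd hEE sc1 sc2 sa1 sb2 nc1 nc2 nc3, vHi_bd hU sc1 sc2 nc1 nc2 nc3,
        vNe_bd hEE sc1 sc2 sa1 sb2 nd1 nd2 nd3, vHi_bd hU sc1 sc2 nd1 nd2 nd3⟩
    · simp only [cellV, cond_true, listNe, ctrl12, listCh, zipAlt, List.forall_mem_cons, List.not_mem_nil,
        false_imp_iff, implies_true, and_true]
      exact ⟨vNe_bd hEE sa1 sa2 sc1 sb2 na1 na2 na3, vCh_bd hE sa1 sa2 sc1 sb2 na1 na2 _,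
        vNe_bd hEE sa1 sa2 sc1 sb2 nb1 nb2 nb3, vCh_bd hE sa1 sa2 sc1 sb2 nb1 nb2 _,
        vNe_bd hEE sa1 sa2 sc1 sb2 nc1 nc2 nc3, vCh_bd hE sa1 sa2 sc1 sb2 nc1 nc2 _,
        vNe_bd hEE sa1 sa2 sc1 sb2 nd1 nd2 nd3, vCh_bd hE sa1 sa2 sc1 sb2 nd1 nd2 _,
        vNe_bd hEE sb1 sb2 sb1 sb3 na1 na2 na3, vCh_bd hE sb1 sb2 sb1 sb3 na1 na2 _,
        vNe_bd hEE sb1 sb2 sb1 sb3 nb1 nb2 nb3, vCh_bd hE sb1 sb2 sb1 sb3 nb1 nb2 _,
        vNe_bd hEE sb1 sb2 sb1 sb3 nc1 nc2 nc3, vCh_bd hE sb1 sb2 sb1 sb3 nc1 nc2 _,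
        vNe_bd hEE sb1 sb2 sb1 sb3 nd1 nd2 nd3, vCh_bd hE sb1 sb2 sb1 sb3 nd1 nd2 _,
        vNe_bd hEE sc1 sc2 sa1 sb2 na1 na2 na3, vCh_bd hE sc1 sc2 sa1 sb2 na1 na2 _,
        vNe_bd hEE sc1 sc2 sa1 sb2 nb1 nb2 nb3, vCh_bd hE sc1 sc2 sa1 sb2 nb1 nb2 _,
        vNe_bd hEE sc1 sc2 sa1 sb2 nc1 nc2 nc3, vCh_bd hE sc1 sc2 sa1 sb2 nc1 nc2 _,
        vNe_bd hEE sc1 sc2 sa1 sb2 nd1 nd2 nd3, vCh_bd hE sc1 sc2 sa1 sb2 nd1 nd2 _⟩
  | false =>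
  cases f
  · simp only [cellV, cond_false, listLo, listHi, zipAlt, List.forall_mem_cons, List.not_mem_nil,
      false_imp_iff, implies_true, and_true]
    exact ⟨vLo_bd hU sa1 sa2 na1 na2 na3, vHi_bd hU sa1 sa2 na1 na2 na3,
      vLo_bd hU sa1 sa2 nb1 nb2 nb3, vHi_bd hU sa1 sa2 nb1 nb2 nb3,
      vLo_bd hU sa1 sa2 nc1 nc2 nc3, vHi_bd hU sa1 sa2 nc1 nc2 nc3,
      vLo_bd hU sa1 sa2 nd1 nd2 nd3, vHi_bd hU sa1 sa2 nd1 nd2 nd3,
      vLo_bd hU sb1 sb2 na1 na2 na3, vHi_bd hU sb1 sb2 na1 na2 na3,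
      vLo_bd hU sb1 sb2 nb1 nb2 nb3, vHi_bd hU sb1 sb2 nb1 nb2 nb3,
      vLo_bd hU sb1 sb2 nc1 nc2 nc3, vHi_bd hU sb1 sb2 nc1 nc2 nc3,
      vLo_bd hU sb1 sb2 nd1 nd2 nd3, vHi_bd hU sb1 sb2 nd1 nd2 nd3,
      vLo_bd hU sc1 sc2 na1 na2 na3, vHi_bd hU sc1 sc2 na1 na2 na3,
      vLo_bd hU sc1 sc2 nb1 nb2 nb3, vHi_bd hU sc1 sc2 nb1 nb2 nb3,
      vLo_bd hU sc1 sc2 nc1 nc2 nc3, vHi_bd hU sc1 sc2 nc1 nc2 nc3,
      vLo_bd hU sc1 sc2 nd1 nd2 nd3, vHi_bd hU sc1 sc2 nd1 nd2 nd3⟩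
  · simp only [cellV, cond_true, cond_false, listLo, listCh, zipAlt, List.forall_mem_cons, List.not_mem_nil,
      false_imp_iff, implies_true, and_true]
    exact ⟨vLo_bd hU sa1 sa2 na1 na2 na3, vCh_bd hE sa1 sa2 sc1 sb2 na1 na2 _,
      vLo_bd hU sa1 sa2 nb1 nb2 nb3, vCh_bd hE sa1 sa2 sc1 sb2 nb1 nb2 _,
      vLo_bd hU sa1 sa2 nc1 nc2 nc3, vCh_bd hE sa1 sa2 sc1 sb2 nc1 nc2 _,
      vLo_bd hU sa1 sa2 nd1 nd2 nd3, vCh_bd hE sa1 sa2 sc1 sb2 nd1 nd2 _,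
      vLo_bd hU sb1 sb2 na1 na2 na3, vCh_bd hE sb1 sb2 sb1 sb3 na1 na2 _,
      vLo_bd hU sb1 sb2 nb1 nb2 nb3, vCh_bd hE sb1 sb2 sb1 sb3 nb1 nb2 _,
      vLo_bd hU sb1 sb2 nc1 nc2 nc3, vCh_bd hE sb1 sb2 sb1 sb3 nc1 nc2 _,
      vLo_bd hU sb1 sb2 nd1 nd2 nd3, vCh_bd hE sb1 sb2 sb1 sb3 nd1 nd2 _,
      vLo_bd hU sc1 sc2 na1 na2 na3, vCh_bd hE sc1 sc2 sa1 sb2 na1 na2 _,
      vLo_bd hU sc1 sc2 nb1 nb2 nb3, vCh_bd hE sc1 sc2 sa1 sb2 nb1 nb2 _,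
      vLo_bd hU sc1 sc2 nc1 nc2 nc3, vCh_bd hE sc1 sc2 sa1 sb2 nc1 nc2 _,
      vLo_bd hU sc1 sc2 nd1 nd2 nd3, vCh_bd hE sc1 sc2 sa1 sb2 nd1 nd2 _⟩

/-- the length of the list of control points -/
theorem cellV_length (U L H l h : Nat) (f g : Bool) : (cellV U L H l h f g).length = 24 := by
  cases f <;> cases g <;> rfl

/-- linear maps -/
structure LinV (f : V → V) : Prop where
  zero : f V.zero = V.zero
  add : ∀ x y, f (V.add x y) = V.add (f x) (f y)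
  smul : ∀ c x, f (V.smul c x) = V.smul c (f x)

theorem LinV.packV {f : V → V} (h : LinV f) (X : Nat) (vs : List V) :
    f (Vale.Agent.Lib.P154Q5.packV X vs) = Vale.Agent.Lib.P154Q5.packV X (vs.map f) := by
  induction vs with
  | nil => simpa [Vale.Agent.Lib.P154Q5.packV] using h.zero
  | cons a as ih =>
    simp only [List.map_cons, Vale.Agent.Lib.P154Q5.packV]
    rw [h.add, h.smul, ih]

/-- A bilinear form presented by a positive and a negative part, depending on a parameter. -/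
structure Form where
  b : Nat
  ctP : Nat → V → V
  ctN : Nat → V → V

/-- What is required of such a form; `bR` and `bR'` are the form and its transpose over the reals. -/
structure Form.OK (F : Form) (U : Nat) (bR bR' : Nat → VR → VR) : Prop where
  hb : 1 ≤ F.b
  linP : ∀ H, LinV (F.ctP H)
  linN : ∀ H, LinV (F.ctN H)
  tr : ∀ H a y, dotR (bR H a) y = dotR (bR' H y) a
  link : ∀ H v w, dotR (bR H v.r) w.r = (dot (F.ctP H v) w : ℝ) - (dot (F.ctN H v) w : ℝ)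
  bdP : ∀ H ≤ 13 * U, ∀ v w, Bd (16777216 * U ^ 7) v → Bd (16777216 * U ^ 7) w → dot (F.ctP H v) w < 2 ^ (F.b - 1)
  bdN : ∀ H ≤ 13 * U, ∀ v w, Bd (16777216 * U ^ 7) v → Bd (16777216 * U ^ 7) w → dot (F.ctN H v) w < 2 ^ (F.b - 1)

/-- the test at a leaf -/
def Form.leaf (F : Form) (U : Nat) (f1 g1 f2 g2 : Bool) (x y : Cell) : Bool :=
  and (and (Nat.ble x.th (Nat.mul 3 U)) (and (Nat.ble y.th (Nat.mul 3 U))
    (and (Nat.ble x.sh (Nat.mul 12 U)) (and (Nat.ble y.sh (Nat.mul 12 U))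
    (and (Nat.ble (Nat.add x.tl 1) x.th) (Nat.ble (Nat.add y.tl 1) y.th))))))
  (or (isEmpty U x) (or (isEmpty U y)
    (let L := clipL U x
     let H := Nat.add (clipH U x) 1
     let L' := clipL U y
     let H' := Nat.add (clipH U y) 1
     and (Nat.ble (Nat.add L 1) H) (and (Nat.ble (Nat.add L' 1) H')
      (and (or (not f1) (Nat.ble 1 L)) (and (or (not f2) (Nat.ble 1 L'))
      (and (or (not g1) (neGuard U L H x.tl x.th)) (and (or (not g2) (neGuard U L' H' y.tl y.th))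
        (let P := pk (Nat.pow 2 F.b) U L H x.tl x.th f1 g1
         bulk F.b 24 24 (F.ctP H P) (F.ctN H P) (pk (Nat.pow 2 (Nat.mul 24 F.b)) U L' H' y.tl y.th f2 g2))))))))))

theorem cond_ble_le (a b : Nat) : cond (Nat.ble a b) a b ≤ a := by
  cases hb : Nat.ble a b with
  | true => simp
  | false =>
    have : ¬ a ≤ b := fun hh => by
      have := Nat.ble_eq_true_of_le hh
      rw [hb] at this
      exact absurd this (by simp)
    simp only [cond_false]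
    omega

theorem clipH_le {U : Nat} {c : Cell} (h : c.sh ≤ 12 * U) : clipH U c ≤ 12 * U :=
  le_trans (cond_ble_le _ _) h

theorem Form.leaf_sound {F : Form} {U : Nat} (hU : 1 ≤ U) {bR bR' : Nat → VR → VR} (h : F.OK U bR bR') {f1 n1 f2 n2 : Bool}
    {x y : Cell} (ht : F.leaf U f1 n1 f2 n2 x y = true) {S τ q S' τ' q' : ℝ} (hd : Dom S τ q) (hd' : Dom S' τ' q')
    (hx : InC U x S τ) (hy : InC U y S' τ') :
    ∃ Hp : Nat, (U : ℝ) * S ≤ Hp ∧ 0 < Hp ∧ 0 ≤ dotR (bR Hp (ptF S τ q)) (ptF S' τ' q') := by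
  unfold Form.leaf at ht
  simp only [Bool.and_eq_true, Bool.or_eq_true] at ht
  obtain ⟨⟨g1, g2, g3, g4, g5, g6⟩, ht⟩ := ht
  have g1' := Nat.le_of_ble_eq_true g1
  have g2' := Nat.le_of_ble_eq_true g2
  have g3' := Nat.le_of_ble_eq_true g3
  have g4' := Nat.le_of_ble_eq_true g4
  have g5' := Nat.le_of_ble_eq_true g5
  have g6' := Nat.le_of_ble_eq_true g6
  simp only [Nat.mul_eq, Nat.add_eq] at g1' g2' g3' g4' g5' g6'
  rcases ht with he | he | ht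
  · exact (isEmpty_sound hU hd hx g1' he).elim
  · exact (isEmpty_sound hU hd' hy g2' he).elim
  obtain ⟨k1, k2, k3, k4, k6, k7, k5⟩ := ht
  have k1' := Nat.le_of_ble_eq_true k1
  have k2' := Nat.le_of_ble_eq_true k2
  simp only [Nat.add_eq] at k1' k2'
  have hH1 := clipH_le g3'
  have hH2 := clipH_le g4'
  set L := clipL U x with hL
  set H := clipH U x + 1 with hH
  set L' := clipL U y with hL'
  set H' := clipH U y + 1 with hH'
  have hUb : (1 : ℝ) ≤ U := by exact_mod_cast hU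
  have hU0 : 0 < U := hU
  have hH13 : H ≤ 13 * U := by omega
  have hH13' : H' ≤ 13 * U := by omega
  have hL13 : L ≤ 13 * U := by omega
  have hL13' : L' ≤ 13 * U := by omega
  have hL1 : (L : ℝ) ≤ U * S := clipL_le hU0 hd hx
  have hH1' : (U : ℝ) * S ≤ H := by
    have := le_clipH hU0 hd hx g1'
    rw [hH]; push_cast; linarith
  have hL2 : (L' : ℝ) ≤ U * S' := clipL_le hU0 hd' hy
  have hH2' : (U : ℝ) * S' ≤ H' := by
    have := le_clipH hU0 hd' hy g2'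
    rw [hH']; push_cast; linarith
  have hf1 : f1 = true → 0 < L := by
    intro hf
    rcases k3 with k | k
    · simp [hf] at k
    · exact Nat.le_of_ble_eq_true k
  have hf2 : f2 = true → 0 < L' := by
    intro hf
    rcases k4 with k | k
    · simp [hf] at k
    · exact Nat.le_of_ble_eq_true k
  have hg1 : n1 = true → neGuard U L H x.tl x.th = true := by
    intro hf
    rcases k6 with k | k
    · simp [hf] at k
    · exact k
  have hg2 : n2 = true → neGuard U L' H' y.tl y.th = true := by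
    intro hf
    rcases k7 with k | k
    · simp [hf] at k
    · exact k
  have hull1 := hull_cell hU0 (by omega : L < H) (by omega : x.tl < x.th) hf1 hg1 hd hL1 hH1' hx.t1 hx.t2
  have hull2 := hull_cell hU0 (by omega : L' < H') (by omega : y.tl < y.th) hf2 hg2 hd' hL2 hH2' hy.t1 hy.t2
  refine ⟨H, hH1', by omega, ?_⟩
  apply hull_bil hull1 hull2 (bR H) (bR' H) (h.tr H)
  intro v hv w hw
  rw [h.link]
  have hvb := cellV_bd (l := x.tl) (h := x.th) hU hL13 hH13 (by omega) g1' f1 n1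
  have hwb := cellV_bd (l := y.tl) (h := y.th) hU hL13' hH13' (by omega) g2' f2 n2
  have e1 : F.ctP H (pk (2 ^ F.b) U L H x.tl x.th f1 n1) = packV (2 ^ F.b) ((cellV U L H x.tl x.th f1 n1).map (F.ctP H)) := by
    rw [pk_eq _ _ _ _ _ _ _ _ hg1]; exact (h.linP H).packV _ _
  have e2 : F.ctN H (pk (2 ^ F.b) U L H x.tl x.th f1 n1) = packV (2 ^ F.b) ((cellV U L H x.tl x.th f1 n1).map (F.ctN H)) := by
    rw [pk_eq _ _ _ _ _ _ _ _ hg1]; exact (h.linN H).packV _ _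
  have e3 : pk (2 ^ (24 * F.b)) U L' H' y.tl y.th f2 n2 = packV (2 ^ (24 * F.b)) (cellV U L' H' y.tl y.th f2 n2) := by
    rw [pk_eq _ _ _ _ _ _ _ _ hg2]
  simp only [Nat.pow_eq, Nat.mul_eq] at k5
  rw [e1, e2, e3] at k5
  have key := bulk_sound (b := F.b) h.hb (cellV U L H x.tl x.th f1 n1) (cellV U L' H' y.tl y.th f2 n2) (F.ctP H) (F.ctN H)
    (fun v hv w hw => h.bdP H hH13 v w (hvb v hv) (hwb w hw))
    (fun v hv w hw => (h.bdN H hH13 v w (hvb v hv) (hwb w hw)).le)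
    (by rw [cellV_length U L H x.tl x.th f1 n1, cellV_length U L' H' y.tl y.th f2 n2]; exact k5) v hv w hw
  have : ((dot (F.ctN H v) w : ℕ) : ℝ) ≤ (dot (F.ctP H v) w : ℕ) := by exact_mod_cast key
  linarith

end Vale.Agent.Lib.P154Q5
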