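import Vale.Agent.Lib.P154Q5.HullCell

/-!
Packing many numbers into one big number: one multiplication of packed numbers does the work of many
small multiplications, and one bitwise operation tests the signs of all the digits.
-/

namespace Vale.Agent.Lib.P154Q5

/-- digits to number -/
def pack (X : Nat) : List Nat → Nat
  | [] => 0
  | d :: ds => d + X * pack X ds

/-- sum of vectors -/
def V.add (x y : V) : V :=
  ⟨x.a0 + y.a0, x.a1 + y.a1, x.a2 + y.a2, x.a3 + y.a3, x.a4 + y.a4, x.a5 + y.a5, x.a6 + y.a6, x.a7 + y.a7,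
    x.a8 + y.a8, x.a9 + y.a9⟩

/-- multiple of a vector -/
def V.smul (c : Nat) (x : V) : V :=
  ⟨c * x.a0, c * x.a1, c * x.a2, c * x.a3, c * x.a4, c * x.a5, c * x.a6, c * x.a7, c * x.a8, c * x.a9⟩

/-- the zero vector -/
def V.zero : V := ⟨0, 0, 0, 0, 0, 0, 0, 0, 0, 0⟩

/-- vectors to vector of numbers -/
def packV (X : Nat) : List V → V
  | [] => V.zero
  | v :: vs => V.add v (V.smul X (packV X vs))

/-- the dot product, with the fast operations -/
def dot (x y : V) : Nat :=
  Nat.add (Nat.mul x.a0 y.a0) (Nat.add (Nat.mul x.a1 y.a1) (Nat.add (Nat.mul x.a2 y.a2)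
    (Nat.add (Nat.mul x.a3 y.a3) (Nat.add (Nat.mul x.a4 y.a4) (Nat.add (Nat.mul x.a5 y.a5)
    (Nat.add (Nat.mul x.a6 y.a6) (Nat.add (Nat.mul x.a7 y.a7) (Nat.add (Nat.mul x.a8 y.a8)
    (Nat.mul x.a9 y.a9)))))))))

theorem dot_eq (x y : V) : dot x y = x.a0 * y.a0 + (x.a1 * y.a1 + (x.a2 * y.a2 + (x.a3 * y.a3 + (x.a4 * y.a4
    + (x.a5 * y.a5 + (x.a6 * y.a6 + (x.a7 * y.a7 + (x.a8 * y.a8 + x.a9 * y.a9)))))))) := rfl

theorem dot_add_left (x y w : V) : dot (V.add x y) w = dot x w + dot y w := by
  simp only [dot_eq, V.add]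
  ring

theorem dot_smul_left (c : Nat) (x w : V) : dot (V.smul c x) w = c * dot x w := by
  simp only [dot_eq, V.smul]
  ring

theorem dot_zero_left (w : V) : dot V.zero w = 0 := by
  simp only [dot_eq, V.zero]
  ring

theorem dot_add_right (x y w : V) : dot x (V.add y w) = dot x y + dot x w := by
  simp only [dot_eq, V.add]
  ring

theorem dot_smul_right (c : Nat) (x w : V) : dot x (V.smul c w) = c * dot x w := by
  simp only [dot_eq, V.smul]
  ring

theorem dot_zero_right (x : V) : dot x V.zero = 0 := by
  simp only [dot_eq, V.zero]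
  ring

theorem dot_packV_left (X : Nat) (vs : List V) (f : V → V) (w : V) :
    dot (packV X (vs.map f)) w = pack X (vs.map fun v => dot (f v) w) := by
  induction vs with
  | nil => simp [packV, pack, dot_zero_left]
  | cons a as ih =>
    simp only [List.map_cons, packV, pack, dot_add_left, dot_smul_left, ih]

theorem dot_packV_right (D : Nat) (ws : List V) (x : V) :
    dot x (packV D ws) = pack D (ws.map fun w => dot x w) := by
  induction ws with
  | nil => simp [packV, pack, dot_zero_right]
  | cons a as ih =>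
    simp only [List.map_cons, packV, pack, dot_add_right, dot_smul_right, ih]

/-- the number computed by the bulk multiplication -/
theorem dot_pack_pack (C D : Nat) (vs ws : List V) (f : V → V) :
    dot (packV C (vs.map f)) (packV D ws)
      = pack D (ws.map fun w => pack C (vs.map fun v => dot (f v) w)) := by
  rw [dot_packV_right]
  congr 1
  apply List.map_congr_left
  intro w _
  exact dot_packV_left C vs f w

theorem pack_add {α : Type} (X : Nat) (l : List α) (f g : α → Nat) :
    pack X (l.map f) + pack X (l.map g) = pack X (l.map fun x => f x + g x) := by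
  induction l with
  | nil => simp [pack]
  | cons a as ih =>
    simp only [List.map_cons, pack]
    rw [← ih]
    ring

theorem pack_congr {α : Type} (X : Nat) (l : List α) {f g : α → Nat} (h : ∀ x ∈ l, f x = g x) :
    pack X (l.map f) = pack X (l.map g) := by
  congr 1
  exact List.map_congr_left h

theorem pack_lt {α : Type} (b : Nat) (l : List α) (f : α → Nat) (h : ∀ x ∈ l, f x < 2 ^ b) :
    pack (2 ^ b) (l.map f) < 2 ^ (l.length * b) := by
  induction l with
  | nil => simp [pack]
  | cons a as ih =>
    simp only [List.map_cons, pack, List.length_cons]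
    have h1 := h a (by simp)
    have h2 := ih (fun x hx => h x (by simp [hx]))
    have e : 2 ^ ((as.length + 1) * b) = 2 ^ b * 2 ^ (as.length * b) := by
      rw [← pow_add]
      congr 1
      ring
    rw [e]
    have h3 : 2 ^ b * (pack (2 ^ b) (as.map f) + 1) ≤ 2 ^ b * 2 ^ (as.length * b) :=
      Nat.mul_le_mul_left _ h2
    nlinarith

/-- the digits of a number with a mask -/
theorem digit_land {α : Type} (b : Nat) (l : List α) (f g : α → Nat) (hf : ∀ x ∈ l, f x < 2 ^ b)
    (hg : ∀ x ∈ l, g x < 2 ^ b)
    (h : pack (2 ^ b) (l.map f) &&& pack (2 ^ b) (l.map g) = pack (2 ^ b) (l.map g)) :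
    ∀ x ∈ l, f x &&& g x = g x := by
  induction l with
  | nil => simp
  | cons a as ih =>
    simp only [List.map_cons, pack] at h
    have h1 := hf a (by simp)
    have h2 := hg a (by simp)
    have e1 : (f a + 2 ^ b * pack (2 ^ b) (as.map f)) % 2 ^ b = f a := by
      rw [Nat.add_mul_mod_self_left, Nat.mod_eq_of_lt h1]
    have e2 : (g a + 2 ^ b * pack (2 ^ b) (as.map g)) % 2 ^ b = g a := by
      rw [Nat.add_mul_mod_self_left, Nat.mod_eq_of_lt h2]
    have e3 : (f a + 2 ^ b * pack (2 ^ b) (as.map f)) / 2 ^ b = pack (2 ^ b) (as.map f) := by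
      rw [Nat.add_mul_div_left _ _ (by positivity), Nat.div_eq_of_lt h1, Nat.zero_add]
    have e4 : (g a + 2 ^ b * pack (2 ^ b) (as.map g)) / 2 ^ b = pack (2 ^ b) (as.map g) := by
      rw [Nat.add_mul_div_left _ _ (by positivity), Nat.div_eq_of_lt h2, Nat.zero_add]
    have k1 := congrArg (· % 2 ^ b) h
    have k2 := congrArg (· / 2 ^ b) h
    simp only [Nat.and_mod_two_pow, Nat.and_div_two_pow, e1, e2, e3, e4] at k1 k2
    intro x hx
    rcases List.mem_cons.1 hx with rfl | hx
    · exact k1
    · exact ih (fun y hy => hf y (by simp [hy])) (fun y hy => hg y (by simp [hy])) k2 x hx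

/-- the constant mask -/
def rep (X n : Nat) : Nat := pack X (List.replicate n 1)

theorem pack_const {α : Type} (X c : Nat) (l : List α) :
    pack X (l.map fun _ => c) = c * rep X l.length := by
  induction l with
  | nil => simp [pack, rep]
  | cons a as ih =>
    simp only [List.map_cons, pack, rep, List.length_cons, List.replicate_succ]
    rw [ih]
    simp only [rep]
    ring

/-- the bulk test -/
def bulk (b na nb : Nat) (Up Un G : V) : Bool :=
  let Off := Nat.mul (Nat.mul (Nat.pow 2 (Nat.sub b 1)) (rep (Nat.pow 2 b) na))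
    (rep (Nat.pow 2 (Nat.mul na b)) nb)
  Nat.beq (Nat.land (Nat.sub (Nat.add (dot Up G) Off) (dot Un G)) Off) Off

/-- what the bulk test says -/
theorem bulk_sound {b : Nat} (hb : 1 ≤ b) (vs ws : List V) (fp fn : V → V)
    (hP : ∀ v ∈ vs, ∀ w ∈ ws, dot (fp v) w < 2 ^ (b - 1))
    (hN : ∀ v ∈ vs, ∀ w ∈ ws, dot (fn v) w ≤ 2 ^ (b - 1))
    (h : bulk b vs.length ws.length (packV (2 ^ b) (vs.map fp)) (packV (2 ^ b) (vs.map fn))
      (packV (2 ^ (vs.length * b)) ws) = true) :
    ∀ v ∈ vs, ∀ w ∈ ws, dot (fn v) w ≤ dot (fp v) w := by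
  set C := 2 ^ b with hC
  set D := 2 ^ (vs.length * b) with hD
  set c := 2 ^ (b - 1) with hc
  have hc2 : C = 2 * c := by
    rw [hC, hc, ← pow_succ']
    congr 1
    omega
  have hcpos : 0 < c := by positivity
  unfold bulk at h
  simp only [Nat.pow_eq, Nat.sub_eq, Nat.mul_eq, Nat.add_eq, Nat.land_eq] at h
  rw [dot_pack_pack, dot_pack_pack] at h
  rw [← hC, ← hc, ← hD] at h
  -- the mask
  have hOff : c * rep C vs.length * rep D ws.length
      = pack D (ws.map fun _ => pack C (vs.map fun _ => c)) := by
    rw [pack_const, pack_const]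
  rw [hOff] at h
  set E : V → V → Nat := fun v w => dot (fp v) w + c - dot (fn v) w with hE
  have hE1 : ∀ v ∈ vs, ∀ w ∈ ws, E v w + dot (fn v) w = dot (fp v) w + c := by
    intro v hv w hw
    have := hN v hv w hw
    simp only [hE]
    omega
  have hE2 : ∀ v ∈ vs, ∀ w ∈ ws, E v w < C := by
    intro v hv w hw
    have := hP v hv w hw
    simp only [hE]
    omega
  -- the number tested
  have hY : pack D (ws.map fun w => pack C (vs.map fun v => dot (fp v) w))
        + pack D (ws.map fun _ => pack C (vs.map fun _ => c))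
        - pack D (ws.map fun w => pack C (vs.map fun v => dot (fn v) w))
      = pack D (ws.map fun w => pack C (vs.map fun v => E v w)) := by
    have key : pack D (ws.map fun w => pack C (vs.map fun v => E v w))
          + pack D (ws.map fun w => pack C (vs.map fun v => dot (fn v) w))
        = pack D (ws.map fun w => pack C (vs.map fun v => dot (fp v) w))
          + pack D (ws.map fun _ => pack C (vs.map fun _ => c)) := by
      rw [pack_add, pack_add]
      apply pack_congr
      intro w hw
      rw [pack_add, pack_add]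
      apply pack_congr
      intro v hv
      exact hE1 v hv w hw
    omega
  rw [hY] at h
  replace h := Nat.eq_of_beq_eq_true h
  have hdig := digit_land (vs.length * b) ws (fun w => pack C (vs.map fun v => E v w))
    (fun _ => pack C (vs.map fun _ => c))
    (fun w hw => pack_lt b vs _ (fun v hv => hE2 v hv w hw))
    (fun _ _ => pack_lt b vs _ (fun _ _ => by rw [← hC, hc2]; omega)) h
  intro v hv w hw
  have h1 := hdig w hw
  have h2 := digit_land b vs (fun v => E v w) (fun _ => c) (fun v hv => hE2 v hv w hw)
    (fun _ _ => by rw [← hC, hc2]; omega) h1 v hv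
  have h3 : E v w ≥ c := by
    rw [← h2]
    exact Nat.and_le_left
  have := hE1 v hv w hw
  omega

end Vale.Agent.Lib.P154Q5
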