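import Vale.Agent.Lib.P154Q5.Forms

/-!
The pointwise inequalities: first for normalized vectors, then for all vectors by homogeneity.
-/

namespace Vale.Agent.Lib.P154Q5

/-- the mean -/
noncomputable def GM (x0 x1 x2 x3 : ℝ) : ℝ := (x0 + x1 + x2 + x3) / 4

/-- the extension of a function on normalized vectors to a homogeneous function -/
noncomputable def hm (f : ℝ → ℝ → ℝ → ℝ → ℝ) (x0 x1 x2 x3 : ℝ) : ℝ :=
  GM x0 x1 x2 x3 * f (x0 / GM x0 x1 x2 x3) (x1 / GM x0 x1 x2 x3) (x2 / GM x0 x1 x2 x3) (x3 / GM x0 x1 x2 x3)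

/-- the square of the quadratic invariant -/
noncomputable def fS2 (a b c d : ℝ) : ℝ := sS a b c d ^ 2
/-- the invariant -/
noncomputable def fPh (a b c d : ℝ) : ℝ := phF (sS a b c d) (sT a b c d) (sQ a b c d)
/-- the weight in the first inequality -/
noncomputable def fXi (a b c d : ℝ) : ℝ := xiF (sS a b c d) (sT a b c d) (sQ a b c d)
/-- the weight in the second inequality -/
noncomputable def fAf (a b c d : ℝ) : ℝ := afF (sS a b c d) (sT a b c d) (sQ a b c d)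

theorem e2_eq {y0 y1 y2 y3 : ℝ} (h : y0 + y1 + y2 + y3 = 4) : eE2 y0 y1 y2 y3 = 6 - sS y0 y1 y2 y3 / 2 := by
  have e : y3 = 4 - y0 - y1 - y2 := by linarith
  subst e
  simp only [eE2, sS]
  ring

theorem e3_eq {y0 y1 y2 y3 : ℝ} (h : y0 + y1 + y2 + y3 = 4) :
    eE3 y0 y1 y2 y3 = 4 - sS y0 y1 y2 y3 + sT y0 y1 y2 y3 / 3 := by
  have e : y3 = 4 - y0 - y1 - y2 := by linarith
  subst e
  simp only [eE3, sS, sT]
  ring

theorem e4_eq {y0 y1 y2 y3 : ℝ} (h : y0 + y1 + y2 + y3 = 4) :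
    eE4 y0 y1 y2 y3 = 1 - sS y0 y1 y2 y3 / 2 + sT y0 y1 y2 y3 / 3 + sS y0 y1 y2 y3 ^ 2 / 8 - sQ y0 y1 y2 y3 / 4 := by
  have e : y3 = 4 - y0 - y1 - y2 := by linarith
  subst e
  simp only [eE4, sS, sT, sQ]
  ring

/-- the first pointwise inequality -/
theorem ptA_core {D y0 y1 y2 y3 : ℝ} (hD : 0 < D) (hy : IsD y0 y1 y2 y3) :
    D * sS y0 y1 y2 y3 ≤ paC D (eE2 (D * y0) (D * y1) (D * y2) (D * y3)) := by
  have h1 : eE2 (D * y0) (D * y1) (D * y2) (D * y3) = D ^ 2 * eE2 y0 y1 y2 y3 := by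
    simp only [eE2]; ring
  have h2 := e2_eq hy.sum
  have h3 : 0 ≤ eE2 y0 y1 y2 y3 := by
    have := hy.ha; have := hy.hb; have := hy.hc; have := hy.hd
    unfold eE2
    positivity
  rw [h1]
  have e : paC D (D ^ 2 * eE2 y0 y1 y2 y3) - D * sS y0 y1 y2 y3
      = 2 * D * eE2 y0 y1 y2 y3 * (D - 1) ^ 4 * (4 - 5 * (D - 1)) ^ 2 / 81 := by
    have e' : sS y0 y1 y2 y3 = 12 - 2 * eE2 y0 y1 y2 y3 := by linarith
    rw [e']
    simp only [paC]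
    ring
  have h4 : 0 ≤ 2 * D * eE2 y0 y1 y2 y3 * (D - 1) ^ 4 * (4 - 5 * (D - 1)) ^ 2 / 81 := by positivity
  linarith

/-- the second pointwise inequality -/
theorem ptB_core {D y0 y1 y2 y3 : ℝ} (hy : IsD y0 y1 y2 y3) (h1 : 0 ≤ D) (h2 : D ≤ 4)
    (hc : 1 < D → 4 * (D - 1) ^ 2 ≤ 3 * sS y0 y1 y2 y3)
    (hz : ∀ z, 8 / 3 ≤ z → z ≤ D → Gz z (sS y0 y1 y2 y3) (gτ y0 y1 y2 y3) ≤ 0) :
    pbC D (eE2 (D * y0) (D * y1) (D * y2) (D * y3)) (eE3 (D * y0) (D * y1) (D * y2) (D * y3))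
      (eE4 (D * y0) (D * y1) (D * y2) (D * y3)) ≤ D * fPh y0 y1 y2 y3 := by
  have hm := mainI hy.dom h1 h2 hc hz
  have hb := bridgeI D (sS y0 y1 y2 y3) (gτ y0 y1 y2 y3) (gq y0 y1 y2 y3)
  have e2' : eE2 (D * y0) (D * y1) (D * y2) (D * y3) = D ^ 2 * eE2 y0 y1 y2 y3 := by
    simp only [eE2]; ring
  have e3' : eE3 (D * y0) (D * y1) (D * y2) (D * y3) = D ^ 3 * eE3 y0 y1 y2 y3 := by
    simp only [eE3]; ring
  have e4' : eE4 (D * y0) (D * y1) (D * y2) (D * y3) = D ^ 4 * eE4 y0 y1 y2 y3 := by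
    simp only [eE4]; ring
  rw [e2', e3', e4', e2_eq hy.sum, e3_eq hy.sum, e4_eq hy.sum]
  unfold fPh
  rw [T_eq, Q_eq]
  have hp : 0 ≤ (D - 1) ^ 2 * (dotR (bRI (ptF (sS y0 y1 y2 y3) (gτ y0 y1 y2 y3) (gq y0 y1 y2 y3))) (ptD D) / 786432) :=
    mul_nonneg (sq_nonneg _) (div_nonneg hm (by norm_num))
  linarith

/-- the mean of a vector with positive mean, normalized -/
theorem norm_sum {x0 x1 x2 x3 D : ℝ} (hD : D = GM x0 x1 x2 x3) (h : 0 < D) :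
    x0 / D + x1 / D + x2 / D + x3 / D = 4 := by
  have : x0 + x1 + x2 + x3 = 4 * D := by rw [hD]; unfold GM; ring
  field_simp
  linarith

theorem norm_isD {x0 x1 x2 x3 D : ℝ} (hD : D = GM x0 x1 x2 x3) (h : 0 < D) (h0 : 0 ≤ x0) (h1 : 0 ≤ x1)
    (h2 : 0 ≤ x2) (h3 : 0 ≤ x3) : IsD (x0 / D) (x1 / D) (x2 / D) (x3 / D) :=
  ⟨by positivity, by positivity, by positivity, by positivity, norm_sum hD h⟩

/-- the mean of a product of two normalized vectors -/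
theorem mean_bounds {a0 a1 a2 a3 b0 b1 b2 b3 : ℝ} (ha : IsD a0 a1 a2 a3) (hb : IsD b0 b1 b2 b3) :
    0 ≤ GM (a0 * b0) (a1 * b1) (a2 * b2) (a3 * b3) ∧ GM (a0 * b0) (a1 * b1) (a2 * b2) (a3 * b3) ≤ 4 := by
  obtain ⟨p0, p1, p2, p3, s⟩ := ha
  obtain ⟨q0, q1, q2, q3, t⟩ := hb
  unfold GM
  have u0 : b0 ≤ 4 := by linarith
  have u1 : b1 ≤ 4 := by linarith
  have u2 : b2 ≤ 4 := by linarith
  have u3 : b3 ≤ 4 := by linarith
  constructor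
  · positivity
  · nlinarith [mul_nonneg p0 (sub_nonneg.2 u0), mul_nonneg p1 (sub_nonneg.2 u1), mul_nonneg p2 (sub_nonneg.2 u2),
      mul_nonneg p3 (sub_nonneg.2 u3)]

/-- the Cauchy-Schwarz inequality in dimension four -/
theorem cs4 (u0 u1 u2 u3 v0 v1 v2 v3 : ℝ) : (u0 * v0 + u1 * v1 + u2 * v2 + u3 * v3) ^ 2
    ≤ (u0 ^ 2 + u1 ^ 2 + u2 ^ 2 + u3 ^ 2) * (v0 ^ 2 + v1 ^ 2 + v2 ^ 2 + v3 ^ 2) := by
  have key : (u0 ^ 2 + u1 ^ 2 + u2 ^ 2 + u3 ^ 2) * (v0 ^ 2 + v1 ^ 2 + v2 ^ 2 + v3 ^ 2)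
      - (u0 * v0 + u1 * v1 + u2 * v2 + u3 * v3) ^ 2
      = (u0 * v1 - u1 * v0) ^ 2 + (u0 * v2 - u2 * v0) ^ 2 + (u0 * v3 - u3 * v0) ^ 2 + (u1 * v2 - u2 * v1) ^ 2
        + (u1 * v3 - u3 * v1) ^ 2 + (u2 * v3 - u3 * v2) ^ 2 := by ring
  have : 0 ≤ (u0 * v1 - u1 * v0) ^ 2 + (u0 * v2 - u2 * v0) ^ 2 + (u0 * v3 - u3 * v0) ^ 2 + (u1 * v2 - u2 * v1) ^ 2
        + (u1 * v3 - u3 * v1) ^ 2 + (u2 * v3 - u3 * v2) ^ 2 := by positivity
  linarith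

/-- the core of the next statement -/
theorem coupling_core {a0 a1 a2 a3 b0 b1 b2 b3 y0 y1 y2 y3 D : ℝ} (p0 : 0 ≤ a0) (p1 : 0 ≤ a1) (p2 : 0 ≤ a2) (p3 : 0 ≤ a3)
    (s : a0 + a1 + a2 + a3 = 4) (hb4 : b0 + b1 + b2 + b3 = 4) (hb5 : sS b0 b1 b2 b3 ≤ 12)
    (e0 : a0 * b0 = D * y0) (e1 : a1 * b1 = D * y1) (e2 : a2 * b2 = D * y2) (e3 : a3 * b3 = D * y3)
    (hys : y0 + y1 + y2 + y3 = 4) (h1 : 1 < D) :
    4 * (D - 1) ^ 2 ≤ 3 * sS y0 y1 y2 y3 := by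
  have hpos : 0 < D := by linarith
  -- Cauchy-Schwarz with the weights `a`
  have c1 : (a0 * b0 + a1 * b1 + a2 * b2 + a3 * b3) ^ 2
      ≤ (a0 + a1 + a2 + a3) * (a0 * b0 ^ 2 + a1 * b1 ^ 2 + a2 * b2 ^ 2 + a3 * b3 ^ 2) := by
    have key : (a0 + a1 + a2 + a3) * (a0 * b0 ^ 2 + a1 * b1 ^ 2 + a2 * b2 ^ 2 + a3 * b3 ^ 2)
        - (a0 * b0 + a1 * b1 + a2 * b2 + a3 * b3) ^ 2
        = a0 * a1 * (b0 - b1) ^ 2 + a0 * a2 * (b0 - b2) ^ 2 + a0 * a3 * (b0 - b3) ^ 2 + a1 * a2 * (b1 - b2) ^ 2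
          + a1 * a3 * (b1 - b3) ^ 2 + a2 * a3 * (b2 - b3) ^ 2 := by ring
    have : 0 ≤ a0 * a1 * (b0 - b1) ^ 2 + a0 * a2 * (b0 - b2) ^ 2 + a0 * a3 * (b0 - b3) ^ 2 + a1 * a2 * (b1 - b2) ^ 2
          + a1 * a3 * (b1 - b3) ^ 2 + a2 * a3 * (b2 - b3) ^ 2 := by positivity
    linarith
  have hsum : a0 * b0 + a1 * b1 + a2 * b2 + a3 * b3 = 4 * D := by
    rw [e0, e1, e2, e3]
    linear_combination D * hys
  rw [hsum, s] at c1
  have c2 : a0 * b0 ^ 2 + a1 * b1 ^ 2 + a2 * b2 ^ 2 + a3 * b3 ^ 2 = D * (y0 * b0 + y1 * b1 + y2 * b2 + y3 * b3) := by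
    have : a0 * b0 ^ 2 + a1 * b1 ^ 2 + a2 * b2 ^ 2 + a3 * b3 ^ 2
        = (a0 * b0) * b0 + (a1 * b1) * b1 + (a2 * b2) * b2 + (a3 * b3) * b3 := by ring
    rw [this, e0, e1, e2, e3]
    ring
  rw [c2] at c1
  have c3 : 4 * D ≤ y0 * b0 + y1 * b1 + y2 * b2 + y3 * b3 := by
    have e : (4 * D) ^ 2 = 4 * (D * (4 * D)) := by ring
    rw [e] at c1
    have : D * (4 * D) ≤ D * (y0 * b0 + y1 * b1 + y2 * b2 + y3 * b3) := by linarith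
    exact le_of_mul_le_mul_left this hpos
  -- centering
  have c4 : y0 * b0 + y1 * b1 + y2 * b2 + y3 * b3
      = (y0 - 1) * (b0 - 1) + (y1 - 1) * (b1 - 1) + (y2 - 1) * (b2 - 1) + (y3 - 1) * (b3 - 1) + 4 := by
    linear_combination hys + hb4
  have c5 : 4 * (D - 1) ≤ (y0 - 1) * (b0 - 1) + (y1 - 1) * (b1 - 1) + (y2 - 1) * (b2 - 1) + (y3 - 1) * (b3 - 1) := by
    linarith
  -- Cauchy-Schwarz
  have c6 : ((y0 - 1) * (b0 - 1) + (y1 - 1) * (b1 - 1) + (y2 - 1) * (b2 - 1) + (y3 - 1) * (b3 - 1)) ^ 2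
      ≤ sS y0 y1 y2 y3 * sS b0 b1 b2 b3 := by
    unfold sS
    exact cs4 _ _ _ _ _ _ _ _
  have c7 : (4 * (D - 1)) ^ 2 ≤ sS y0 y1 y2 y3 * sS b0 b1 b2 b3 :=
    le_trans (pow_le_pow_left₀ (by linarith) c5 2) c6
  have c8 : sS y0 y1 y2 y3 * sS b0 b1 b2 b3 ≤ sS y0 y1 y2 y3 * 12 :=
    mul_le_mul_of_nonneg_left hb5 (sS_nonneg _ _ _ _)
  have e : (4 * (D - 1)) ^ 2 = 16 * (D - 1) ^ 2 := by ring
  rw [e] at c7
  linarith

/-- When the mean is larger than one, the normalized product has a large second moment. -/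
theorem coupling {a0 a1 a2 a3 b0 b1 b2 b3 D : ℝ} (ha : IsD a0 a1 a2 a3) (hb : IsD b0 b1 b2 b3)
    (hD : D = GM (a0 * b0) (a1 * b1) (a2 * b2) (a3 * b3)) (h1 : 1 < D) :
    4 * (D - 1) ^ 2 ≤ 3 * sS (a0 * b0 / D) (a1 * b1 / D) (a2 * b2 / D) (a3 * b3 / D) := by
  have hpos : 0 < D := by linarith
  exact coupling_core ha.ha ha.hb ha.hc ha.hd ha.sum hb.sum hb.sS_le (by field_simp) (by field_simp) (by field_simp)
    (by field_simp) (norm_sum hD hpos) h1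

/-- one coordinate of the comparison of the mean with the largest coordinate -/
theorem two_y_le {a b y D M : ℝ} (ha : 0 ≤ a) (hb : 0 ≤ b) (hy : 0 ≤ y) (hyM : y ≤ M) (hMD : M ≤ D) (e : a * b = D * y) :
    2 * y ≤ a + b := by
  by_contra hc
  push Not at hc
  have h1 : (a + b) ^ 2 < (2 * y) ^ 2 := pow_lt_pow_left₀ hc (by positivity) (by norm_num)
  have h2 : 4 * (a * b) ≤ (a + b) ^ 2 := by nlinarith [sq_nonneg (a - b)]
  have h3 : y * y ≤ D * y := mul_le_mul_of_nonneg_right (le_trans hyM hMD) hy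
  nlinarith

theorem two_y_lt {a b D M : ℝ} (ha : 0 ≤ a) (hb : 0 ≤ b) (hM : 0 < M) (hMD : M < D) (e : a * b = D * M) :
    2 * M < a + b := by
  by_contra hc
  push Not at hc
  have h1 : (a + b) ^ 2 ≤ (2 * M) ^ 2 := pow_le_pow_left₀ (by positivity) hc 2
  have h2 : 4 * (a * b) ≤ (a + b) ^ 2 := by nlinarith [sq_nonneg (a - b)]
  have h3 : M * M < D * M := mul_lt_mul_of_pos_right hMD hM
  nlinarith

/-- The mean is at most the largest normalized coordinate. -/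
theorem mean_le_max {a0 a1 a2 a3 b0 b1 b2 b3 y0 y1 y2 y3 D M : ℝ} (ha : IsD a0 a1 a2 a3) (hb : IsD b0 b1 b2 b3)
    (hy : IsD y0 y1 y2 y3) (e0 : a0 * b0 = D * y0) (e1 : a1 * b1 = D * y1) (e2 : a2 * b2 = D * y2) (e3 : a3 * b3 = D * y3)
    (m0 : y0 ≤ M) (m1 : y1 ≤ M) (m2 : y2 ≤ M) (m3 : y3 ≤ M) (hM : M = y0 ∨ M = y1 ∨ M = y2 ∨ M = y3) : D ≤ M := by
  by_contra hc
  push Not at hc
  obtain ⟨p0, p1, p2, p3, s⟩ := ha
  obtain ⟨q0, q1, q2, q3, t⟩ := hb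
  obtain ⟨r0, r1, r2, r3, u⟩ := hy
  have hM1 : 1 ≤ M := by linarith
  have hMpos : 0 < M := by linarith
  have s0 := two_y_le p0 q0 r0 m0 hc.le e0
  have s1 := two_y_le p1 q1 r1 m1 hc.le e1
  have s2 := two_y_le p2 q2 r2 m2 hc.le e2
  have s3 := two_y_le p3 q3 r3 m3 hc.le e3
  rcases hM with h | h | h | h
  · have := two_y_lt p0 q0 hMpos hc (by rw [e0, h])
    linarith
  · have := two_y_lt p1 q1 hMpos hc (by rw [e1, h])
    linarith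
  · have := two_y_lt p2 q2 hMpos hc (by rw [e2, h])
    linarith
  · have := two_y_lt p3 q3 hMpos hc (by rw [e3, h])
    linarith

/-- The test with the largest coordinate is justified. -/
theorem Gz_nonpos {y0 y1 y2 y3 D z : ℝ} (hy : IsD y0 y1 y2 y3)
    (hmax : ∀ M : ℝ, y0 ≤ M → y1 ≤ M → y2 ≤ M → y3 ≤ M → (M = y0 ∨ M = y1 ∨ M = y2 ∨ M = y3) → D ≤ M)
    (hz1 : 8 / 3 ≤ z) (hz2 : z ≤ D) : Gz z (sS y0 y1 y2 y3) (gτ y0 y1 y2 y3) ≤ 0 := by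
  set M := max y0 (max y1 (max y2 y3)) with hMdef
  have m0 : y0 ≤ M := le_max_left _ _
  have m1 : y1 ≤ M := le_trans (le_max_left _ _) (le_max_right _ _)
  have m2 : y2 ≤ M := le_trans (le_trans (le_max_left _ _) (le_max_right _ _)) (le_max_right _ _)
  have m3 : y3 ≤ M := le_trans (le_trans (le_max_right _ _) (le_max_right _ _)) (le_max_right _ _)
  have hch : M = y0 ∨ M = y1 ∨ M = y2 ∨ M = y3 := by
    rcases max_choice y0 (max y1 (max y2 y3)) with h | h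
    · exact Or.inl h
    · rcases max_choice y1 (max y2 y3) with h' | h'
      · exact Or.inr (Or.inl (by rw [hMdef, h, h']))
      · rcases max_choice y2 y3 with h'' | h''
        · exact Or.inr (Or.inr (Or.inl (by rw [hMdef, h, h', h''])))
        · exact Or.inr (Or.inr (Or.inr (by rw [hMdef, h, h', h''])))
  have hDM := hmax M m0 m1 m2 m3 hch
  have hzM : z ≤ M := le_trans hz2 hDM
  have hMpos : 0 < M := by linarith
  have he2 : 0 ≤ eE2 y0 y1 y2 y3 := by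
    have := hy.ha; have := hy.hb; have := hy.hc; have := hy.hd
    unfold eE2
    positivity
  have he4 : 0 ≤ eE4 y0 y1 y2 y3 := by
    have := hy.ha; have := hy.hb; have := hy.hc; have := hy.hd
    unfold eE4
    positivity
  have hG : ∀ w : ℝ, Gz w (sS y0 y1 y2 y3) (gτ y0 y1 y2 y3) = w ^ 3 - 4 * w ^ 2 + w * eE2 y0 y1 y2 y3 - eE3 y0 y1 y2 y3 := by
    intro w
    rw [e2_eq hy.sum, e3_eq hy.sum, T_eq]
    unfold Gz
    ring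
  have hroot : M * (M ^ 3 - 4 * M ^ 2 + M * eE2 y0 y1 y2 y3 - eE3 y0 y1 y2 y3) + eE4 y0 y1 y2 y3 = 0 := by
    have hs := hy.sum
    have key : M * (M ^ 3 - 4 * M ^ 2 + M * eE2 y0 y1 y2 y3 - eE3 y0 y1 y2 y3) + eE4 y0 y1 y2 y3
        = (M - y0) * (M - y1) * (M - y2) * (M - y3) := by
      have e4 : (4 : ℝ) = y0 + y1 + y2 + y3 := hs.symm
      rw [show (4 : ℝ) * M ^ 2 = (y0 + y1 + y2 + y3) * M ^ 2 by rw [← e4]]
      simp only [eE2, eE3, eE4]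
      ring
    rw [key]
    rcases hch with h | h | h | h
    · rw [h]; ring
    · rw [h]; ring
    · rw [h]; ring
    · rw [h]; ring
  have hGM : M ^ 3 - 4 * M ^ 2 + M * eE2 y0 y1 y2 y3 - eE3 y0 y1 y2 y3 ≤ 0 := by
    by_contra hcon
    push Not at hcon
    have := mul_pos hMpos hcon
    linarith
  rw [hG]
  have hd : (M ^ 3 - 4 * M ^ 2 + M * eE2 y0 y1 y2 y3 - eE3 y0 y1 y2 y3) - (z ^ 3 - 4 * z ^ 2 + z * eE2 y0 y1 y2 y3 - eE3 y0 y1 y2 y3)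
      = (M - z) * (M ^ 2 + M * z + z ^ 2 - 4 * M - 4 * z + eE2 y0 y1 y2 y3) := by ring
  have hq : 0 ≤ M ^ 2 + M * z + z ^ 2 - 4 * M - 4 * z := by
    have hM83 : 8 / 3 ≤ M := le_trans hz1 hzM
    nlinarith [mul_nonneg (sub_nonneg.2 hz1) (sub_nonneg.2 hM83), sq_nonneg (M - 8 / 3), sq_nonneg (z - 8 / 3)]
  have := mul_nonneg (sub_nonneg.2 hzM) (by linarith : 0 ≤ M ^ 2 + M * z + z ^ 2 - 4 * M - 4 * z + eE2 y0 y1 y2 y3)
  linarith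

theorem scale_eq (D x : ℝ) (hD : 0 < D) : D * (x / D) = x := by field_simp

/-- vectors with mean zero -/
theorem GM_zero_all {x0 x1 x2 x3 : ℝ} (h0 : 0 ≤ x0) (h1 : 0 ≤ x1) (h2 : 0 ≤ x2) (h3 : 0 ≤ x3) (h : GM x0 x1 x2 x3 = 0) :
    x0 = 0 ∧ x1 = 0 ∧ x2 = 0 ∧ x3 = 0 := by
  unfold GM at h
  refine ⟨by linarith, by linarith, by linarith, by linarith⟩

/-- the first pointwise inequality, for products -/
theorem pt_A {a0 a1 a2 a3 b0 b1 b2 b3 : ℝ} (ha : IsD a0 a1 a2 a3) (hb : IsD b0 b1 b2 b3) :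
    hm sS (a0 * b0) (a1 * b1) (a2 * b2) (a3 * b3) ≤ polyA (a0 * b0) (a1 * b1) (a2 * b2) (a3 * b3) := by
  obtain ⟨m1, _⟩ := mean_bounds ha hb
  have n0 := mul_nonneg ha.ha hb.ha
  have n1 := mul_nonneg ha.hb hb.hb
  have n2 := mul_nonneg ha.hc hb.hc
  have n3 := mul_nonneg ha.hd hb.hd
  rcases m1.eq_or_lt with hz | hpos
  · obtain ⟨e0, e1, e2, e3⟩ := GM_zero_all n0 n1 n2 n3 hz.symm
    rw [e0, e1, e2, e3]
    simp [hm, GM, polyA, paC, eE2]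
  set D := GM (a0 * b0) (a1 * b1) (a2 * b2) (a3 * b3) with hD
  have hy : IsD (a0 * b0 / D) (a1 * b1 / D) (a2 * b2 / D) (a3 * b3 / D) := norm_isD hD hpos n0 n1 n2 n3
  have key := ptA_core hpos hy
  simp only [scale_eq D _ hpos] at key
  exact key

/-- the second pointwise inequality, for products -/
theorem pt_B {a0 a1 a2 a3 b0 b1 b2 b3 : ℝ} (ha : IsD a0 a1 a2 a3) (hb : IsD b0 b1 b2 b3) :
    polyB (a0 * b0) (a1 * b1) (a2 * b2) (a3 * b3) ≤ hm fPh (a0 * b0) (a1 * b1) (a2 * b2) (a3 * b3) := by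
  obtain ⟨m1, m2⟩ := mean_bounds ha hb
  have n0 := mul_nonneg ha.ha hb.ha
  have n1 := mul_nonneg ha.hb hb.hb
  have n2 := mul_nonneg ha.hc hb.hc
  have n3 := mul_nonneg ha.hd hb.hd
  rcases m1.eq_or_lt with hz | hpos
  · obtain ⟨e0, e1, e2, e3⟩ := GM_zero_all n0 n1 n2 n3 hz.symm
    rw [e0, e1, e2, e3]
    simp only [hm, GM, polyB, pbC, rBf, eE2, eE3, eE4]
    norm_num
  set D := GM (a0 * b0) (a1 * b1) (a2 * b2) (a3 * b3) with hD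
  have hy : IsD (a0 * b0 / D) (a1 * b1 / D) (a2 * b2 / D) (a3 * b3 / D) := norm_isD hD hpos n0 n1 n2 n3
  have hmax : ∀ M : ℝ, a0 * b0 / D ≤ M → a1 * b1 / D ≤ M → a2 * b2 / D ≤ M → a3 * b3 / D ≤ M →
      (M = a0 * b0 / D ∨ M = a1 * b1 / D ∨ M = a2 * b2 / D ∨ M = a3 * b3 / D) → D ≤ M := fun M h0 h1 h2 h3 h4 =>
    mean_le_max ha hb hy (by field_simp) (by field_simp) (by field_simp) (by field_simp) h0 h1 h2 h3 h4
  have key := ptB_core hy m1 m2 (fun h => coupling ha hb hD h) (fun z hz1 hz2 => Gz_nonpos hy hmax hz1 hz2)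
  simp only [scale_eq D _ hpos] at key
  exact key

/-- comparison of averages -/
theorem avg24_le {G G' : ℝ → ℝ → ℝ → ℝ → ℝ} {a0 a1 a2 a3 b0 b1 b2 b3 : ℝ} (hb : IsD b0 b1 b2 b3)
    (h : ∀ c0 c1 c2 c3, IsD c0 c1 c2 c3 → G (a0 * c0) (a1 * c1) (a2 * c2) (a3 * c3) ≤ G' (a0 * c0) (a1 * c1) (a2 * c2) (a3 * c3)) :
    avg24 G a0 a1 a2 a3 b0 b1 b2 b3 ≤ avg24 G' a0 a1 a2 a3 b0 b1 b2 b3 := by
  obtain ⟨p0, p1, p2, p3, s⟩ := hb
  unfold avg24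
  have key : ∀ i j k l : ℝ, 0 ≤ i → 0 ≤ j → 0 ≤ k → 0 ≤ l → i + j + k + l = 4 →
      G (a0 * i) (a1 * j) (a2 * k) (a3 * l) ≤ G' (a0 * i) (a1 * j) (a2 * k) (a3 * l) :=
    fun i j k l a b c d e => h i j k l ⟨a, b, c, d, e⟩
  have t1 := key b0 b1 b2 b3 p0 p1 p2 p3 (by linarith)
  have t2 := key b0 b1 b3 b2 p0 p1 p3 p2 (by linarith)
  have t3 := key b0 b2 b1 b3 p0 p2 p1 p3 (by linarith)
  have t4 := key b0 b2 b3 b1 p0 p2 p3 p1 (by linarith)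
  have t5 := key b0 b3 b1 b2 p0 p3 p1 p2 (by linarith)
  have t6 := key b0 b3 b2 b1 p0 p3 p2 p1 (by linarith)
  have t7 := key b1 b0 b2 b3 p1 p0 p2 p3 (by linarith)
  have t8 := key b1 b0 b3 b2 p1 p0 p3 p2 (by linarith)
  have t9 := key b1 b2 b0 b3 p1 p2 p0 p3 (by linarith)
  have t10 := key b1 b2 b3 b0 p1 p2 p3 p0 (by linarith)
  have t11 := key b1 b3 b0 b2 p1 p3 p0 p2 (by linarith)
  have t12 := key b1 b3 b2 b0 p1 p3 p2 p0 (by linarith)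
  have t13 := key b2 b0 b1 b3 p2 p0 p1 p3 (by linarith)
  have t14 := key b2 b0 b3 b1 p2 p0 p3 p1 (by linarith)
  have t15 := key b2 b1 b0 b3 p2 p1 p0 p3 (by linarith)
  have t16 := key b2 b1 b3 b0 p2 p1 p3 p0 (by linarith)
  have t17 := key b2 b3 b0 b1 p2 p3 p0 p1 (by linarith)
  have t18 := key b2 b3 b1 b0 p2 p3 p1 p0 (by linarith)
  have t19 := key b3 b0 b1 b2 p3 p0 p1 p2 (by linarith)
  have t20 := key b3 b0 b2 b1 p3 p0 p2 p1 (by linarith)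
  have t21 := key b3 b1 b0 b2 p3 p1 p0 p2 (by linarith)
  have t22 := key b3 b1 b2 b0 p3 p1 p2 p0 (by linarith)
  have t23 := key b3 b2 b0 b1 p3 p2 p0 p1 (by linarith)
  have t24 := key b3 b2 b1 b0 p3 p2 p1 p0 (by linarith)
  linarith

/-- the first inequality for normalized vectors -/
theorem rawA_n {a0 a1 a2 a3 b0 b1 b2 b3 : ℝ} (ha : IsD a0 a1 a2 a3) (hb : IsD b0 b1 b2 b3) :
    avg24 (hm sS) a0 a1 a2 a3 b0 b1 b2 b3 ≤ sS a0 a1 a2 a3 + sS b0 b1 b2 b3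
      - fXi b0 b1 b2 b3 * fPh a0 a1 a2 a3 - fXi a0 a1 a2 a3 * fPh b0 b1 b2 b3
      - (1 / 16384) * (fS2 a0 a1 a2 a3 * sS b0 b1 b2 b3 + sS a0 a1 a2 a3 * fS2 b0 b1 b2 b3) := by
  have h1 : avg24 (hm sS) a0 a1 a2 a3 b0 b1 b2 b3 ≤ avg24 polyA a0 a1 a2 a3 b0 b1 b2 b3 :=
    avg24_le hb (fun _ _ _ _ hc => pt_A ha hc)
  have main := mainA ha.dom hb.dom
  have key := bridgeA (sS a0 a1 a2 a3) (gτ a0 a1 a2 a3) (gq a0 a1 a2 a3) (sS b0 b1 b2 b3) (gτ b0 b1 b2 b3) (gq b0 b1 b2 b3)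
  have h2 := avg_polyA ha.sum hb.sum
  have eTa := T_eq (a := a0) (b := a1) (c := a2) (d := a3)
  have eQa := Q_eq (a := a0) (b := a1) (c := a2) (d := a3)
  have eTu := T_eq (a := b0) (b := b1) (c := b2) (d := b3)
  have eQu := Q_eq (a := b0) (b := b1) (c := b2) (d := b3)
  simp only [fXi, fPh, fS2]
  rw [eTu, eQu, eTa, eQa] at h2 ⊢
  have hS := sS_nonneg a0 a1 a2 a3
  have hS' := sS_nonneg b0 b1 b2 b3
  have hp : 0 ≤ sS a0 a1 a2 a3 * sS b0 b1 b2 b3 *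
      (dotR (bRA (ptF (sS a0 a1 a2 a3) (gτ a0 a1 a2 a3) (gq a0 a1 a2 a3))) (ptF (sS b0 b1 b2 b3) (gτ b0 b1 b2 b3) (gq b0 b1 b2 b3)) / 169075682574336) :=
    mul_nonneg (by positivity) (div_nonneg main (by norm_num))
  linarith

/-- the second inequality for normalized vectors -/
theorem rawB_n {a0 a1 a2 a3 b0 b1 b2 b3 : ℝ} (ha : IsD a0 a1 a2 a3) (hb : IsD b0 b1 b2 b3) :
    fAf b0 b1 b2 b3 * fPh a0 a1 a2 a3 + fAf a0 a1 a2 a3 * fPh b0 b1 b2 b3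
      ≤ avg24 (hm fPh) a0 a1 a2 a3 b0 b1 b2 b3 := by
  have h1 : avg24 polyB a0 a1 a2 a3 b0 b1 b2 b3 ≤ avg24 (hm fPh) a0 a1 a2 a3 b0 b1 b2 b3 :=
    avg24_le hb (fun _ _ _ _ hc => pt_B ha hc)
  have main := mainB ha.dom hb.dom
  have key := bridgeB (sS a0 a1 a2 a3) (gτ a0 a1 a2 a3) (gq a0 a1 a2 a3) (sS b0 b1 b2 b3) (gτ b0 b1 b2 b3) (gq b0 b1 b2 b3)
  have h2 := avg_polyB ha.sum hb.sum
  have eTa := T_eq (a := a0) (b := a1) (c := a2) (d := a3)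
  have eQa := Q_eq (a := a0) (b := a1) (c := a2) (d := a3)
  have eTu := T_eq (a := b0) (b := b1) (c := b2) (d := b3)
  have eQu := Q_eq (a := b0) (b := b1) (c := b2) (d := b3)
  simp only [fAf, fPh]
  rw [eTu, eQu, eTa, eQa] at h2 ⊢
  have hS := sS_nonneg a0 a1 a2 a3
  have hS' := sS_nonneg b0 b1 b2 b3
  have hp : 0 ≤ sS a0 a1 a2 a3 * sS b0 b1 b2 b3 *
      (dotR (bRB (ptF (sS a0 a1 a2 a3) (gτ a0 a1 a2 a3) (gq a0 a1 a2 a3))) (ptF (sS b0 b1 b2 b3) (gτ b0 b1 b2 b3) (gq b0 b1 b2 b3)) / 695784701952) :=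
    mul_nonneg (by positivity) (div_nonneg main (by norm_num))
  linarith

end Vale.Agent.Lib.P154Q5
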