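import Vale.Agent.Lib.P154Q5.Raw

/-!
The two weights are nonnegative.
-/

namespace Vale.Agent.Lib.P154Q5

theorem bridgeX (S τ q : ℝ) : xiF S (S * (τ - 1)) (S * ((q - 24 * τ - 40) / 12)) = S * (dotR cX (ptF S τ q) / 1572864) := by
  simp only [xiF, dotR, cX, ptF]
  ring

theorem bridgeW (S τ q : ℝ) : afF S (S * (τ - 1)) (S * ((q - 24 * τ - 40) / 12)) = 1 - S * (dotR cW (ptF S τ q) / 3145728) := by
  simp only [afF, dotR, cW, ptF]
  ring

theorem uW_eq (H : Nat) (x : VR) (h : x.a0 = 1) : dotR (uW H) x = 12884901888 - H * dotR cW x := by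
  simp only [dotR, uW, h]
  ring

/-- from the test on cells to the weight -/
theorem weight_nonneg {S c Dn : ℝ} {Hp : Nat} (hS : 0 ≤ S) (hDn : 0 < Dn) (h1 : (4096 : ℝ) * S ≤ Hp) (h2 : 0 < Hp)
    (h3 : 0 ≤ 4096 * Dn - Hp * c) : 0 ≤ 1 - S * (c / Dn) := by
  have hc : S * c ≤ Dn := by
    rcases le_total c 0 with h | h
    · have := mul_nonpos_of_nonneg_of_nonpos hS h
      linarith
    · have h4 : (4096 * S) * c ≤ Hp * c := mul_le_mul_of_nonneg_right h1 h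
      have h5 : 4096 * (S * c) ≤ 4096 * Dn := by linarith
      linarith
  have e : S * (c / Dn) = (S * c) / Dn := by ring
  rw [e]
  have : (S * c) / Dn ≤ 1 := by
    rw [div_le_one hDn]
    exact hc
  linarith

theorem fXi_nonneg {a0 a1 a2 a3 : ℝ} (ha : IsD a0 a1 a2 a3) : 0 ≤ fXi a0 a1 a2 a3 := by
  obtain ⟨_, _, _, h⟩ := sideX ha.dom
  unfold fXi
  rw [T_eq (a := a0), Q_eq (a := a0), bridgeX]
  exact mul_nonneg (sS_nonneg _ _ _ _) (div_nonneg h (by norm_num))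

theorem fAf_nonneg {a0 a1 a2 a3 : ℝ} (ha : IsD a0 a1 a2 a3) : 0 ≤ fAf a0 a1 a2 a3 := by
  obtain ⟨Hp, h1, h2, h3⟩ := sideW ha.dom
  unfold fAf
  rw [T_eq (a := a0), Q_eq (a := a0), bridgeW]
  rw [uW_eq _ _ rfl] at h3
  refine weight_nonneg (sS_nonneg _ _ _ _) (by norm_num) h1 h2 ?_
  norm_num
  norm_num at h3
  linarith

end Vale.Agent.Lib.P154Q5
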