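import Vale.Agent.Lib.P154Q5.CkAAll
import Vale.Agent.Lib.P154Q5.CkBAll
import Vale.Agent.Lib.P154Q5.CkIAll

/-!
The three inequalities on the whole domain.
-/

namespace Vale.Agent.Lib.P154Q5

theorem inC_low {S τ q : ℝ} (hd : Dom S τ q) (h : τ ≤ 1) : InC 4096 ⟨0, 49152, 0, 4096⟩ S τ := by
  have h1 := hd.s0
  have h2 := hd.s12
  have h3 := hd.t0
  constructor <;> push_cast <;> linarith

theorem inC_high {S τ q : ℝ} (hd : Dom S τ q) (h : 1 ≤ τ) : InC 4096 ⟨0, 49152, 4096, 12288⟩ S τ := by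
  have h1 := hd.s0
  have h2 := hd.s12
  have h3 := hd.t3
  constructor <;> push_cast <;> linarith

theorem inC_lowI {S τ q : ℝ} (hd : Dom S τ q) (h : τ ≤ 1) : InC 65536 ⟨0, 786432, 0, 65536⟩ S τ := by
  have h1 := hd.s0
  have h2 := hd.s12
  have h3 := hd.t0
  constructor <;> push_cast <;> linarith

theorem inC_highI {S τ q : ℝ} (hd : Dom S τ q) (h : 1 ≤ τ) : InC 65536 ⟨0, 786432, 65536, 196608⟩ S τ := by
  have h1 := hd.s0
  have h2 := hd.s12
  have h3 := hd.t3
  constructor <;> push_cast <;> linarith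

/-- the first inequality on the whole domain -/
theorem mainA {S τ q S' τ' q' : ℝ} (hd : Dom S τ q) (hd' : Dom S' τ' q') :
    0 ≤ dotR (bRA (ptF S τ q)) (ptF S' τ' q') := by
  rcases le_total τ 1 with h | h <;> rcases le_total τ' 1 with h' | h'
  · exact rootA00 S τ q S' τ' q' hd hd' (inC_low hd h) (inC_low hd' h')
  · exact rootA01 S τ q S' τ' q' hd hd' (inC_low hd h) (inC_high hd' h')
  · exact rootA10 S τ q S' τ' q' hd hd' (inC_high hd h) (inC_low hd' h')
  · exact rootA11 S τ q S' τ' q' hd hd' (inC_high hd h) (inC_high hd' h')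

/-- the second inequality on the whole domain -/
theorem mainB {S τ q S' τ' q' : ℝ} (hd : Dom S τ q) (hd' : Dom S' τ' q') :
    0 ≤ dotR (bRB (ptF S τ q)) (ptF S' τ' q') := by
  rcases le_total τ 1 with h | h <;> rcases le_total τ' 1 with h' | h'
  · exact rootB00 S τ q S' τ' q' hd hd' (inC_low hd h) (inC_low hd' h')
  · exact rootB01 S τ q S' τ' q' hd hd' (inC_low hd h) (inC_high hd' h')
  · exact rootB10 S τ q S' τ' q' hd hd' (inC_high hd h) (inC_low hd' h')
  · exact rootB11 S τ q S' τ' q' hd hd' (inC_high hd h) (inC_high hd' h')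

/-- the third inequality on the whole domain -/
theorem mainI {S τ q D : ℝ} (hd : Dom S τ q) (h1 : 0 ≤ D) (h2 : D ≤ 4)
    (hc : 1 < D → 4 * (D - 1) ^ 2 ≤ 3 * S) (hz : ∀ z, 8 / 3 ≤ z → z ≤ D → Gz z S τ ≤ 0) :
    0 ≤ dotR (bRI (ptF S τ q)) (ptD D) := by
  have hy : InC 65536 ⟨0, 0, 0, 262144⟩ 0 D := by
    constructor <;> push_cast <;> linarith
  rcases le_total τ 1 with h | h
  · exact rootI0 S τ q 0 D 0 hd trivial (inC_lowI hd h) hy hc hz
  · exact rootI1 S τ q 0 D 0 hd trivial (inC_highI hd h) hy hc hz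

end Vale.Agent.Lib.P154Q5
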