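import Vale.Agent.Lib.P154Q5.Leaf

/-!
The test for a linear form on a single cell, with trees.
-/

namespace Vale.Agent.Lib.P154Q5

/-- the test at a leaf for a linear form depending on a parameter -/
def sideLeaf (U : Nat) (cP cN : Nat → V) (f1 g1 _f2 _g2 : Bool) (x _y : Cell) : Bool :=
  and (and (Nat.ble x.th (Nat.mul 3 U)) (and (Nat.ble x.sh (Nat.mul 12 U)) (Nat.ble (Nat.add x.tl 1) x.th)))
  (or (isEmpty U x)
    (let L := clipL U x
     let H := Nat.add (clipH U x) 1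
     and (Nat.ble (Nat.add L 1) H)
      (and (or (not f1) (Nat.ble 1 L))
      (and (or (not g1) (neGuard U L H x.tl x.th))
        (List.all (cellV U L H x.tl x.th f1 g1) (fun v => Nat.ble (dot (cN H) v) (dot (cP H) v)))))))

/-- what a leaf gives -/
def SideP (U : Nat) (uR : Nat → VR) (S τ q _S' _τ' _q' : ℝ) : Prop :=
  ∃ Hp : Nat, (U : ℝ) * S ≤ Hp ∧ 0 < Hp ∧ 0 ≤ dotR (uR Hp) (ptF S τ q)

theorem sideLeaf_sound {U : Nat} (hU : 1 ≤ U) {cP cN : Nat → V} {uR : Nat → VR}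
    (hlink : ∀ H v, dotR (uR H) v.r = (dot (cP H) v : ℝ) - (dot (cN H) v : ℝ))
    {f1 n1 f2 n2 : Bool} {x y : Cell} (ht : sideLeaf U cP cN f1 n1 f2 n2 x y = true) {S τ q : ℝ} (hd : Dom S τ q)
    (hx : InC U x S τ) : ∃ Hp : Nat, (U : ℝ) * S ≤ Hp ∧ 0 < Hp ∧ 0 ≤ dotR (uR Hp) (ptF S τ q) := by
  unfold sideLeaf at ht
  simp only [Bool.and_eq_true, Bool.or_eq_true] at ht
  obtain ⟨⟨g1, g3, g5⟩, ht⟩ := ht
  have g1' := Nat.le_of_ble_eq_true g1
  have g3' := Nat.le_of_ble_eq_true g3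
  have g5' := Nat.le_of_ble_eq_true g5
  simp only [Nat.mul_eq, Nat.add_eq] at g1' g3' g5'
  have hU0 : 0 < U := hU
  rcases ht with he | ht
  · exact (isEmpty_sound hU hd hx g1' he).elim
  obtain ⟨k1, k3, k7, k5⟩ := ht
  have k1' := Nat.le_of_ble_eq_true k1
  simp only [Nat.add_eq] at k1'
  have hH1' : (U : ℝ) * S ≤ ((clipH U x + 1 : ℕ) : ℝ) := by
    have := le_clipH hU0 hd hx g1'
    push_cast
    linarith
  set L := clipL U x with hL
  set H := clipH U x + 1 with hH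
  have hL1 : (L : ℝ) ≤ U * S := clipL_le hU0 hd hx
  have hf1 : f1 = true → 0 < L := by
    intro hf
    rcases k3 with k | k
    · simp [hf] at k
    · exact Nat.le_of_ble_eq_true k
  have hg1 : n1 = true → neGuard U L H x.tl x.th = true := by
    intro hf
    rcases k7 with k | k
    · simp [hf] at k
    · exact k
  have hull1 := hull_cell hU0 (by omega : L < H) (by omega : x.tl < x.th) hf1 hg1 hd hL1 hH1' hx.t1 hx.t2
  refine ⟨H, hH1', by omega, ?_⟩
  apply hull1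
  intro v hv
  rw [hlink]
  have := (List.all_eq_true.1 k5) v hv
  have h2 := Nat.le_of_ble_eq_true this
  have h3 : ((dot (cN H) v : ℕ) : ℝ) ≤ (dot (cP H) v : ℕ) := by exact_mod_cast h2
  linarith

theorem side_sound {U : Nat} (hU : 1 ≤ U) {cP cN : Nat → V} {uR : Nat → VR}
    (hlink : ∀ H v, dotR (uR H) v.r = (dot (cP H) v : ℝ) - (dot (cN H) v : ℝ)) (t : Tr) (x y : Cell)
    (h : chk U (sideLeaf U cP cN) t x y = true) :
    CellOK U Dom (fun _ _ _ => True) (SideP U uR) x y := by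
  refine chk_sound (fun f1 g1 f2 g2 x y h S τ q S' τ' q' hd _ hx hy => ?_) t x y h
  exact sideLeaf_sound hU hlink h hd hx

end Vale.Agent.Lib.P154Q5
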