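import Vale.Agent.Lib.P154Q5.Side

namespace Vale.Agent.Lib.P154Q5

set_option maxRecDepth 100000
set_option exponentiation.threshold 1000

open Tr

/-- the coefficients of a linear form -/
def cX : VR := ⟨(529992 : ℝ), (108280 : ℝ), (5608 : ℝ), (-5877 : ℝ), (21228 : ℝ), (1656 : ℝ), (-3594 : ℝ), (-157 : ℝ), (0 : ℝ), (0 : ℝ)⟩

theorem linkX (H : Nat) (v : V) : dotR cX v.r = (dot ⟨529992, 108280, 5608, 0, 21228, 1656, 0, 0, 0, 0⟩ v : ℝ) - (dot ⟨0, 0, 0, 5877, 0, 0, 3594, 157, 0, 0⟩ v : ℝ) := by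
  simp only [dotR, cX, V.r, dot_eq]
  push_cast
  ring

theorem rootSX0 : CellOK 4096 Dom (fun _ _ _ => True) (SideP 4096 (fun _ => cX)) ⟨0, 49152, 0, 4096⟩ ⟨0, 0, 0, 0⟩ :=
  side_sound (by norm_num) linkX z2 _ _ (by decide +kernel)

theorem rootSX1 : CellOK 4096 Dom (fun _ _ _ => True) (SideP 4096 (fun _ => cX)) ⟨0, 49152, 4096, 12288⟩ ⟨0, 0, 0, 0⟩ :=
  side_sound (by norm_num) linkX (a z2 (b z2 (b z2 (b z2 (b z2 (b z2 (b z2 z0))))))) _ _ (by decide +kernel)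

theorem sideX {S τ q : ℝ} (hd : Dom S τ q) :
    ∃ Hp : Nat, (4096 : ℝ) * S ≤ Hp ∧ 0 < Hp ∧ 0 ≤ dotR ((fun _ => cX) Hp) (ptF S τ q) := by
  have hy : InC 4096 ⟨0, 0, 0, 0⟩ 0 0 := by
    constructor <;> norm_num
  have h1 := hd.s0
  have h2 := hd.s12
  have h3 := hd.t0
  have h4 := hd.t3
  rcases le_total τ 1 with h | h
  · exact rootSX0 S τ q 0 0 0 hd trivial (by constructor <;> push_cast <;> linarith) hy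
  · exact rootSX1 S τ q 0 0 0 hd trivial (by constructor <;> push_cast <;> linarith) hy

/-- the coefficients of a linear form -/
def cW : VR := ⟨(9473476 : ℝ), (4744896 : ℝ), (-1483016 : ℝ), (-200797 : ℝ), (-123108 : ℝ), (-252456 : ℝ), (-221004 : ℝ), (41798 : ℝ), (0 : ℝ), (0 : ℝ)⟩

/-- the positive part of the test with the parameter -/
def cPW (H : Nat) : V := ⟨12884901888 + H * 0, H * 0, H * 1483016, H * 200797, H * 123108, H * 252456, H * 221004, H * 0, H * 0, H * 0⟩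

/-- the negative part of the test with the parameter -/
def cNW (H : Nat) : V := ⟨H * 9473476, H * 4744896, H * 0, H * 0, H * 0, H * 0, H * 0, H * 41798, H * 0, H * 0⟩

/-- the test with the parameter -/
def uW (H : Nat) : VR := ⟨(12884901888 : ℝ) - H * cW.a0, -(H * cW.a1), -(H * cW.a2), -(H * cW.a3), -(H * cW.a4), -(H * cW.a5), -(H * cW.a6), -(H * cW.a7), -(H * cW.a8), -(H * cW.a9)⟩

theorem linkW (H : Nat) (v : V) : dotR (uW H) v.r = (dot (cPW H) v : ℝ) - (dot (cNW H) v : ℝ) := by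
  simp only [dotR, uW, cW, V.r, dot_eq, cPW, cNW]
  push_cast
  ring

theorem rootSW0 : CellOK 4096 Dom (fun _ _ _ => True) (SideP 4096 uW) ⟨0, 49152, 0, 4096⟩ ⟨0, 0, 0, 0⟩ :=
  side_sound (by norm_num) linkW (a (a z0 z0) (b z0 (b (a z0 z0) (a (b (a z0 z0) (a (b (a z0 z0) (a z0 (b z0 (a z0 z0)))) (b (a z0 z0) (a (b (a z0 z0) (a z0 z0)) (b z0 (a z0 z0)))))) (b z0 (a (b z0 (a z0 z2)) z2)))))) _ _ (by decide +kernel)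

theorem rootSW1 : CellOK 4096 Dom (fun _ _ _ => True) (SideP 4096 uW) ⟨0, 49152, 4096, 12288⟩ ⟨0, 0, 0, 0⟩ :=
  side_sound (by norm_num) linkW (a (a (b (a z0 (b (b (a (b (a z0 (b (a z0 z0) (a z2 (b z0 (b (a z2 z2) (a z2 z2)))))) (a z2 (b (a z2 (b (b (a z2 z2) z2) z2)) (a z2 z2)))) (b (b (a (b (a (b z0 (a z0 z0)) (b (a z0 z0) (a z0 (b z0 (a z0 z0))))) (a (b (a z0 z0) (a z0 (b (a z0 z0) (a z0 z0)))) (b (a (b (a z0 z0) (a z0 z0)) (b (a z0 z0) (a z0 (b z0 (a z0 z0))))) (a (b (a z0 (b z0 (a z2 z0))) (a (b z0 (a z2 z2)) (b (a z2 z2) (a z2 z2)))) (b (a (b (a z0 z0) (a z0 z0)) (b (a z0 z0) (a z0 (b z0 z2)))) (a (b (a z2 (b z0 z2)) (a z2 z2)) (b (a (b (a z2 z2) z2) z2) (a z2 z2)))))))) (b (a (b (a z0 z0) (a (b (a z0 z0) (a z0 z0)) (b (a z0 z2) (a z0 z2)))) (b (a z0 z2) (a (b z0 (a z2 z2)) z2))) (a (b (a (b (a z0 z0)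 (a (b (a z0 z2) (a z0 z2)) (b (a z2 z2) (a z2 z2)))) (b (a z0 z2) (a (b (a z2 z2) (a z2 z2)) z2))) (a (b (a (b (a z2 z2) (a z2 z2)) (b (a z2 z2) (a z2 z2))) (a (b (a z2 z2) (a z2 z2)) (b (a z2 z2) (a z2 z2)))) (b (a (b (a z2 z2) (a z2 z2)) z2) (a (b (a z2 z2) (a z2 z2)) z2)))) (b (a (b (a z2 z2) (a z2 z2)) z2) (a (b (a z2 z2) (a z2 z2)) z2))))) (a (b (a (b (a z0 (b (a z2 z0) (a z2 (b (a z2 z2) z2)))) (a (b z0 (a z2 z2)) (b (a z2 z2) (a z2 z2)))) (b (a (b (a (b (a z2 z2) (a z2 z2)) (b (a z2 z2) (a z2 z2))) (a (b (a z2 z2) (a z2 z2)) (b (a z2 z2) (a z2 z2)))) (b (a (b (a z2 z2) (a z2 z2)) (b (a z2 z2) (a z2 z2))) (a (b (a z2 z2) (a z2 z2)) (b (a z2 z2) (a z2 z2))))) (a (b (a (b (a z2 z2) (a z2 z2)) (b (a z2 z2) (a z2 z2))) (a (b (a z2 z2) z2) (b (a z2 z2) (a z2 z2)))) (b (a (b (a z2 z2) (a z2 z2)) (b (a z2 z2)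 (a z2 z2))) (a (b (a z2 z2) (a z2 z2)) (b (a z2 z2) (a z2 z2))))))) (a (b (a (b (a z2 z2) z2) (b (a z2 z2) (a z2 z2))) (a z2 (b (a z2 z2) (a z2 z2)))) (b (a (b (a z2 (b (a z2 z2) (a z2 z2))) (a z2 z2)) (b (a (b (a z2 z2) (a z2 z2)) (b (a z2 z2) (a z2 z2))) (a (b (a z2 z2) (a z2 z2)) (b (a z2 z2) (a z2 z2))))) (a (b (a z2 z2) (a z2 z2)) (b (a z2 (b (a z2 z2) (a z2 z2))) (a z2 z2)))))) (b (a (b (a (b (a (b (a z2 z2) (a z2 z2)) (b (a z2 z2) (a z2 z2))) (a (b (a z2 z2) (a z2 z2)) (b (a z2 z2) (a z2 z2)))) (b (a (b (a z2 z2) (a z2 z2)) z2) (a (b (a z2 z2) (a z2 z2)) z2))) (a (b (a (b (a z2 z2) (a z2 z2)) (b (a z2 z2) (a z2 z2))) (a (b (a z2 z2) (a z2 z2)) (b (a z2 z2) (a z2 z2)))) (b (a (b (a z2 z2) (a z2 z2)) z2) (a (b (a z2 z2) (a z2 z2)) z2)))) (b (a (b (a z2 z2) (a z2 z2)) z2) (a (b (a z2 z2) (a z2 z2)) (b (a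 z2 z2) (a z2 z2))))) (a (b (a (b (a (b (a z2 z2) (a z2 z2)) (b (a z2 z2) (a z2 z2))) (a (b (a z2 z2) (a z2 z2)) (b (a z2 z2) (a z2 z2)))) (b (a (b (a z2 z2) (a z2 z2)) z2) (a (b (a z2 z2) (a z2 z2)) z2))) (a (b (a (b (a z2 z2) (a z2 z2)) (b (a z2 z2) (a z2 z2))) (a (b (a z2 z2) z2) (b (a z2 z2) z2))) (b (a z2 z2) (a z2 z2)))) (b (a (b (a z2 z2) (a z2 z2)) (b (a z2 z2) (a z2 z2))) (a (b (a z2 z2) (a z2 z2)) (b (a z2 z2) (a z2 z2)))))))) (b (a (b (a (b (a z2 (b (a z2 z2) z2)) (a z2 z2)) (b (a (b (a z2 z2) (a z2 z2)) (b (a z2 z2) (a z2 z2))) (a (b (a z2 z2) (a z2 z2)) (b (a z2 z2) (a z2 z2))))) (a (b (a z2 z2) (a z2 z2)) (b (a (b (a z2 z2) z2) (b (a z2 z2) (a z2 z2))) (a z2 (b (a z2 z2) (a z2 z2)))))) (b (a (b (a (b (a z2 z2) (a z2 z2)) (b (a z2 z2) (a z2 z2))) (a (b (a z2 z2) (a z2 z2)) (b (a z2 z2) (a z2 z2))))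 (b (a (b (a z2 z2) (a z2 z2)) (b (a z2 z2) (a z2 z2))) (a (b (a z2 z2) (a z2 z2)) (b (a z2 z2) (a z2 z2))))) (a (b (a (b (a z2 z2) (a z2 z2)) (b (a z2 z2) (a z2 z2))) (a (b (a z2 z2) (a z2 z2)) (b (a z2 z2) (a z2 z2)))) (b (a (b (a z2 z2) (a z2 z2)) (b (a z2 z2) (a z2 z2))) (a (b (a z2 z2) (a z2 z2)) (b (a z2 z2) (a z2 z2))))))) (a (b (a (b (a z2 z2) (a z2 z2)) (b (a z2 (b (a z2 z2) z2)) (a z2 z2))) (a z2 (b (a z2 z2) (a z2 z2)))) (b (a (b (a (b (a z2 z2) (a z2 z2)) (b (a z2 z2) (a z2 z2))) (a (b (a z2 z2) (a z2 z2)) (b (a z2 z2) (a z2 z2)))) (b (a (b (a z2 z2) (a z2 z2)) (b (a z2 z2) (a z2 z2))) (a (b (a z2 z2) (a z2 z2)) (b (a z2 z2) (a z2 z2))))) (a (b (a z2 (b (a z2 z2) (a z2 z2))) (a z2 z2)) (b (a (b (a z2 z2) (a z2 z2)) z2) (a (b (a z2 z2) z2) z2)))))))) (a (b (a z2 z2) z2) (b (b (a (b (a z2 (b (a z2 z2)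 (a z2 z2))) (a z2 z2)) (b (a (b (a z2 z2) (a z2 z2)) (b (a z2 z2) (a z2 z2))) (a (b (a z2 z2) (a z2 z2)) (b (a z2 z2) (a z2 z2))))) (a (b (a z2 z2) (a z2 z2)) (b (a (b (a z2 z2) (a z2 z2)) (b (a z2 z2) (a z2 z2))) (a z2 (b (a z2 z2) (a z2 z2)))))) (b (a z2 (b (a z2 (b (a z2 z2) z2)) (a z2 z2))) (a z2 (b (a z2 z2) (a z2 z2))))))) (b (a z2 (b (b (a z2 z2) (a z2 z2)) z2)) z2))) z2) (b (b (b (b (a (b (a (b (a z2 z2) (a z2 z2)) z2) (a (b (a (b (a z2 z2) (a z2 z2)) z2) (a (b (a z2 z2) (a z2 z2)) z2)) z2)) z2) (a (b (a (b (a (b (a z2 z2) (a z2 z2)) z2) (a (b (a z2 z2) (a z2 z2)) z2)) z2) (a (b (a (b (a z2 z2) (a z2 z2)) z2) (a (b (a z2 z2) (a z2 z2)) z2)) (b (a z2 z2) (a z2 z2)))) z2)) (b (a (b (a (b (a (b (a z2 z2) (a z2 z2)) (b (a z2 z2) (a z2 z2))) (a (b (a z2 z2) (a z2 z2)) (b (a z2 z2) (a z2 z2)))) (b (a z2 z2)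 (a z2 z2))) (a (b (a (b (a z2 z2) (a z2 z2)) (b (a z2 z2) (a z2 z2))) (a (b (a z2 z2) (a z2 z2)) (b (a z2 z2) (a z2 z2)))) (b (a z2 z2) (a z2 z2)))) (b z2 (a z2 z2))) (a (b (a (b (a (b (a z2 z2) (a z2 z2)) (b (a z2 z2) (a z2 z2))) (a (b (a z2 z2) (a z2 z2)) (b (a z2 z2) (a z2 z2)))) (b (a z2 z2) (a z2 z2))) (a (b (a (b (a z2 z2) (a z2 z2)) (b (a z2 z2) (a z2 z2))) (a z2 (b (a z2 z2) z2))) (b (a z2 z2) (a z2 z2)))) (b (a z2 z2) (a z2 z2))))) (b (a (b (a (b (a (b (a z2 z2) z2) (b (a z2 z2) (a z2 z2))) (a z2 (b (a z2 z2) z2))) (b (a (b (a z2 z2) (a z2 z2)) z2) (a (b (a z2 z2) z2) z2))) (a (b (a z2 z2) (a z2 z2)) (b (a z2 z2) (a z2 z2)))) (b (b (a z2 z2) (a z2 z2)) (b (a (b (a z2 z2) (a z2 z2)) z2) (a (b (a z2 z2) (a z2 z2)) z2)))) (a (b (a (b (a z2 z2) z2) (b (a z2 z2) (a z2 z2))) (a z2 (b (a z2 z2) z2))) (b (b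 (a z2 z2) (a (b (a z2 z2) (a z2 z2)) z3)) (a (b (a z2 z2) (a z2 z2)) (b z3 (b z3 (a z3 z3)))))))) (b (b (a z2 (b (a (b (a z2 z2) z2) (b (b (a z3 z3) (a z3 z3)) (b (a z3 z3) (a z3 z3)))) (a z2 (b (b (a z2 z3) (a z2 z3)) (b (a z2 z3) z3))))) z2) z0))) (b z3 (b (b (b z3 (b (b z3 (a z3 z3)) (b (a z3 z3) (a z3 z3)))) (b (b (a (b (a z3 z3) (a z3 z3)) (b z3 (a z3 z3))) (a (b (a z3 z3) (a z2 z3)) (b (a z3 z3) (a z3 z3)))) (a (b (a z2 (b (a z3 z3) (a z3 z3))) (b (a z2 z3) z2)) (b (b (a z3 z3) (a (b (a z3 z3) (a z3 z3)) z3)) (a (b (a z3 z3) (a z3 z3)) (b (b z3 (a z3 z3)) (b (a z3 z3) (a z3 z3)))))))) (b (b (a (b (a z2 (b (b (a z3 z3) (a z3 z3)) (b (a z2 z3) (a z2 z3)))) z3) (b (b (b (a z3 z3) (a z3 z3)) (a (b (a z3 z3) (a z3 z3)) (b z3 (a z3 z3)))) (b (a (b (a z3 (b (a z3 z3) (a z3 z3))) (a z3 (b (a z3 z3) z3))) (b (a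 z3 z3) (a (b (a z3 z3) (a z3 z3)) (b z3 (a z3 z3))))) (a (b (a z3 (b (a z3 z3) (a z3 z3))) (a z2 z3)) (b (a (b (a z3 z3) (a z3 z3)) (b z3 (a z3 z3))) (a (b (a z3 z3) (a z3 z3)) (b (a z3 z3) (a z3 z3)))))))) (b (a (b (a z3 (b (a z3 (b (a z3 z3) z3)) (a z3 z3))) (b (a z2 z3) z2)) (b (b (b (a z3 z3) (a (b (a z3 z3) (a z3 z3)) (b z3 (a z3 z3)))) (a (b (a z3 z3) (a z3 z3)) (b (b (a z3 z3) (a z3 z3)) (a z3 z3)))) (a (b (a z3 (b (a z3 z3) (a z3 z3))) (a z3 (b (a z3 z3) z3))) (b (b (b (a z3 z3) (a z3 z3)) (a z3 z3)) (b (a (b (a z3 z3) (a z3 z3)) (b z3 (a z3 z3))) (a (b (a z3 z3) (a z3 z3)) (b (a z3 z3) (a z3 z3)))))))) (b (a (b (a z3 (b (a z3 z3) (a z3 z3))) z3) (b (b (a (b (a z3 z3) (a z3 z3)) (b z3 (a z3 z3))) (a (b (a z3 z3) (a z3 z3)) (b (a z3 z3) (a z3 z3)))) (a (b (a z3 z3) (a z3 z3)) (b (b (a z3 z3) (a z3 z3))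 (a z3 (b z3 (a z3 z3))))))) (a (b (a z3 (b (a z3 z3) z3)) z3) (b (b (a z3 z3) (a z3 (b z3 (a z3 z3)))) (a (b (a z3 z3) z3) (b (b z3 (a z3 z3)) (a z3 z3)))))))) (b (b (b (a (b (a z3 z3) z3) (b (b (b z3 z3) (a z3 z3)) (a z3 (b z3 z3)))) (b (a z3 (b z3 z3)) (a z3 z3))) (b (b (a z3 z3) z3) z3)) (b (b z3 z3) (b z3 (b z2 (b z2 (b z2 z0)))))))))) _ _ (by decide +kernel)

theorem sideW {S τ q : ℝ} (hd : Dom S τ q) :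
    ∃ Hp : Nat, (4096 : ℝ) * S ≤ Hp ∧ 0 < Hp ∧ 0 ≤ dotR (uW Hp) (ptF S τ q) := by
  have hy : InC 4096 ⟨0, 0, 0, 0⟩ 0 0 := by
    constructor <;> norm_num
  have h1 := hd.s0
  have h2 := hd.s12
  have h3 := hd.t0
  have h4 := hd.t3
  rcases le_total τ 1 with h | h
  · exact rootSW0 S τ q 0 0 0 hd trivial (by constructor <;> push_cast <;> linarith) hy
  · exact rootSW1 S τ q 0 0 0 hd trivial (by constructor <;> push_cast <;> linarith) hy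

end Vale.Agent.Lib.P154Q5
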